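import Vale.Agent.P171.Core

open MeasureTheory Filter Topology

namespace Vale.Agent.P171

/-- Ekeland's variational principle -/
theorem ekeland {X : Type*} [MetricSpace X] [CompleteSpace X] (F : X → ℝ)
    (hF : LowerSemicontinuous F) (h0 : ∀ x, 0 ≤ F x) {ε : ℝ} (hε : 0 < ε) (x0 : X) :
    ∃ x', F x' + ε * dist x0 x' ≤ F x0 ∧ ∀ y, F x' ≤ F y + ε * dist x' y := by
  classical
  set S : X → Set X := fun x => {y | F y + ε * dist x y ≤ F x} with hS
  have hself : ∀ x, x ∈ S x := fun x => by simp [hS]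
  have htrans : ∀ x y, y ∈ S x → S y ⊆ S x := by
    intro x y hy z hz
    simp only [hS, Set.mem_ofPred_eq] at hy hz ⊢
    have := dist_triangle x y z
    nlinarith
  have hbdd : ∀ x, BddBelow (F '' S x) := fun x => ⟨0, by rintro _ ⟨y, _, rfl⟩; exact h0 y⟩
  have hstep : ∀ (x : X) (n : ℕ), ∃ y ∈ S x, F y ≤ sInf (F '' S x) + (1/2) ^ n := by
    intro x n
    have hne : (F '' S x).Nonempty := ⟨F x, x, hself x, rfl⟩
    obtain ⟨_, ⟨y, hy, rfl⟩, hlt⟩ := exists_lt_of_csInf_lt hne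
      (show sInf (F '' S x) < sInf (F '' S x) + (1/2) ^ n by
        have : (0:ℝ) < (1/2) ^ n := by positivity
        linarith)
    exact ⟨y, hy, hlt.le⟩
  choose f hf1 hf2 using hstep
  set x : ℕ → X := fun n => Nat.rec x0 (fun n y => f y n) n with hx
  have hxs : ∀ n, x (n+1) = f (x n) n := fun n => rfl
  have hmem : ∀ n, x (n+1) ∈ S (x n) := fun n => by rw [hxs]; exact hf1 _ _
  have hmono : ∀ n m, n ≤ m → x m ∈ S (x n) := by
    intro n m h
    induction m, h using Nat.le_induction with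
    | base => exact hself _
    | succ m _ ih => exact htrans _ _ ih (hmem m)
  have hsub : ∀ n m, n ≤ m → S (x m) ⊆ S (x n) := fun n m h => htrans _ _ (hmono n m h)
  have hdiam : ∀ n, ∀ y ∈ S (x (n+1)), ε * dist (x (n+1)) y ≤ (1/2) ^ n := by
    intro n y hy
    have h1 : sInf (F '' S (x n)) ≤ F y := csInf_le (hbdd _) ⟨y, hsub n (n+1) (Nat.le_succ n) hy, rfl⟩
    have h2 : F (x (n+1)) ≤ sInf (F '' S (x n)) + (1/2) ^ n := by rw [hxs]; exact hf2 _ _
    simp only [hS, Set.mem_ofPred_eq] at hy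
    linarith
  have hcauchy : CauchySeq x := by
    rw [Metric.cauchySeq_iff']
    intro δ hδ
    obtain ⟨n, hn⟩ := exists_pow_lt_of_lt_one (show 0 < ε * δ by positivity)
      (show (1/2 : ℝ) < 1 by norm_num)
    refine ⟨n+1, fun m hm => ?_⟩
    have := hdiam n (x m) (hmono _ _ hm)
    rw [dist_comm]
    by_contra hcon
    push Not at hcon
    have : ε * δ ≤ ε * dist (x (n+1)) (x m) := by gcongr
    linarith
  obtain ⟨x', hx'⟩ := cauchySeq_tendsto_of_complete hcauchy
  have hclosed : ∀ z, IsClosed (S z) := by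
    intro z
    have h1 : LowerSemicontinuous (fun y => F y + ε * dist z y) :=
      hF.add (Continuous.lowerSemicontinuous (by fun_prop))
    exact h1.isClosed_preimage (F z)
  have hx'S : ∀ n, x' ∈ S (x n) := fun n =>
    (hclosed (x n)).mem_of_tendsto hx' (eventually_atTop.2 ⟨n, fun m hm => hmono n m hm⟩)
  refine ⟨x', hx'S 0, fun y => ?_⟩
  by_contra hcon
  push Not at hcon
  have hy : ∀ n, y ∈ S (x n) := fun n => htrans _ _ (hx'S n) hcon.le
  have hlim : Tendsto x atTop (𝓝 y) := by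
    rw [Metric.tendsto_atTop]
    intro δ hδ
    obtain ⟨n, hn⟩ := exists_pow_lt_of_lt_one (show 0 < ε * δ / 2 by positivity)
      (show (1/2 : ℝ) < 1 by norm_num)
    refine ⟨n+1, fun m hm => ?_⟩
    obtain ⟨m', rfl⟩ : ∃ m', m = m' + 1 := ⟨m - 1, by omega⟩
    have h1 := hdiam m' y (hy (m'+1))
    have h2 : ((1:ℝ)/2) ^ m' ≤ (1/2) ^ n :=
      pow_le_pow_of_le_one (by norm_num) (by norm_num) (by omega)
    by_contra hcon'
    push Not at hcon'
    have : ε * δ ≤ ε * dist (x (m'+1)) y := by gcongr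
    have : 0 < ε * δ := by positivity
    linarith
  have hxy : x' = y := tendsto_nhds_unique hx' hlim
  subst hxy
  simp at hcon

/-- the parameter space -/
abbrev Par : Type := {p : ℝ × lp (fun _ : ℕ => ℝ) 1 // (∀ j, 0 ≤ p.2 j) ∧ ‖p.2‖ ≤ 100}

theorem isClosed_par : IsClosed {p : ℝ × lp (fun _ : ℕ => ℝ) 1 | (∀ j, 0 ≤ p.2 j) ∧ ‖p.2‖ ≤ 100} := by
  have h1 : ∀ j : ℕ, Continuous (fun p : ℝ × lp (fun _ : ℕ => ℝ) 1 => (p.2 : ∀ _ : ℕ, ℝ) j) := by
    intro j
    have := lp.uniformContinuous_coe (E := fun _ : ℕ => ℝ) (p := 1)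
    exact (continuous_apply j).comp (this.continuous.comp continuous_snd)
  have : {p : ℝ × lp (fun _ : ℕ => ℝ) 1 | (∀ j, 0 ≤ p.2 j) ∧ ‖p.2‖ ≤ 100} =
      (⋂ j, {p | 0 ≤ (p.2 : ∀ _ : ℕ, ℝ) j}) ∩ {p | ‖p.2‖ ≤ 100} := by
    ext p; simp
  rw [this]
  refine IsClosed.inter (isClosed_iInter fun j => isClosed_le continuous_const (h1 j)) ?_
  exact isClosed_le (continuous_norm.comp continuous_snd) continuous_const

instance : CompleteSpace Par := isClosed_par.completeSpace_coe

theorem lp_norm_tsum (f : lp (fun _ : ℕ => ℝ) 1) : ‖f‖ = ∑' j, |f j| := by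
  rw [lp.norm_eq_tsum_rpow (by norm_num) f]
  simp

theorem lp_summable (f : lp (fun _ : ℕ => ℝ) 1) : Summable fun j => |f j| := by
  have := (lp.memℓp f).summable (by norm_num)
  simpa using this

theorem adm_par (p : Par) : Adm (p.1.2 : ∀ _ : ℕ, ℝ) := by
  have hs := lp_summable p.1.2
  have he : ∀ j, |p.1.2 j| = p.1.2 j := fun j => abs_of_nonneg (p.2.1 j)
  refine ⟨p.2.1, ?_, ?_⟩
  · simpa only [he] using hs
  · have := p.2.2
    rw [lp_norm_tsum] at this
    simpa only [he] using this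

theorem norm_par (p : Par) : ‖p.1.2‖ = ∑' j, p.1.2 j := by
  rw [lp_norm_tsum]
  exact tsum_congr fun j => abs_of_nonneg (p.2.1 j)

theorem main_abstract (P : ℝ → (ℕ → ℝ) → ℝ)
    (hlsc : ∀ (ν : ℕ → ℝ) (a : ℕ → ℕ → ℝ) (ν0 : ℝ) (a0 : ℕ → ℝ) (c : ℝ), (∀ n, Adm (a n)) →
      Adm a0 → Tendsto ν atTop (𝓝 ν0) → Tendsto (fun n => ∑' j, |a n j - a0 j|) atTop (𝓝 0) →
      (∀ n, P (ν n) (a n) ≤ c) → P ν0 a0 ≤ c)
    (hnonneg : ∀ ν a, Adm a → 0 ≤ P ν a) (hgrowth : ∀ ν a, Adm a → P ν a ≤ 1 + 16 * ν ^ 2)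
    (hmono : ∀ ν ν' a, Adm a → ν ≤ ν' → P ν a ≤ P ν' a)
    (htrial : ∀ ν a, Adm a → ν - Hc / 2 - Real.log 64 + (7 / 16) * ∑' j, a j ≤ P ν a)
    (hzero : P (Hc / 2) 0 ≤ 1)
    (hlp : ∀ ν a t t1 τ ε, Adm a → 0 < t → t < t1 → 0 ≤ τ → ∑' j, a j + t ≤ 100 → 0 < ε →
      (∀ m, P (ν + m) a ≤ P ν a + τ + m ^ 2 / (2 * t1)) →
      ∃ j : ℕ, P ν (fun i => a i + if i = j then t else 0) ≤ P ν a + τ + ε) :
    ∃ ν a, Adm a ∧ ¬ DifferentiableAt ℝ (fun s => P s a) ν := by
  set c0 : ℝ := Hc / 2 + Real.log 64 with hc0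
  set F : Par → ℝ := fun p => P p.1.1 p.1.2 - (p.1.1 - c0 + (7/16) * ‖p.1.2‖) / 2 with hF
  -- lower semicontinuity
  have hG : LowerSemicontinuous (fun p : Par => P p.1.1 p.1.2) := by
    rw [lowerSemicontinuous_iff_isClosed_preimage]
    intro c
    refine IsSeqClosed.isClosed fun u p hu hup => ?_
    have hup' := (continuous_subtype_val.tendsto p).comp hup
    have h1 : Tendsto (fun n => (u n).1.1) atTop (𝓝 p.1.1) :=
      (continuous_fst.tendsto _).comp hup'
    have h2 : Tendsto (fun n => (u n).1.2) atTop (𝓝 p.1.2) :=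
      (continuous_snd.tendsto _).comp hup'
    refine hlsc (fun n => (u n).1.1) (fun n => ((u n).1.2 : ∀ _ : ℕ, ℝ)) p.1.1 p.1.2 c
      (fun n => adm_par (u n)) (adm_par p) h1 ?_ hu
    have h3 := tendsto_iff_norm_sub_tendsto_zero.1 h2
    refine h3.congr fun n => ?_
    rw [lp_norm_tsum]
    rfl
  have hFl : LowerSemicontinuous F := by
    have h1 : LowerSemicontinuous (fun p : Par => -((p.1.1 - c0 + (7/16) * ‖p.1.2‖) / 2)) :=
      Continuous.lowerSemicontinuous (by fun_prop)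
    have h2 := hG.add h1
    exact h2
  have hF0 : ∀ p, 0 ≤ F p := by
    intro p
    have h1 := hnonneg p.1.1 _ (adm_par p)
    have h2 := htrial p.1.1 _ (adm_par p)
    rw [← norm_par p] at h2
    simp only [hF, hc0]
    linarith
  have hz : (∀ j, 0 ≤ ((0 : lp (fun _ : ℕ => ℝ) 1) : ∀ _ : ℕ, ℝ) j) ∧
      ‖(0 : lp (fun _ : ℕ => ℝ) 1)‖ ≤ 100 := by
    constructor
    · intro j; simp
    · simp
  set p0 : Par := ⟨(Hc / 2, 0), hz⟩ with hp0
  obtain ⟨q, hq1, hq2⟩ := ekeland F hFl hF0 (show (0:ℝ) < 1/32 by norm_num) p0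
  set ν := q.1.1 with hν
  set a : ℕ → ℝ := (q.1.2 : ∀ _ : ℕ, ℝ) with ha
  have hadm : Adm a := adm_par q
  have hlog : Real.log 64 ≤ 4.1588830848 := by
    have h1 : Real.log 64 = 6 * Real.log 2 := by
      rw [show (64:ℝ) = 2 ^ 6 by norm_num, Real.log_pow]; norm_num
    have h2 := Real.log_two_lt_d9
    rw [h1]; linarith
  have hFp0 : F p0 ≤ 3.0794415425 := by
    have h1 : F p0 = P (Hc/2) 0 - (Hc/2 - c0) / 2 := by
      simp only [hF, hp0, norm_zero, mul_zero, add_zero]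
      rfl
    rw [h1, hc0]
    linarith
  have hnorm : ‖q.1.2‖ ≤ 98.6 := by
    have h1 := hF0 q
    have h2 : dist p0 q ≤ 32 * 3.0794415425 := by linarith
    have h3 : dist (p0.1.2) (q.1.2) ≤ dist p0 q := by
      rw [Subtype.dist_eq, Prod.dist_eq]
      exact le_max_right _ _
    have h4 : dist (p0.1.2) (q.1.2) = ‖q.1.2‖ := by
      rw [dist_comm, dist_eq_norm]
      simp [hp0]
    rw [h4] at h3
    norm_num at h2 ⊢
    linarith
  have hsum : ∑' j, a j ≤ 98.6 := by rw [← norm_par q]; exact hnorm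
  refine ⟨ν, a, hadm, fun hdiff => ?_⟩
  -- direction of decreasing ν
  have hleft : ∀ δ, 0 < δ → P ν a - P (ν - δ) a ≤ (17/32) * δ := by
    intro δ hδ
    set y : Par := ⟨(ν - δ, q.1.2), q.2⟩ with hy
    have h1 := hq2 y
    have h2 : dist q y = δ := by
      rw [Subtype.dist_eq, Prod.dist_eq]
      simp only [hy, dist_self, Real.dist_eq]
      rw [← hν]
      have : |ν - (ν - δ)| = δ := by rw [sub_sub_cancel, abs_of_pos hδ]
      rw [this]
      exact max_eq_left hδ.le
    rw [h2] at h1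
    simp only [hF, hy] at h1
    rw [← hν, ← ha] at h1
    linarith
  -- direction of increasing a
  have hright : ∀ t, 0 < t → t ≤ 1.4 → ∀ j : ℕ,
      P ν a + (6/32) * t ≤ P ν (fun i => a i + if i = j then t else 0) := by
    intro t ht ht1 j
    set b : lp (fun _ : ℕ => ℝ) 1 := q.1.2 + lp.single 1 j t with hb
    have hbc : ∀ i, (b : ∀ _ : ℕ, ℝ) i = a i + if i = j then t else 0 := by
      intro i
      rw [hb, lp.coeFn_add, Pi.add_apply, lp.single_apply]
      congr 1
      by_cases h : i = j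
      · subst h; simp
      · simp [h]
    have hbn : ∀ i, 0 ≤ (b : ∀ _ : ℕ, ℝ) i := by
      intro i
      rw [hbc]
      have := hadm.nonneg i
      split_ifs <;> linarith
    have hsing : ‖(lp.single 1 j t : lp (fun _ : ℕ => ℝ) 1)‖ = t := by
      rw [lp.norm_single (by norm_num)]
      exact abs_of_pos ht
    have hb100 : ‖b‖ ≤ 100 := by
      rw [hb]
      refine (norm_add_le _ _).trans ?_
      rw [hsing]
      linarith
    set y : Par := ⟨(ν, b), hbn, hb100⟩ with hy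
    have h1 := hq2 y
    have h2 : dist q y = t := by
      rw [Subtype.dist_eq, Prod.dist_eq]
      have e1 : dist q.1.1 y.1.1 = 0 := by simp [hy, hν]
      have e2 : dist q.1.2 y.1.2 = t := by
        rw [dist_comm, dist_eq_norm]
        simp only [hy, hb, add_sub_cancel_left]
        exact hsing
      rw [e1, e2]
      exact max_eq_right ht.le
    have h3 : ‖b‖ = ‖q.1.2‖ + t := by
      have e1 := norm_par y
      have e2 := norm_par q
      simp only [hy] at e1
      rw [e1, e2]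
      simp_rw [hbc]
      rw [(hadm.summable).tsum_add (hasSum_ite_eq j t).summable, tsum_ite_eq]
    rw [h2] at h1
    have h4 : (y.1.2 : ∀ _ : ℕ, ℝ) = fun i => a i + if i = j then t else 0 := by
      funext i
      exact hbc i
    have h5 : F y = P ν (fun i => a i + if i = j then t else 0) -
        (ν - c0 + (7/16) * (‖q.1.2‖ + t)) / 2 := by
      simp only [hF]
      rw [h4]
      simp only [hy]
      rw [h3]
    have h6 : F q = P ν a - (ν - c0 + (7/16) * ‖q.1.2‖) / 2 := rfl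
    rw [h5, h6] at h1
    linarith
  -- derivative
  set ρ := deriv (fun s => P s a) ν with hρ
  have hd : HasDerivAt (fun s => P s a) ρ ν := hdiff.hasDerivAt
  have happrox : ∀ c, 0 < c → ∃ m0 > 0, ∀ h, |h| < m0 → |P (ν + h) a - P ν a - h * ρ| ≤ c * |h| := by
    intro c hc
    have h1 := (hasDerivAt_iff_isLittleO_nhds_zero.1 hd).bound hc
    rw [Metric.eventually_nhds_iff] at h1
    obtain ⟨m0, hm0, h2⟩ := h1
    refine ⟨m0, hm0, fun h hh => ?_⟩
    have := h2 (y := h) (by simpa using hh)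
    simpa [smul_eq_mul] using this
  have hρ1 : ρ ≤ 17/32 := by
    by_contra hcon
    push Not at hcon
    obtain ⟨m0, hm0, h1⟩ := happrox ((ρ - 17/32) / 2) (by linarith)
    have h2 := h1 (-(m0/2)) (by rw [abs_neg, abs_of_pos (by positivity)]; linarith)
    have h3 := hleft (m0/2) (by positivity)
    rw [abs_neg, abs_of_pos (show 0 < m0/2 by positivity)] at h2
    have h4 := (abs_le.1 h2).2
    have h5 : ν + -(m0/2) = ν - m0/2 := by ring
    rw [h5] at h4
    nlinarith
  obtain ⟨m0, hm0, h1⟩ := happrox (3/160) (by norm_num)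
  have hright1 : ∀ m, 0 ≤ m → m < m0 → P (ν + m) a ≤ P ν a + (11/20) * m := by
    intro m hm hmm
    have h2 := (abs_le.1 (h1 m (by rwa [abs_of_nonneg hm]))).2
    rw [abs_of_nonneg hm] at h2
    nlinarith
  set C : ℝ := (1 + 32 * ν ^ 2) / m0 ^ 2 + 32 with hC
  have hC0 : 0 < C := by positivity
  set t1 : ℝ := min 1 (1 / (2 * C)) with ht1
  have ht10 : 0 < t1 := by positivity
  have ht11 : t1 ≤ 1 := min_le_left _ _
  have ht12 : C ≤ 1 / (2 * t1) := by
    have h2 : t1 ≤ 1 / (2 * C) := min_le_right _ _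
    rw [le_div_iff₀ (by positivity)] at h2 ⊢
    linarith
  have hyp : ∀ m, P (ν + m) a ≤ P ν a + t1 * (11/20) ^ 2 / 2 + m ^ 2 / (2 * t1) := by
    intro m
    have hτ : 0 ≤ t1 * (11/20) ^ 2 / 2 := by positivity
    have hq : 0 ≤ m ^ 2 / (2 * t1) := by positivity
    rcases lt_or_ge m 0 with hm | hm
    · have := hmono (ν + m) ν a hadm (by linarith)
      linarith
    · rcases lt_or_ge m m0 with hmm | hmm
      · have h2 := hright1 m hm hmm
        have h3 : (11/20) * m ≤ t1 * (11/20) ^ 2 / 2 + m ^ 2 / (2 * t1) := by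
          have h4 : t1 * (11/20) ^ 2 / 2 + m ^ 2 / (2 * t1) - (11/20) * m =
              (t1 * (11/20) - m) ^ 2 / (2 * t1) := by
            field_simp
            ring
          have h5 : 0 ≤ (t1 * (11/20) - m) ^ 2 / (2 * t1) := by positivity
          linarith
        linarith
      · have h2 := hgrowth (ν + m) a hadm
        have h3 : 1 + 16 * (ν + m) ^ 2 ≤ C * m ^ 2 := by
          have h4 : (ν + m) ^ 2 ≤ 2 * ν ^ 2 + 2 * m ^ 2 := by nlinarith [sq_nonneg (ν - m)]
          have h5 : 1 + 32 * ν ^ 2 ≤ (1 + 32 * ν ^ 2) / m0 ^ 2 * m ^ 2 := by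
            have h6 : 1 ≤ m ^ 2 / m0 ^ 2 := by
              rw [le_div_iff₀ (by positivity), one_mul]
              exact pow_le_pow_left₀ hm0.le hmm 2
            calc 1 + 32 * ν ^ 2 = (1 + 32 * ν ^ 2) * 1 := by ring
              _ ≤ (1 + 32 * ν ^ 2) * (m ^ 2 / m0 ^ 2) := by gcongr
              _ = _ := by ring
          rw [hC]
          nlinarith
        have h4 : C * m ^ 2 ≤ m ^ 2 / (2 * t1) := by
          calc C * m ^ 2 ≤ 1 / (2 * t1) * m ^ 2 := by gcongr
            _ = _ := by ring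
        have h5 := hnonneg ν a hadm
        linarith
  obtain ⟨j, hj⟩ := hlp ν a (9 * t1 / 10) t1 (t1 * (11/20) ^ 2 / 2) (t1 / 100) hadm
    (by positivity) (by linarith) (by positivity) (by linarith) (by positivity) hyp
  have h2 := hright (9 * t1 / 10) (by positivity) (by linarith) j
  nlinarith

end Vale.Agent.P171
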