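import Vale.Agent.P171.Press

open MeasureTheory Filter Topology
open scoped ENNReal

namespace Vale.Agent.P171

/-- indicator of being in the same small cell -/
noncomputable def sg (x y : E3) : ℝ := if cell (1/4) 0 x = cell (1/4) 0 y then 1 else 0

/-- averaging weight -/
noncomputable def wt (l n : ℕ) : ℝ := min 1 (3 * (Rad n + 1) / l)

theorem wt_nonneg (l n : ℕ) : 0 ≤ wt l n := by
  unfold wt
  have := Rad_pos n
  refine le_min zero_le_one ?_
  positivity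

theorem wt_le_one (l n : ℕ) : wt l n ≤ 1 := min_le_left _ _

theorem adm_wt {a : ℕ → ℝ} (ha : Adm a) (l : ℕ) : Adm (fun n => a n * wt l n) := by
  have hs : Summable (fun n => a n * wt l n) :=
    Summable.of_nonneg_of_le (fun n => mul_nonneg (ha.nonneg n) (wt_nonneg l n))
      (fun n => mul_le_of_le_one_right (ha.nonneg n) (wt_le_one l n)) ha.summable
  refine ⟨fun n => mul_nonneg (ha.nonneg n) (wt_nonneg l n), hs, ?_⟩
  refine le_trans (hs.tsum_le_tsum (fun n => ?_) ha.summable) ha.le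
  exact mul_le_of_le_one_right (ha.nonneg n) (wt_le_one l n)

/-- the averaging error -/
noncomputable def del (a : ℕ → ℝ) (l : ℕ) : ℝ := 256 * ∑' n, a n * wt l n

theorem del_nonneg {a : ℕ → ℝ} (ha : Adm a) (l : ℕ) : 0 ≤ del a l := by
  unfold del
  have : 0 ≤ ∑' n, a n * wt l n := tsum_nonneg (fun n => (adm_wt ha l).nonneg n)
  positivity

theorem tendsto_del {a : ℕ → ℝ} (ha : Adm a) : Tendsto (del a) atTop (𝓝 0) := by
  have h1 : Tendsto (fun l : ℕ => ∑' n, a n * wt l n) atTop (𝓝 (∑' n, a n * 0)) := by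
    refine tendsto_tsum_of_dominated_convergence ha.summable (fun n => ?_) ?_
    · refine Tendsto.const_mul _ ?_
      have h2 : Tendsto (fun l : ℕ => 3 * (Rad n + 1) / (l : ℝ)) atTop (𝓝 0) :=
        tendsto_const_div_atTop_nhds_zero_nat _
      refine squeeze_zero (fun l => wt_nonneg l n) (fun l => min_le_right _ _) h2
    · filter_upwards with l n
      rw [Real.norm_eq_abs, abs_of_nonneg (mul_nonneg (ha.nonneg n) (wt_nonneg l n))]
      exact mul_le_of_le_one_right (ha.nonneg n) (wt_le_one l n)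
  simp only [mul_zero, tsum_zero] at h1
  have h2 := h1.const_mul (256:ℝ)
  rw [mul_zero] at h2
  exact h2

section

variable {ι : Type*} [Fintype ι]

theorem vk_mul_count_le (l n : ℕ) (hl : 0 < l) (x y : E3) :
    vk n x y * ((l:ℝ)⁻¹ * ∑ u ∈ Finset.range l,
      (if cell (l:ℝ) (u:ℝ) x ≠ cell (l:ℝ) (u:ℝ) y then (1:ℝ) else 0)) ≤ wt l n * vk n x y := by
  have hl' : (0:ℝ) < l := by exact_mod_cast hl
  rw [mul_comm]
  by_cases h : dist x y ≤ Rad n
  · refine mul_le_mul_of_nonneg_right ?_ (vk_nonneg n x y)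
    unfold wt
    refine le_min ?_ ?_
    · rw [inv_mul_le_iff₀ hl', mul_one]
      calc ∑ u ∈ Finset.range l, (if cell (l:ℝ) (u:ℝ) x ≠ cell (l:ℝ) (u:ℝ) y then (1:ℝ) else 0)
          ≤ ∑ u ∈ Finset.range l, (1:ℝ) := by
            refine Finset.sum_le_sum fun u _ => ?_
            split_ifs <;> norm_num
        _ = l := by simp
    · rw [inv_mul_eq_div]
      gcongr
      refine (shift_count l hl x y).trans ?_
      linarith
  · have : vk n x y = 0 := by unfold vk; rw [if_neg h]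
    rw [this]; simp

theorem split_pair (l : ℕ) (hl : 0 < l) (x y : E3) (A : ℝ) :
    A = (l:ℝ)⁻¹ * ∑ u ∈ Finset.range l,
      (if cell (l:ℝ) (u:ℝ) x = cell (l:ℝ) (u:ℝ) y then A else 0) +
      A * ((l:ℝ)⁻¹ * ∑ u ∈ Finset.range l,
      (if cell (l:ℝ) (u:ℝ) x ≠ cell (l:ℝ) (u:ℝ) y then (1:ℝ) else 0)) := by
  have hl' : (l:ℝ) ≠ 0 := by exact_mod_cast hl.ne'
  have h1 : A * ((l:ℝ)⁻¹ * ∑ u ∈ Finset.range l,
      (if cell (l:ℝ) (u:ℝ) x ≠ cell (l:ℝ) (u:ℝ) y then (1:ℝ) else 0)) =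
      (l:ℝ)⁻¹ * ∑ u ∈ Finset.range l,
      (if cell (l:ℝ) (u:ℝ) x ≠ cell (l:ℝ) (u:ℝ) y then A else 0) := by
    rw [mul_left_comm, Finset.mul_sum]
    congr 1
    refine Finset.sum_congr rfl fun u _ => ?_
    split_ifs <;> simp
  rw [h1, ← mul_add, ← Finset.sum_add_distrib]
  have h2 : ∀ u ∈ Finset.range l, ((if cell (l:ℝ) (u:ℝ) x = cell (l:ℝ) (u:ℝ) y then A else 0) +
      (if cell (l:ℝ) (u:ℝ) x ≠ cell (l:ℝ) (u:ℝ) y then A else 0)) = A := by
    intro u _
    by_cases h : cell (l:ℝ) (u:ℝ) x = cell (l:ℝ) (u:ℝ) y <;> simp [h]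
  rw [Finset.sum_congr rfl h2]
  simp [hl']

theorem avg_bound {a : ℕ → ℝ} (ha : Adm a) (l : ℕ) (hl : 0 < l) (x : ι → E3) :
    ∑ i, ∑ j, ∑' n, a n * vk n (x i) (x j) ≤
      (l:ℝ)⁻¹ * ∑ u ∈ Finset.range l, ∑ i, ∑ j,
        (if cell (l:ℝ) (u:ℝ) (x i) = cell (l:ℝ) (u:ℝ) (x j) then
          ∑' n, a n * vk n (x i) (x j) else 0) + 2 * del a l * Sq x := by
  have h1 : ∀ i j, ∑' n, a n * vk n (x i) (x j) ≤ (l:ℝ)⁻¹ * ∑ u ∈ Finset.range l,
      (if cell (l:ℝ) (u:ℝ) (x i) = cell (l:ℝ) (u:ℝ) (x j) then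
        ∑' n, a n * vk n (x i) (x j) else 0) + ∑' n, (a n * wt l n) * vk n (x i) (x j) := by
    intro i j
    conv_lhs => rw [split_pair l hl (x i) (x j) (∑' n, a n * vk n (x i) (x j))]
    gcongr
    rw [← tsum_mul_right]
    refine Summable.tsum_le_tsum (fun n => ?_) ((summable_vk ha _ _).mul_right _)
      (summable_vk (adm_wt ha l) _ _)
    have := vk_mul_count_le l n hl (x i) (x j)
    have h2 := ha.nonneg n
    calc a n * vk n (x i) (x j) * _ = a n * (vk n (x i) (x j) * _) := mul_assoc _ _ _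
      _ ≤ a n * (wt l n * vk n (x i) (x j)) := mul_le_mul_of_nonneg_left this h2
      _ = _ := by ring
  have h2 : ∑ i, ∑ j, ∑' n, a n * vk n (x i) (x j) ≤ ∑ i, ∑ j, ((l:ℝ)⁻¹ * ∑ u ∈ Finset.range l,
      (if cell (l:ℝ) (u:ℝ) (x i) = cell (l:ℝ) (u:ℝ) (x j) then
        ∑' n, a n * vk n (x i) (x j) else 0) + ∑' n, (a n * wt l n) * vk n (x i) (x j)) :=
    Finset.sum_le_sum fun i _ => Finset.sum_le_sum fun j _ => h1 i j
  have h3 := sum_tsum_vk_le (adm_wt ha l) x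
  simp only [Finset.sum_add_distrib, ← Finset.mul_sum] at h2
  have h4 : ∑ i, ∑ j, ∑ u ∈ Finset.range l,
      (if cell (l:ℝ) (u:ℝ) (x i) = cell (l:ℝ) (u:ℝ) (x j) then
        ∑' n, a n * vk n (x i) (x j) else 0) = ∑ u ∈ Finset.range l, ∑ i, ∑ j,
      (if cell (l:ℝ) (u:ℝ) (x i) = cell (l:ℝ) (u:ℝ) (x j) then
        ∑' n, a n * vk n (x i) (x j) else 0) := by
    rw [Finset.sum_comm]
    conv_lhs => enter [2, j]; rw [Finset.sum_comm]
    rw [Finset.sum_comm]
    refine Finset.sum_congr rfl fun u _ => ?_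
    rw [Finset.sum_comm]
  rw [h4] at h2
  refine h2.trans ?_
  gcongr
  refine h3.trans (le_of_eq ?_)
  unfold del
  ring

/-- local kernel: the kernel plus a cell term plus a constant -/
noncomputable def Kloc (a : ℕ → ℝ) (δ c : ℝ) (x y : E3) : ℝ := ker a x y + 2 * δ * sg x y + c

theorem sum_sg (x : ι → E3) : ∑ i, ∑ j, sg (x i) (x j) = Sq x := rfl

/-- the exponent inequality: average over the shifts -/
theorem exponent_le {a : ℕ → ℝ} (ha : Adm a) (l : ℕ) (hl : 0 < l) (j₀ : ℕ) {t t' : ℝ}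
    (ht : 0 ≤ t) (htt : t * (Rad j₀ + 4 * l) ^ 3 ≤ t' * Rad j₀ ^ 3) (x : ι → E3) :
    ∑ i, ∑ j, ker (fun i => a i + if i = j₀ then t else 0) (x i) (x j) ≤
      (l:ℝ)⁻¹ * ∑ u ∈ Finset.range l, ∑ i, ∑ j,
        (if cell (l:ℝ) (u:ℝ) (x i) = cell (l:ℝ) (u:ℝ) (x j) then
          Kloc a (del a l) (t' / l ^ 3) (x i) (x j) else 0) := by
  have hl' : (0:ℝ) < l := by exact_mod_cast hl
  have hR := Rad_pos j₀
  have hc := c3_pos
  have hH : (0:ℝ) < Hc := by unfold Hc; norm_num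
  -- decompose the kernel
  have hk : ∀ p q : E3, ker (fun i => a i + if i = j₀ then t else 0) p q =
      -(if dist p q ≤ 1/2 then Hc else 0) + ∑' n, a n * vk n p q + t * vk j₀ p q := by
    intro p q
    unfold ker
    have h1 : ∀ n, (a n + if n = j₀ then t else 0) * vk n p q =
        a n * vk n p q + (if n = j₀ then t * vk j₀ p q else 0) := by
      intro n
      by_cases h : n = j₀
      · subst h; simp; ring
      · simp [h]
    simp_rw [h1]
    rw [(summable_vk ha p q).tsum_add ((hasSum_ite_eq j₀ _).summable), tsum_ite_eq]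
    ring
  simp_rw [hk, Finset.sum_add_distrib]
  have hA := avg_bound ha l hl x
  -- core part
  have hcore : ∑ i, ∑ j, -(if dist (x i) (x j) ≤ 1/2 then Hc else 0) ≤
      (l:ℝ)⁻¹ * ∑ u ∈ Finset.range l, ∑ i, ∑ j,
        (if cell (l:ℝ) (u:ℝ) (x i) = cell (l:ℝ) (u:ℝ) (x j) then
          -(if dist (x i) (x j) ≤ 1/2 then Hc else 0) else 0) := by
    have h1 : ∀ u ∈ Finset.range l, ∑ i, ∑ j, -(if dist (x i) (x j) ≤ 1/2 then Hc else 0) ≤
        ∑ i, ∑ j, (if cell (l:ℝ) (u:ℝ) (x i) = cell (l:ℝ) (u:ℝ) (x j) then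
          -(if dist (x i) (x j) ≤ 1/2 then Hc else 0) else 0) := by
      intro u _
      refine Finset.sum_le_sum fun i _ => Finset.sum_le_sum fun j _ => ?_
      split_ifs <;> simp [hH.le]
    have h2 := Finset.sum_le_sum h1
    rw [Finset.sum_const, Finset.card_range, nsmul_eq_mul] at h2
    rw [inv_mul_eq_div, le_div_iff₀ hl']
    linarith
  -- long range part
  have hlong : ∑ i, ∑ j, t * vk j₀ (x i) (x j) ≤
      (l:ℝ)⁻¹ * ∑ u ∈ Finset.range l, ∑ i, ∑ j,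
        (if cell (l:ℝ) (u:ℝ) (x i) = cell (l:ℝ) (u:ℝ) (x j) then t' / l ^ 3 else 0) := by
    have h1 : ∀ u ∈ Finset.range l, ∑ i, ∑ j, t * vk j₀ (x i) (x j) ≤
        ∑ i, ∑ j, (if cell (l:ℝ) (u:ℝ) (x i) = cell (l:ℝ) (u:ℝ) (x j) then t' / l ^ 3 else 0) := by
      intro u _
      have hb := cell_kernel_bound x l u (Rad j₀) hl' (by linarith)
      have e1 : ∑ i, ∑ j, t * vk j₀ (x i) (x j) = t * (c3 * Rad j₀ ^ 3)⁻¹ *
          ∑ i, ∑ j, (if dist (x i) (x j) ≤ Rad j₀ then (1:ℝ) else 0) := by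
        rw [Finset.mul_sum]
        refine Finset.sum_congr rfl fun i _ => ?_
        rw [Finset.mul_sum]
        refine Finset.sum_congr rfl fun j _ => ?_
        unfold vk
        split_ifs <;> simp
      have e2 : ∑ i, ∑ j, (if cell (l:ℝ) (u:ℝ) (x i) = cell (l:ℝ) (u:ℝ) (x j) then
          t' / l ^ 3 else 0) = t' / l ^ 3 * ∑ i, ∑ j,
          (if cell (l:ℝ) (u:ℝ) (x i) = cell (l:ℝ) (u:ℝ) (x j) then (1:ℝ) else 0) := by
        rw [Finset.mul_sum]
        refine Finset.sum_congr rfl fun i _ => ?_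
        rw [Finset.mul_sum]
        refine Finset.sum_congr rfl fun j _ => ?_
        split_ifs <;> simp
      rw [e1, e2]
      have hS : 0 ≤ ∑ i, ∑ j,
          (if cell (l:ℝ) (u:ℝ) (x i) = cell (l:ℝ) (u:ℝ) (x j) then (1:ℝ) else 0) :=
        Finset.sum_nonneg fun i _ => Finset.sum_nonneg fun j _ => by split_ifs <;> norm_num
      have h4 : 0 < c3 * Rad j₀ ^ 3 := by positivity
      calc t * (c3 * Rad j₀ ^ 3)⁻¹ *
            ∑ i, ∑ j, (if dist (x i) (x j) ≤ Rad j₀ then (1:ℝ) else 0)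
          ≤ t * (c3 * Rad j₀ ^ 3)⁻¹ * ((c3 * (Rad j₀ + 4 * l) ^ 3 / l ^ 3) * ∑ i, ∑ j,
          (if cell (l:ℝ) (u:ℝ) (x i) = cell (l:ℝ) (u:ℝ) (x j) then (1:ℝ) else 0)) := by
            gcongr
        _ = (t * (Rad j₀ + 4 * l) ^ 3) / (Rad j₀ ^ 3) / l ^ 3 * ∑ i, ∑ j,
          (if cell (l:ℝ) (u:ℝ) (x i) = cell (l:ℝ) (u:ℝ) (x j) then (1:ℝ) else 0) := by
            field_simp
        _ ≤ t' / l ^ 3 * ∑ i, ∑ j,
          (if cell (l:ℝ) (u:ℝ) (x i) = cell (l:ℝ) (u:ℝ) (x j) then (1:ℝ) else 0) := by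
            gcongr
            rw [div_le_iff₀ (by positivity)]
            exact htt
    have h2 := Finset.sum_le_sum h1
    rw [Finset.sum_const, Finset.card_range, nsmul_eq_mul] at h2
    rw [inv_mul_eq_div, le_div_iff₀ hl']
    linarith
  -- the cell term
  have hcell : 2 * del a l * Sq x = (l:ℝ)⁻¹ * ∑ u ∈ Finset.range l, ∑ i, ∑ j,
        (if cell (l:ℝ) (u:ℝ) (x i) = cell (l:ℝ) (u:ℝ) (x j) then
          2 * del a l * sg (x i) (x j) else 0) := by
    have h1 : ∀ u ∈ Finset.range l, ∑ i, ∑ j,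
        (if cell (l:ℝ) (u:ℝ) (x i) = cell (l:ℝ) (u:ℝ) (x j) then
          2 * del a l * sg (x i) (x j) else 0) = 2 * del a l * Sq x := by
      intro u _
      rw [← sum_sg, Finset.mul_sum]
      refine Finset.sum_congr rfl fun i _ => ?_
      rw [Finset.mul_sum]
      refine Finset.sum_congr rfl fun j _ => ?_
      by_cases h : cell (1/4) 0 (x i) = cell (1/4) 0 (x j)
      · rw [if_pos (cell_small_big l u hl _ _ h)]
      · unfold sg
        rw [if_neg h]; simp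
    rw [Finset.sum_congr rfl h1, Finset.sum_const, Finset.card_range, nsmul_eq_mul]
    field_simp
  rw [hcell] at hA
  have hsum : ∀ u ∈ Finset.range l, ∑ i, ∑ j,
        (if cell (l:ℝ) (u:ℝ) (x i) = cell (l:ℝ) (u:ℝ) (x j) then
          Kloc a (del a l) (t' / l ^ 3) (x i) (x j) else 0) =
      ∑ i, ∑ j, (if cell (l:ℝ) (u:ℝ) (x i) = cell (l:ℝ) (u:ℝ) (x j) then
          -(if dist (x i) (x j) ≤ 1/2 then Hc else 0) else 0) +
      ∑ i, ∑ j, (if cell (l:ℝ) (u:ℝ) (x i) = cell (l:ℝ) (u:ℝ) (x j) then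
          ∑' n, a n * vk n (x i) (x j) else 0) +
      ∑ i, ∑ j, (if cell (l:ℝ) (u:ℝ) (x i) = cell (l:ℝ) (u:ℝ) (x j) then
          2 * del a l * sg (x i) (x j) else 0) +
      ∑ i, ∑ j, (if cell (l:ℝ) (u:ℝ) (x i) = cell (l:ℝ) (u:ℝ) (x j) then t' / l ^ 3 else 0) := by
    intro u _
    simp only [← Finset.sum_add_distrib]
    refine Finset.sum_congr rfl fun i _ => Finset.sum_congr rfl fun j _ => ?_
    unfold Kloc ker
    by_cases h : cell (l:ℝ) (u:ℝ) (x i) = cell (l:ℝ) (u:ℝ) (x j)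
    · simp only [if_pos h]
    · simp only [if_neg h]; norm_num
  rw [Finset.sum_congr rfl hsum]
  simp only [Finset.sum_add_distrib (s := Finset.range l), mul_add]
  linarith

end

end Vale.Agent.P171
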