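import Vale.Agent.P171.Kernel

open MeasureTheory Filter Topology
open scoped ENNReal

namespace Vale.Agent.P171

/-- grid cube -/
def cube (l u : ℝ) (k : Fin 3 → ℤ) : Set E3 := {x | cell l u x = k}

theorem mem_cube {l u : ℝ} {k : Fin 3 → ℤ} {x : E3} : x ∈ cube l u k ↔ cell l u x = k := Iff.rfl

theorem cube_disjoint {l u : ℝ} {k k' : Fin 3 → ℤ} (h : k ≠ k') :
    Disjoint (cube l u k) (cube l u k') := by
  rw [Set.disjoint_left]
  intro x hx hx'
  exact h (hx.symm.trans hx')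

theorem cube_eq_preimage {l : ℝ} (hl : 0 < l) (u : ℝ) (k : Fin 3 → ℤ) :
    cube l u k = (@WithLp.ofLp 2 (Fin 3 → ℝ)) ⁻¹'
      (Set.univ.pi fun i => Set.Ico (u + l * k i) (u + l * (k i + 1))) := by
  ext x
  simp only [cube, Set.mem_ofPred_eq, Set.mem_preimage, Set.mem_pi, Set.mem_univ,
    true_implies, Set.mem_Ico]
  rw [funext_iff]
  refine forall_congr' fun i => ?_
  unfold cell
  rw [Int.floor_eq_iff, le_div_iff₀ hl, div_lt_iff₀ hl]
  constructor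
  · rintro ⟨h1, h2⟩
    exact ⟨by linarith, by linarith⟩
  · rintro ⟨h1, h2⟩
    exact ⟨by linarith, by linarith⟩

theorem measurable_ofLp3 : Measurable (@WithLp.ofLp 2 (Fin 3 → ℝ)) :=
  (PiLp.volume_preserving_ofLp (Fin 3)).measurable

theorem measurableSet_cube {l : ℝ} (hl : 0 < l) (u : ℝ) (k : Fin 3 → ℤ) :
    MeasurableSet (cube l u k) := by
  rw [cube_eq_preimage hl]
  exact measurable_ofLp3 (MeasurableSet.univ_pi fun i => measurableSet_Ico)

theorem volume_cube {l : ℝ} (hl : 0 < l) (u : ℝ) (k : Fin 3 → ℤ) :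
    volume (cube l u k) = ENNReal.ofReal (l ^ 3) := by
  rw [cube_eq_preimage hl, (PiLp.volume_preserving_ofLp (Fin 3)).measure_preimage
    (MeasurableSet.univ_pi fun i => measurableSet_Ico).nullMeasurableSet, volume_pi,
    Measure.pi_pi]
  simp only [Real.volume_Ico]
  have : ∀ i : Fin 3, (u + l * ((k i : ℝ) + 1) - (u + l * (k i : ℝ))) = l := fun i => by ring
  simp only [this]
  rw [Finset.prod_const, Finset.card_univ, Fintype.card_fin, ← ENNReal.ofReal_pow hl.le]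

theorem measurableSet_box (L : ℝ) : MeasurableSet (box L) := by
  have : box L = (@WithLp.ofLp 2 (Fin 3 → ℝ)) ⁻¹' (Set.univ.pi fun _ => Set.Icc 0 L) := by
    ext x
    simp only [box, Set.mem_ofPred_eq, Set.mem_preimage, Set.mem_pi, Set.mem_univ, true_implies,
      Set.mem_Icc]
  rw [this]
  exact measurable_ofLp3 (MeasurableSet.univ_pi fun i => measurableSet_Icc)

/-- indices of the cubes meeting `box L` -/
noncomputable def idx (l u L : ℝ) : Finset (Fin 3 → ℤ) :=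
  Fintype.piFinset fun _ => Finset.Icc ⌊(0 - u) / l⌋ ⌊(L - u) / l⌋

theorem box_subset {l : ℝ} (hl : 0 < l) (u L : ℝ) :
    box L ⊆ ⋃ c ∈ idx l u L, cube l u c := by
  intro x hx
  simp only [Set.mem_iUnion, idx, Fintype.mem_piFinset, Finset.mem_Icc]
  refine ⟨cell l u x, fun i => ?_, rfl⟩
  unfold cell
  constructor
  · apply Int.floor_le_floor
    have := (hx i).1
    gcongr
  · apply Int.floor_le_floor
    have := (hx i).2
    gcongr

theorem card_idx {l : ℝ} (u L : ℝ) :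
    (idx l u L).card = (⌊(L - u) / l⌋ + 1 - ⌊(0 - u) / l⌋).toNat ^ 3 := by
  unfold idx
  rw [Fintype.card_piFinset]
  simp

theorem card_idx_le {l : ℝ} (hl : 0 < l) (u : ℝ) {L : ℝ} (hL : 0 ≤ L) :
    ((idx l u L).card : ℝ) ≤ (L / l + 2) ^ 3 := by
  rw [card_idx]
  push_cast
  have h1 : ⌊(0 - u) / l⌋ ≤ ⌊(L - u) / l⌋ := by
    apply Int.floor_le_floor
    gcongr
  have h2 : 0 ≤ ⌊(L - u) / l⌋ + 1 - ⌊(0 - u) / l⌋ := by omega
  have h3 : (((⌊(L - u) / l⌋ + 1 - ⌊(0 - u) / l⌋).toNat : ℕ) : ℝ) =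
      ((⌊(L - u) / l⌋ + 1 - ⌊(0 - u) / l⌋ : ℤ) : ℝ) := by
    exact_mod_cast Int.toNat_of_nonneg h2
  rw [h3]
  push_cast
  have h4 : (⌊(L - u) / l⌋ : ℝ) ≤ (L - u) / l := Int.floor_le _
  have h5 : (0 - u) / l < (⌊(0 - u) / l⌋ : ℝ) + 1 := Int.lt_floor_add_one _
  have h6 : (L - u) / l = L / l + (0 - u) / l := by ring
  have h7 : (0:ℝ) ≤ (⌊(L - u) / l⌋ : ℝ) + 1 - (⌊(0 - u) / l⌋ : ℝ) := by exact_mod_cast h2
  apply pow_le_pow_left₀ h7
  linarith

theorem card_idx_small {L : ℝ} (hL : 0 ≤ L) :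
    ((idx (1/4) 0 L).card : ℝ) ≤ 64 * (L + 1) ^ 3 := by
  rw [card_idx]
  push_cast
  have h0 : ⌊(0 - (0:ℝ)) / (1/4)⌋ = 0 := by norm_num
  rw [h0]
  have h1 : (0:ℤ) ≤ ⌊(L - 0) / (1/4)⌋ := by
    apply Int.floor_nonneg.2; positivity
  have h3 : (((⌊(L - 0) / (1/4)⌋ + 1 - 0).toNat : ℕ) : ℝ) = ((⌊(L - 0) / (1/4)⌋ + 1 - 0 : ℤ) : ℝ) := by
    exact_mod_cast Int.toNat_of_nonneg (by omega)
  rw [h3]
  push_cast
  have h4 : (⌊(L - 0) / (1/4)⌋ : ℝ) ≤ (L - 0) / (1/4) := Int.floor_le _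
  have h7 : (0:ℝ) ≤ (⌊(L - 0) / (1/4)⌋ : ℝ) := by exact_mod_cast h1
  calc ((⌊(L - 0) / (1/4)⌋ : ℝ) + 1 - 0) ^ 3 ≤ (4 * (L + 1)) ^ 3 := by
        apply pow_le_pow_left₀ (by linarith)
        linarith
    _ = 64 * (L + 1) ^ 3 := by ring

theorem In_W_const (ν c : ℝ) (Λ : Set E3) (N : ℕ) :
    In (W ν (fun _ _ => c)) Λ (Fin N) =
      ENNReal.ofReal (Real.exp (ν * N + (1/2) * (N * (N * c)))) * volume Λ ^ N := by
  unfold In
  simp_rw [W_conf]
  simp only [Finset.sum_const, Finset.card_univ, Fintype.card_fin, nsmul_eq_mul]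
  rw [setLIntegral_const, volume_pi, Measure.pi_pi]
  simp

theorem tsum_exp_ennreal {v : ℝ} (hv : 0 ≤ v) :
    ∑' N : ℕ, ((N.factorial : ℕ) : ℝ≥0∞)⁻¹ * ENNReal.ofReal v ^ N = ENNReal.ofReal (Real.exp v) := by
  have h1 : ∀ N : ℕ, ((N.factorial : ℕ) : ℝ≥0∞)⁻¹ * ENNReal.ofReal v ^ N =
      ENNReal.ofReal (v ^ N / N.factorial) := by
    intro N
    have hN : (0:ℝ) < N.factorial := by exact_mod_cast Nat.factorial_pos N
    rw [← ENNReal.ofReal_pow hv, div_eq_inv_mul, ENNReal.ofReal_mul (by positivity),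
      ENNReal.ofReal_inv_of_pos hN, ENNReal.ofReal_natCast]
  simp_rw [h1]
  rw [← ENNReal.ofReal_tsum_of_nonneg (fun N => by positivity) (Real.summable_pow_div_factorial v)]
  congr 1
  rw [Real.exp_eq_exp_ℝ, NormedSpace.exp_eq_tsum_div]

theorem Z_W_const_le (ν : ℝ) {Λ : Set E3} {v : ℝ} (hv : 0 ≤ v)
    (hΛ : volume Λ = ENNReal.ofReal v) :
    Z (W ν (fun _ _ => -2)) Λ ≤ ENNReal.ofReal (Real.exp (ν ^ 2 / 4 + v)) := by
  unfold Z
  simp_rw [In_W_const, hΛ]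
  calc ∑' N : ℕ, ((N.factorial : ℕ) : ℝ≥0∞)⁻¹ *
        (ENNReal.ofReal (Real.exp (ν * N + (1/2) * (N * (N * (-2))))) * ENNReal.ofReal v ^ N)
      ≤ ∑' N : ℕ, ENNReal.ofReal (Real.exp (ν ^ 2 / 4)) *
        (((N.factorial : ℕ) : ℝ≥0∞)⁻¹ * ENNReal.ofReal v ^ N) := by
        refine ENNReal.tsum_le_tsum fun N => ?_
        rw [mul_left_comm]
        gcongr
        nlinarith [sq_nonneg (ν / 2 - N)]
    _ = ENNReal.ofReal (Real.exp (ν ^ 2 / 4)) * ENNReal.ofReal (Real.exp v) := by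
        rw [ENNReal.tsum_mul_left, tsum_exp_ennreal hv]
    _ = ENNReal.ofReal (Real.exp (ν ^ 2 / 4 + v)) := by
        rw [← ENNReal.ofReal_mul (Real.exp_pos _).le, Real.exp_add]

theorem Z_le_cells (ν : ℝ) (s : Finset (Fin 3 → ℤ)) {Λ : Set E3} (hm : MeasurableSet Λ)
    (hΛ : Λ ⊆ ⋃ c ∈ s, cube (1/4) 0 c) {F : Multiset E3 → ℝ≥0∞}
    (hF : ∀ N, ∀ x : Fin N → E3, (∀ i, x i ∈ Λ) →
      F (conf x) ≤ ENNReal.ofReal (Real.exp (ν * N - Sq x))) :
    Z F Λ ≤ ENNReal.ofReal (Real.exp ((ν ^ 2 / 4 + 1/64) * s.card)) := by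
  classical
  have h4 : (0:ℝ) < 1/4 := by norm_num
  have h1 : Z F Λ ≤ Z (fun ω => ∏ c ∈ s, W ν (fun _ _ => -2) (rst (cube (1/4) 0 c) ω))
      (⋃ c ∈ s, cube (1/4) 0 c) := by
    refine Z_mono hΛ hm fun N x hx => (hF N x hx).trans ?_
    rw [prod_W_rst s (cube (1/4) 0) (fun c _ d _ h => cube_disjoint h) ν _ x
      (fun i => hΛ (hx i))]
    apply ENNReal.ofReal_le_ofReal
    apply Real.exp_le_exp.2
    rw [Fintype.card_fin]
    have : (1/2) * ∑ i, ∑ j, (if ∃ c ∈ s, x i ∈ cube (1/4) 0 c ∧ x j ∈ cube (1/4) 0 c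
        then (-2:ℝ) else 0) = - Sq x := by
      unfold Sq
      rw [Finset.mul_sum, ← Finset.sum_neg_distrib]
      refine Finset.sum_congr rfl fun i _ => ?_
      rw [Finset.mul_sum, ← Finset.sum_neg_distrib]
      refine Finset.sum_congr rfl fun j _ => ?_
      obtain ⟨c, hc, hxc⟩ : ∃ c ∈ s, x i ∈ cube (1/4) 0 c := by simpa using hΛ (hx i)
      by_cases h : cell (1/4) 0 (x i) = cell (1/4) 0 (x j)
      · rw [if_pos ⟨c, hc, hxc, h.symm.trans hxc⟩, if_pos h]; norm_num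
      · rw [if_neg, if_neg h]
        · norm_num
        · rintro ⟨d, hd, h1, h2⟩
          exact h (h1.trans h2.symm)
    rw [this]
    linarith
  refine h1.trans ?_
  rw [Z_prod s (cube (1/4) 0) (fun c _ => measurableSet_cube h4 0 c)
    (fun c _ d _ h => cube_disjoint h) (fun _ => W ν (fun _ _ => -2))
    (fun c _ => Meas_W ν measurable_const)]
  calc ∏ c ∈ s, Z (W ν (fun _ _ => -2)) (cube (1/4) 0 c)
      ≤ ∏ c ∈ s, ENNReal.ofReal (Real.exp (ν ^ 2 / 4 + 1/64)) := by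
        refine Finset.prod_le_prod' fun c _ => ?_
        refine Z_W_const_le ν (by norm_num) ?_
        rw [volume_cube h4]
        norm_num
    _ = ENNReal.ofReal (Real.exp ((ν ^ 2 / 4 + 1/64) * s.card)) := by
        rw [Finset.prod_const, ← ENNReal.ofReal_pow (Real.exp_pos _).le, ← Real.exp_nat_mul]
        ring_nf

end Vale.Agent.P171
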