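import Vale.Agent.P171.Core

open MeasureTheory Filter Topology
open scoped ENNReal

namespace Vale.Agent.P171

open Classical in
/-- restriction of a configuration to a set -/
noncomputable def rst (A : Set E3) (ω : Multiset E3) : Multiset E3 := ω.filter (fun x => x ∈ A)

/-- measurable configuration functions -/
def Meas (F : Multiset E3 → ℝ≥0∞) : Prop := ∀ N : ℕ, Measurable (fun x : Fin N → E3 => F (conf x))

theorem conf_comp_equiv {ι ι' : Type*} [Fintype ι] [Fintype ι'] (e : ι ≃ ι') (x : ι' → E3) :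
    conf (fun i => x (e i)) = conf x := by
  unfold conf
  have h : (Finset.univ : Finset ι').val = (Finset.univ : Finset ι).val.map e := by
    rw [← Finset.univ_map_equiv_to_embedding e, Finset.map_val]; rfl
  rw [h, Multiset.map_map]; rfl

theorem piCongrLeft_conf {ι ι' : Type} [Fintype ι] [Fintype ι'] (e : ι ≃ ι') (x : ι → E3) :
    conf (MeasurableEquiv.piCongrLeft (fun _ : ι' => E3) e x) = conf x := by
  rw [← conf_comp_equiv e]
  congr 1
  funext i
  exact MeasurableEquiv.piCongrLeft_apply_apply (β := fun _ : ι' => E3) e x i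

theorem In_equiv {ι ι' : Type} [Fintype ι] [Fintype ι'] (e : ι ≃ ι') (F : Multiset E3 → ℝ≥0∞)
    (Λ : Set E3) : In F Λ ι = In F Λ ι' := by
  unfold In
  have hmp := volume_measurePreserving_piCongrLeft (fun _ : ι' => E3) e
  have h := hmp.setLIntegral_comp_preimage_emb
    (MeasurableEquiv.measurableEmbedding _) (fun x => F (conf x))
    (Set.univ.pi (fun _ : ι' => Λ))
  rw [← h]
  have hs : (MeasurableEquiv.piCongrLeft (fun _ : ι' => E3) e) ⁻¹' (Set.univ.pi fun _ => Λ)
      = Set.univ.pi (fun _ : ι => Λ) := by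
    ext x
    simp only [Set.mem_preimage, Set.mem_pi, Set.mem_univ, true_implies]
    constructor
    · intro h i
      have := h (e i)
      rwa [MeasurableEquiv.piCongrLeft_apply_apply] at this
    · intro h i
      obtain ⟨j, rfl⟩ := e.surjective i
      rw [MeasurableEquiv.piCongrLeft_apply_apply]
      exact h j
  rw [hs]
  simp only [piCongrLeft_conf]

theorem Meas.gen {F : Multiset E3 → ℝ≥0∞} (hF : Meas F) (ι : Type) [Fintype ι] :
    Measurable (fun x : ι → E3 => F (conf x)) := by
  have e := Fintype.equivFin ι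
  have h1 : (fun x : ι → E3 => F (conf x)) = (fun x : ι → E3 =>
      F (conf (fun i : Fin (Fintype.card ι) => x (e.symm i)))) := by
    funext x
    rw [conf_comp_equiv e.symm]
  rw [h1]
  have h2 : Measurable (fun x : ι → E3 => (fun i : Fin (Fintype.card ι) => x (e.symm i))) :=
    measurable_pi_lambda _ (fun i => measurable_pi_apply _)
  exact (hF _).comp h2

theorem conf_sum {ι ι' : Type*} [Fintype ι] [Fintype ι'] (x : ι → E3) (y : ι' → E3) :
    conf (Sum.elim x y) = conf x + conf y := by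
  unfold conf
  rw [← Finset.univ_disjSum_univ, Finset.val_disjSum, Multiset.disjSum]
  simp [Multiset.map_add, Multiset.map_map, Function.comp_def]

/-- the configuration splits along a subset of labels -/
theorem conf_split {ι : Type*} [Fintype ι] (p : ι → Prop) [DecidablePred p] (x : ι → E3) :
    conf x = conf (fun i : {i // p i} => x i) + conf (fun i : {i // ¬ p i} => x i) := by
  rw [← conf_sum, ← conf_comp_equiv (Equiv.sumCompl p)]
  congr 1
  funext i
  rcases i with i | i <;> rfl

theorem rst_conf_of_forall_mem {ι : Type*} [Fintype ι] {A : Set E3} {x : ι → E3}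
    (h : ∀ i, x i ∈ A) : rst A (conf x) = conf x := by
  classical
  unfold rst
  rw [Multiset.filter_eq_self]
  intro a ha
  simp only [conf, Multiset.mem_map] at ha
  obtain ⟨i, -, rfl⟩ := ha
  exact h i

theorem rst_conf_of_forall_not_mem {ι : Type*} [Fintype ι] {A : Set E3} {x : ι → E3}
    (h : ∀ i, x i ∉ A) : rst A (conf x) = 0 := by
  classical
  unfold rst
  rw [Multiset.filter_eq_nil]
  intro a ha
  simp only [conf, Multiset.mem_map] at ha
  obtain ⟨i, -, rfl⟩ := ha
  exact h i

theorem rst_add (A : Set E3) (ω ω' : Multiset E3) : rst A (ω + ω') = rst A ω + rst A ω' := by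
  classical
  unfold rst
  exact Multiset.filter_add _ _ _

theorem In_card {ι : Type} [Fintype ι] {m : ℕ} (h : Fintype.card ι = m)
    (F : Multiset E3 → ℝ≥0∞) (Λ : Set E3) : In F Λ ι = In F Λ (Fin m) :=
  In_equiv (Fintype.equivFinOfCardEq h) F Λ

theorem In_piece {A B : Set E3} (hA : MeasurableSet A) (hB : MeasurableSet B)
    (hAB : Disjoint A B) {F G : Multiset E3 → ℝ≥0∞} (hF : Meas F) (hG : Meas G) {N : ℕ}
    (p : Fin N → Prop) [DecidablePred p] :
    MeasurableSet {x : Fin N → E3 | ∀ i, (p i → x i ∈ A) ∧ (¬ p i → x i ∈ B)} ∧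
    ∫⁻ x in {x : Fin N → E3 | ∀ i, (p i → x i ∈ A) ∧ (¬ p i → x i ∈ B)},
      F (rst A (conf x)) * G (rst B (conf x)) = In F A {i // p i} * In G B {i // ¬ p i} := by
  unfold In
  set E : Set (Fin N → E3) := {x | ∀ i, (p i → x i ∈ A) ∧ (¬ p i → x i ∈ B)} with hE
  have hpre : E =
      (MeasurableEquiv.piEquivPiSubtypeProd (fun _ : Fin N => E3) p) ⁻¹'
        ((Set.univ.pi fun _ : {i // p i} => A) ×ˢ (Set.univ.pi fun _ : {i // ¬ p i} => B)) := by
    ext x
    simp only [hE, Set.mem_ofPred_eq, Set.mem_preimage, Set.mem_prod, Set.mem_pi, Set.mem_univ,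
      true_implies]
    constructor
    · intro h
      exact ⟨fun i => (h i).1 i.2, fun i => (h i).2 i.2⟩
    · intro h i
      exact ⟨fun hi => h.1 ⟨i, hi⟩, fun hi => h.2 ⟨i, hi⟩⟩
  have hmeas : MeasurableSet E := by
    rw [hpre]
    exact (MeasurableEquiv.measurable _)
      ((MeasurableSet.univ_pi fun _ => hA).prod (MeasurableSet.univ_pi fun _ => hB))
  refine ⟨hmeas, ?_⟩
  have hmp := volume_preserving_piEquivPiSubtypeProd (fun _ : Fin N => E3) p
  have h1 : ∫⁻ x in E, F (rst A (conf x)) * G (rst B (conf x)) =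
      ∫⁻ x in E, (fun q : ({i // p i} → E3) × ({i // ¬ p i} → E3) =>
        F (conf q.1) * G (conf q.2))
        (MeasurableEquiv.piEquivPiSubtypeProd (fun _ : Fin N => E3) p x) := by
    refine setLIntegral_congr_fun hmeas ?_
    intro x hx
    have hs := conf_split p x
    have hA1 : rst A (conf x) = conf (fun i : {i // p i} => x i) := by
      rw [hs, rst_add, rst_conf_of_forall_mem (x := fun i : {i // p i} => x i)
        (fun i : {i // p i} => (hx i).1 i.2),
        rst_conf_of_forall_not_mem (x := fun i : {i // ¬ p i} => x i) (fun i : {i // ¬ p i} =>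
          fun h => Set.disjoint_left.1 hAB h ((hx i).2 i.2)), add_zero]
    have hB1 : rst B (conf x) = conf (fun i : {i // ¬ p i} => x i) := by
      rw [hs, rst_add, rst_conf_of_forall_mem (x := fun i : {i // ¬ p i} => x i)
        (fun i : {i // ¬ p i} => (hx i).2 i.2),
        rst_conf_of_forall_not_mem (x := fun i : {i // p i} => x i) (fun i : {i // p i} =>
          fun h => Set.disjoint_left.1 hAB ((hx i).1 i.2) h), zero_add]
    simp only [hA1, hB1]
    rfl
  rw [h1, hpre]
  have h2 := hmp.setLIntegral_comp_preimage_emb (MeasurableEquiv.measurableEmbedding _)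
    (fun q : ({i // p i} → E3) × ({i // ¬ p i} → E3) => F (conf q.1) * G (conf q.2))
    ((Set.univ.pi fun _ : {i // p i} => A) ×ˢ (Set.univ.pi fun _ : {i // ¬ p i} => B))
  refine h2.trans ?_
  rw [Measure.volume_eq_prod, ← Measure.prod_restrict]
  exact lintegral_prod_mul (hF.gen _).aemeasurable (hG.gen _).aemeasurable

theorem In_union {A B : Set E3} (hA : MeasurableSet A) (hB : MeasurableSet B)
    (hAB : Disjoint A B) {F G : Multiset E3 → ℝ≥0∞} (hF : Meas F) (hG : Meas G) (N : ℕ) :
    In (fun ω => F (rst A ω) * G (rst B ω)) (A ∪ B) (Fin N) =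
      ∑ S : Finset (Fin N), In F A (Fin S.card) * In G B (Fin (N - S.card)) := by
  set E : Finset (Fin N) → Set (Fin N → E3) :=
    fun S => {x | ∀ i, (i ∈ S → x i ∈ A) ∧ (i ∉ S → x i ∈ B)} with hE
  have hunion : (Set.univ.pi fun _ : Fin N => A ∪ B) = ⋃ S, E S := by
    classical
    ext x
    simp only [Set.mem_pi, Set.mem_univ, true_implies, Set.mem_iUnion, hE, Set.mem_ofPred_eq,
      Set.mem_union]
    constructor
    · intro h
      refine ⟨Finset.univ.filter (fun i => x i ∈ A), fun i => ⟨fun hi => ?_, fun hi => ?_⟩⟩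
      · simpa using hi
      · rcases h i with h | h
        · exact absurd h (by simpa using hi)
        · exact h
    · rintro ⟨S, hS⟩ i
      by_cases hi : i ∈ S
      · exact Or.inl ((hS i).1 hi)
      · exact Or.inr ((hS i).2 hi)
  have hmeas : ∀ S, MeasurableSet (E S) := fun S => (In_piece hA hB hAB hF hG (fun i => i ∈ S)).1
  have hdisj : Pairwise (Function.onFun Disjoint E) := by
    intro S T hST
    rw [Function.onFun, Set.disjoint_left]
    intro x hxS hxT
    apply hST
    ext i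
    constructor
    · intro hi
      by_contra hi'
      exact Set.disjoint_left.1 hAB ((hxS i).1 hi) ((hxT i).2 hi')
    · intro hi
      by_contra hi'
      exact Set.disjoint_left.1 hAB ((hxT i).1 hi) ((hxS i).2 hi')
  unfold In
  rw [hunion, lintegral_iUnion hmeas hdisj, tsum_fintype]
  refine Finset.sum_congr rfl fun S _ => ?_
  rw [(In_piece hA hB hAB hF hG (fun i => i ∈ S)).2]
  congr 1
  · refine @In_card _ (Subtype.fintype fun i => i ∈ S) _ ?_ F A
    rw [Fintype.card_subtype]; simp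
  · refine @In_card _ (Subtype.fintype fun i => ¬ (i ∈ S)) _ ?_ G B
    rw [Fintype.card_subtype_compl, Fintype.card_fin, Fintype.card_subtype]; simp

theorem Z_union {A B : Set E3} (hA : MeasurableSet A) (hB : MeasurableSet B)
    (hAB : Disjoint A B) {F G : Multiset E3 → ℝ≥0∞} (hF : Meas F) (hG : Meas G) :
    Z (fun ω => F (rst A ω) * G (rst B ω)) (A ∪ B) = Z F A * Z G B := by
  unfold Z
  set f : ℕ → ℝ≥0∞ := fun n => ((n.factorial : ℕ) : ℝ≥0∞)⁻¹ * In F A (Fin n) with hf
  set g : ℕ → ℝ≥0∞ := fun n => ((n.factorial : ℕ) : ℝ≥0∞)⁻¹ * In G B (Fin n) with hg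
  have h1 : ∀ N : ℕ, ((N.factorial : ℕ) : ℝ≥0∞)⁻¹ *
      In (fun ω => F (rst A ω) * G (rst B ω)) (A ∪ B) (Fin N) =
      ∑ q ∈ Finset.HasAntidiagonal.antidiagonal N, f q.1 * g q.2 := by
    intro N
    rw [In_union hA hB hAB hF hG, ← Finset.powerset_univ, Finset.sum_powerset_apply_card
      (fun n => In F A (Fin n) * In G B (Fin (N - n))), Finset.card_univ, Fintype.card_fin,
      Finset.Nat.sum_antidiagonal_eq_sum_range_succ (fun a b => f a * g b), Finset.mul_sum]
    refine Finset.sum_congr rfl fun n hn => ?_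
    have hn' : n ≤ N := Nat.lt_succ_iff.1 (Finset.mem_range.1 hn)
    simp only [hf, hg, nsmul_eq_mul]
    have h2 : ((N.factorial : ℕ) : ℝ≥0∞) =
        ((N.choose n : ℕ) : ℝ≥0∞) * ((n.factorial : ℕ) : ℝ≥0∞) *
          (((N - n).factorial : ℕ) : ℝ≥0∞) := by
      rw [← Nat.choose_mul_factorial_mul_factorial hn']
      push_cast
      ring
    have hc0 : ((N.choose n : ℕ) : ℝ≥0∞) ≠ 0 := by
      simpa using (Nat.choose_pos hn').ne'
    have hn0 : ((n.factorial : ℕ) : ℝ≥0∞) ≠ 0 := by simpa using Nat.factorial_ne_zero n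
    have hm0 : (((N - n).factorial : ℕ) : ℝ≥0∞) ≠ 0 := by simpa using Nat.factorial_ne_zero _
    rw [h2, ENNReal.mul_inv (Or.inr (ENNReal.natCast_ne_top _)) (Or.inr hm0),
      ENNReal.mul_inv (Or.inr (ENNReal.natCast_ne_top _)) (Or.inr hn0)]
    have h3 : ((N.choose n : ℕ) : ℝ≥0∞)⁻¹ * ((N.choose n : ℕ) : ℝ≥0∞) = 1 :=
      ENNReal.inv_mul_cancel hc0 (ENNReal.natCast_ne_top _)
    calc ((N.choose n : ℕ) : ℝ≥0∞)⁻¹ * ((n.factorial : ℕ) : ℝ≥0∞)⁻¹ *
          (((N - n).factorial : ℕ) : ℝ≥0∞)⁻¹ *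
          (((N.choose n : ℕ) : ℝ≥0∞) * (In F A (Fin n) * In G B (Fin (N - n))))
        = (((N.choose n : ℕ) : ℝ≥0∞)⁻¹ * ((N.choose n : ℕ) : ℝ≥0∞)) *
          ((((n.factorial : ℕ) : ℝ≥0∞)⁻¹ * In F A (Fin n)) *
          ((((N - n).factorial : ℕ) : ℝ≥0∞)⁻¹ * In G B (Fin (N - n)))) := by ring
      _ = _ := by rw [h3, one_mul]
  simp_rw [h1]
  rw [← ENNReal.tsum_mul_right]
  simp_rw [← ENNReal.tsum_mul_left]
  rw [← ENNReal.tsum_prod (f := fun a b => f a * g b),
    ← (Finset.HasAntidiagonal.sigmaAntidiagonalEquivProd (A := ℕ)).tsum_eq (fun q : ℕ × ℕ => f q.1 * g q.2),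
    ENNReal.tsum_sigma']
  refine tsum_congr fun N => ?_
  rw [tsum_fintype]
  symm
  exact Finset.sum_coe_sort (Finset.HasAntidiagonal.antidiagonal N) (fun q => f q.1 * g q.2)

end Vale.Agent.P171
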