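import Vale.Agent.P171.Defs

open MeasureTheory Filter Topology
open scoped ENNReal

namespace Vale.Agent.P171

/-- volume of the unit ball -/
noncomputable def c3 : ℝ := (volume (Metric.ball (0 : E3) 1)).toReal

/-- the radii `R_j` -/
noncomputable def Rad (j : ℕ) : ℝ := 72 + j

/-- the normalised indicator of `|x - y| ≤ R_j` -/
noncomputable def vk (j : ℕ) (x y : E3) : ℝ :=
  if dist x y ≤ Rad j then (c3 * Rad j ^ 3)⁻¹ else 0

/-- strength of the core -/
noncomputable def Hc : ℝ := 51204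

/-- admissible coefficient sequences -/
structure Adm (a : ℕ → ℝ) : Prop where
  nonneg : ∀ j, 0 ≤ a j
  summable : Summable a
  le : ∑' j, a j ≤ 100

/-- the kernel `-H 1(|x-y| ≤ 1/2) + ∑ a_j v_j` -/
noncomputable def ker (a : ℕ → ℝ) (x y : E3) : ℝ :=
  -(if dist x y ≤ 1 / 2 then Hc else 0) + ∑' j, a j * vk j x y

/-- the configuration of a labelled family -/
def conf {ι : Type*} [Fintype ι] (x : ι → E3) : Multiset E3 := Finset.univ.val.map x

/-- double sum of a kernel over a configuration, diagonal included -/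
noncomputable def dbl (k : E3 → E3 → ℝ) (ω : Multiset E3) : ℝ :=
  (ω.map fun x => (ω.map fun y => k x y).sum).sum

/-- the weight `exp(ν N + (1/2) ∑∑ k)` -/
noncomputable def W (ν : ℝ) (k : E3 → E3 → ℝ) (ω : Multiset E3) : ℝ≥0∞ :=
  ENNReal.ofReal (Real.exp (ν * (Multiset.card ω : ℝ) + (1 / 2) * dbl k ω))

/-- integral over labelled configurations in `Λ` -/
noncomputable def In (F : Multiset E3 → ℝ≥0∞) (Λ : Set E3) (ι : Type) [Fintype ι] : ℝ≥0∞ :=
  ∫⁻ x in Set.univ.pi (fun _ : ι => Λ), F (conf x)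

/-- grand canonical sum -/
noncomputable def Z (F : Multiset E3 → ℝ≥0∞) (Λ : Set E3) : ℝ≥0∞ :=
  ∑' N : ℕ, ((N.factorial : ℕ) : ℝ≥0∞)⁻¹ * In F Λ (Fin N)

/-- the partition function of the auxiliary model -/
noncomputable def Xi (ν : ℝ) (a : ℕ → ℝ) (L : ℝ) : ℝ≥0∞ := Z (W ν (ker a)) (box L)

/-- the pressure of the auxiliary model -/
noncomputable def P (ν : ℝ) (a : ℕ → ℝ) : ℝ :=
  ⨆ L : ℝ, ((L + 1) ^ 3)⁻¹ * Real.log (Xi ν a L).toReal

/-- index of the grid cube of side `l` (shifted by `u`) containing `x` -/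
noncomputable def cell (l u : ℝ) (x : E3) : Fin 3 → ℤ := fun i => ⌊(x i - u) / l⌋

end Vale.Agent.P171
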