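import Mathlib

open MeasureTheory Filter Topology

namespace Vale.Agent.P171

/-- Euclidean three-space. -/
abbrev E3 : Type := EuclideanSpace ℝ (Fin 3)

/-- The energy `U_N(x_1, ..., x_N)`, the sum over pairs `i < j` of `φ(|x_i - x_j|)`. -/
noncomputable def energy (φ : ℝ → ℝ) {N : ℕ} (x : Fin N → E3) : ℝ :=
  ∑ i : Fin N, ∑ j : Fin N, if i < j then φ (dist (x i) (x j)) else 0

/-- Stability: `U_N ≥ -B N` for all `N` and all configurations of distinct points. -/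
def Stable (φ : ℝ → ℝ) : Prop :=
  ∃ B : ℝ, ∀ (N : ℕ) (x : Fin N → E3), Function.Injective x → -(B * (N : ℝ)) ≤ energy φ x

/-- Temperedness: `φ(r) ≤ C r^(-3-ε)` for all `r ≥ R₀`. -/
def Tempered (φ : ℝ → ℝ) : Prop :=
  ∃ C > 0, ∃ ε > 0, ∃ R₀ > 0, ∀ r : ℝ, R₀ ≤ r → φ r ≤ C * r ^ (-3 - ε : ℝ)

/-- Local boundedness on `(0, ∞)`. -/
def LocallyBounded (φ : ℝ → ℝ) : Prop :=
  ∀ K : Set ℝ, IsCompact K → K ⊆ Set.Ioi 0 → ∃ M : ℝ, ∀ r ∈ K, |φ r| ≤ M

/-- The cube `[0, L]^3`. -/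
def box (L : ℝ) : Set E3 := {x | ∀ k, 0 ≤ x k ∧ x k ≤ L}

/-- `Z_{L,N}(β)`, the integral of `exp(-β U_N)` over `([0,L]^3)^N`, divided by `N!`. -/
noncomputable def canonicalZ (φ : ℝ → ℝ) (β L : ℝ) (N : ℕ) : ℝ :=
  ((N.factorial : ℝ))⁻¹ *
    ∫ x in {x : Fin N → E3 | ∀ i, x i ∈ box L}, Real.exp (-β * energy φ x)

/-- The grand canonical partition function, the sum over `N ≥ 0` of `z^N Z_{L,N}(β)`. -/
noncomputable def grandZ (φ : ℝ → ℝ) (β z L : ℝ) : ℝ :=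
  ∑' N : ℕ, z ^ N * canonicalZ φ β L N

/-- `Π` is the pressure (times `β`) of `φ` at inverse temperature `β`, as a function of the
activity: for every `z > 0` the series defining the grand canonical partition function
converges for every `L`, and `Π z` is the limit of `L^(-3) log Ξ_L` as `L → ∞`. -/
def IsPressure (φ : ℝ → ℝ) (β : ℝ) (Pi : ℝ → ℝ) : Prop :=
  ∀ z : ℝ, 0 < z →
    (∀ L : ℝ, 0 < L → Summable fun N : ℕ => z ^ N * canonicalZ φ β L N) ∧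
    Tendsto (fun L : ℝ => (L ^ 3)⁻¹ * Real.log (grandZ φ β z L)) atTop (𝓝 (Pi z))

/-- A phase transition in the sense (a): for some `β > 0` the pressure is not
differentiable at some activity `z > 0`. -/
def HasPhaseTransition (φ : ℝ → ℝ) : Prop :=
  ∃ β : ℝ, 0 < β ∧ ∃ Pi : ℝ → ℝ, IsPressure φ β Pi ∧
    ∃ z : ℝ, 0 < z ∧ ¬ DifferentiableAt ℝ Pi z

end Vale.Agent.P171
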