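import Vale.Agent.P171.Trial

open MeasureTheory Filter Topology
open scoped ENNReal

namespace Vale.Agent.P171

/-- the potential attached to a coefficient sequence -/
noncomputable def phi (a : ℕ → ℝ) (r : ℝ) : ℝ := (if r ≤ 1/2 then Hc else 0) - prof a r

theorem ker_eq_phi (a : ℕ → ℝ) (x y : E3) : ker a x y = - phi a (dist x y) := by
  unfold ker phi
  rw [prof_dist]
  ring

theorem sum_phi {N : ℕ} (f : ℝ → ℝ) (x : Fin N → E3) :
    ∑ i, ∑ j, f (dist (x i) (x j)) = 2 * energy f x + N * f 0 := by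
  have h1 : ∀ i j : Fin N, f (dist (x i) (x j)) =
      (if i < j then f (dist (x i) (x j)) else 0) + (if j < i then f (dist (x j) (x i)) else 0) +
      (if j = i then f 0 else 0) := by
    intro i j
    rcases lt_trichotomy i j with h | h | h
    · simp [h, h.ne', not_lt.2 h.le]
    · subst h; simp
    · simp [h, h.ne, not_lt.2 h.le, dist_comm (x i) (x j)]
  have h2 : ∑ i, ∑ j, f (dist (x i) (x j)) = ∑ i : Fin N, ∑ j : Fin N,
      ((if i < j then f (dist (x i) (x j)) else 0) + (if j < i then f (dist (x j) (x i)) else 0) +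
      (if j = i then f 0 else 0)) :=
    Finset.sum_congr rfl fun i _ => Finset.sum_congr rfl fun j _ => h1 i j
  rw [h2]
  simp only [Finset.sum_add_distrib]
  have h3 : ∑ i : Fin N, ∑ j : Fin N, (if j < i then f (dist (x j) (x i)) else 0) = energy f x := by
    rw [Finset.sum_comm]; rfl
  have h4 : ∑ i : Fin N, ∑ j : Fin N, (if i < j then f (dist (x i) (x j)) else 0) = energy f x := rfl
  rw [h3, h4]
  simp
  ring

theorem W_eq_energy (ν : ℝ) (a : ℕ → ℝ) {N : ℕ} (x : Fin N → E3) :
    W ν (ker a) (conf x) =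
      ENNReal.ofReal (Real.exp ((ν - phi a 0 / 2) * N) * Real.exp (-1 * energy (phi a) x)) := by
  rw [W_conf, ← Real.exp_add, Fintype.card_fin]
  simp_rw [ker_eq_phi, Finset.sum_neg_distrib]
  rw [sum_phi]
  congr 2
  ring

theorem term_eq {a : ℕ → ℝ} (ha : Adm a) {z : ℝ} (hz : 0 < z) (L : ℝ) (N : ℕ) :
    z ^ N * canonicalZ (phi a) 1 L N = (((N.factorial : ℕ) : ℝ≥0∞)⁻¹ *
      In (W (Real.log z + phi a 0 / 2) (ker a)) (box L) (Fin N)).toReal := by
  have hset : {x : Fin N → E3 | ∀ i, x i ∈ box L} = Set.univ.pi (fun _ => box L) := by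
    ext x; simp
  have hM : Measurable (fun x : Fin N → E3 => Real.exp (-1 * energy (phi a) x)) := by
    have h1 := (Meas_W (phi a 0 / 2) (measurable_ker ha) N).ennreal_toReal
    have h2 : (fun x : Fin N → E3 => Real.exp (-1 * energy (phi a) x)) =
        fun x : Fin N → E3 => (W (phi a 0 / 2) (ker a) (conf x)).toReal := by
      funext x
      rw [W_eq_energy, sub_self, zero_mul, Real.exp_zero, one_mul,
        ENNReal.toReal_ofReal (Real.exp_pos _).le]
    rw [h2]
    exact h1
  unfold canonicalZ In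
  rw [hset, ENNReal.toReal_mul, ENNReal.toReal_inv, ENNReal.toReal_natCast]
  have h2 : ∀ x : Fin N → E3, W (Real.log z + phi a 0 / 2) (ker a) (conf x) =
      ENNReal.ofReal (z ^ N) * ENNReal.ofReal (Real.exp (-1 * energy (phi a) x)) := by
    intro x
    rw [W_eq_energy, add_sub_cancel_right, ← ENNReal.ofReal_mul (by positivity)]
    congr 2
    rw [Real.exp_mul, Real.exp_log hz, Real.rpow_natCast]
  simp_rw [h2]
  rw [lintegral_const_mul _ hM.ennreal_ofReal, ENNReal.toReal_mul,
    ENNReal.toReal_ofReal (by positivity),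
    integral_eq_lintegral_of_nonneg_ae (Eventually.of_forall fun x => (Real.exp_pos _).le)
      hM.aestronglyMeasurable]
  ring

theorem Xi_tsum_ne_top (ν : ℝ) {a : ℕ → ℝ} (ha : Adm a) (L : ℝ) :
    ∑' N : ℕ, ((N.factorial : ℕ) : ℝ≥0∞)⁻¹ * In (W ν (ker a)) (box L) (Fin N) ≠ ⊤ :=
  Xi_ne_top ν ha L

theorem summable_grand {a : ℕ → ℝ} (ha : Adm a) {z : ℝ} (hz : 0 < z) (L : ℝ) :
    Summable fun N : ℕ => z ^ N * canonicalZ (phi a) 1 L N := by
  simp_rw [term_eq ha hz L]
  exact ENNReal.summable_toReal (Xi_tsum_ne_top _ ha L)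

theorem grandZ_eq {a : ℕ → ℝ} (ha : Adm a) {z : ℝ} (hz : 0 < z) (L : ℝ) :
    grandZ (phi a) 1 z L = (Xi (Real.log z + phi a 0 / 2) a L).toReal := by
  unfold grandZ Xi Z
  simp_rw [term_eq ha hz L]
  exact (ENNReal.tsum_toReal_eq (ENNReal.ne_top_of_tsum_ne_top (Xi_tsum_ne_top _ ha L))).symm

theorem isPressure_phi {a : ℕ → ℝ} (ha : Adm a) :
    IsPressure (phi a) 1 (fun z => P (Real.log z + phi a 0 / 2) a) := by
  intro z hz
  refine ⟨fun L _ => summable_grand ha hz L, ?_⟩
  simp_rw [grandZ_eq ha hz]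
  exact tendsto_P _ ha

theorem prof_nonneg {a : ℕ → ℝ} (ha : Adm a) (r : ℝ) : 0 ≤ prof a r := by
  unfold prof
  refine tsum_nonneg fun j => mul_nonneg (ha.nonneg j) ?_
  have h1 := c3_pos
  have h2 := Rad_pos j
  split_ifs
  · positivity
  · exact le_rfl

theorem prof_le {a : ℕ → ℝ} (ha : Adm a) (r : ℝ) : prof a r ≤ 100 * c3⁻¹ := by
  have h1 := c3_pos
  calc prof a r ≤ ∑' j, a j * c3⁻¹ := by
        unfold prof
        refine (prof_summable ha r).tsum_le_tsum (fun j => ?_) (ha.summable.mul_right _)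
        refine mul_le_mul_of_nonneg_left ?_ (ha.nonneg j)
        have h2 := Rad_pos j
        split_ifs
        · rw [mul_inv]
          have h3 : (Rad j ^ 3)⁻¹ ≤ 1 := by
            apply inv_le_one_of_one_le₀
            have : (1:ℝ) ≤ Rad j := by linarith
            exact one_le_pow₀ this
          have h4 : 0 < c3⁻¹ := inv_pos.2 h1
          nlinarith
        · positivity
    _ = (∑' j, a j) * c3⁻¹ := by rw [tsum_mul_right]
    _ ≤ 100 * c3⁻¹ := by
        have := ha.le
        gcongr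

theorem stable_phi {a : ℕ → ℝ} (ha : Adm a) : Stable (phi a) := by
  refine ⟨phi a 0 / 2, fun N x _ => ?_⟩
  have h1 := superstable ha x
  have h2 := Sq_nonneg x
  simp_rw [ker_eq_phi, Finset.sum_neg_distrib] at h1
  rw [sum_phi] at h1
  linarith

theorem tempered_phi {a : ℕ → ℝ} (ha : Adm a) : Tempered (phi a) := by
  refine ⟨1, one_pos, 1, one_pos, 1, one_pos, fun r hr => ?_⟩
  have h1 : phi a r ≤ 0 := by
    unfold phi
    rw [if_neg (by linarith)]
    have := prof_nonneg ha r
    linarith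
  refine h1.trans ?_
  have : 0 ≤ r ^ (-3 - 1 : ℝ) := Real.rpow_nonneg (by linarith) _
  linarith

theorem measurable_phi {a : ℕ → ℝ} (ha : Adm a) : Measurable (phi a) := by
  unfold phi
  exact (Measurable.ite measurableSet_Iic measurable_const measurable_const).sub
    (prof_antitone ha).measurable

theorem locallyBounded_phi {a : ℕ → ℝ} (ha : Adm a) : LocallyBounded (phi a) := by
  intro K _ _
  refine ⟨Hc + 100 * c3⁻¹, fun r _ => ?_⟩
  have h1 := prof_nonneg ha r
  have h2 := prof_le ha r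
  have hH : (0:ℝ) < Hc := by unfold Hc; norm_num
  unfold phi
  rw [abs_le]
  split_ifs
  · constructor <;> linarith
  · constructor <;> linarith

theorem hasPhaseTransition_of {ν : ℝ} {a : ℕ → ℝ} (ha : Adm a)
    (h : ¬ DifferentiableAt ℝ (fun s => P s a) ν) : HasPhaseTransition (phi a) := by
  refine ⟨1, one_pos, fun z => P (Real.log z + phi a 0 / 2) a, isPressure_phi ha,
    Real.exp (ν - phi a 0 / 2), Real.exp_pos _, fun hd => h ?_⟩
  have h1 : DifferentiableAt ℝ (fun s : ℝ => Real.exp (s - phi a 0 / 2)) ν :=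
    (differentiableAt_id.sub_const _).exp
  have h2 := DifferentiableAt.comp (x := ν) (f := fun s : ℝ => Real.exp (s - phi a 0 / 2))
    (g := fun z => P (Real.log z + phi a 0 / 2) a) hd h1
  have h3 : (fun z => P (Real.log z + phi a 0 / 2) a) ∘ (fun s : ℝ => Real.exp (s - phi a 0 / 2))
      = fun s => P s a := by
    funext s
    simp only [Function.comp_apply, Real.log_exp]
    congr 1
    ring
  rwa [h3] at h2

end Vale.Agent.P171
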