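import Vale.Agent.P171.Final
import Vale.Agent.P171.Abstract

/-!
# P171: the transition is of first order; scaling in the temperature; integrability
-/

open MeasureTheory Filter Topology
open scoped ENNReal

namespace Vale.Agent.P171

/-! ### convexity of the pressure in the chemical potential -/

theorem logsum_convex (c : ℕ → ℝ) (hc : ∀ N, 0 ≤ c N) (hc0 : 0 < c 0)
    (hs : ∀ s : ℝ, Summable fun N : ℕ => Real.exp (s * N) * c N) :
    ConvexOn ℝ Set.univ (fun s : ℝ => Real.log (∑' N : ℕ, Real.exp (s * N) * c N)) := by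
  have hnn : ∀ (s : ℝ) (N : ℕ), 0 ≤ Real.exp (s * N) * c N := fun s N =>
    mul_nonneg (Real.exp_pos _).le (hc N)
  have hpos : ∀ s : ℝ, 0 < ∑' N : ℕ, Real.exp (s * N) * c N := by
    intro s
    refine (hs s).tsum_pos (hnn s) 0 ?_
    exact mul_pos (Real.exp_pos _) hc0
  refine ⟨convex_univ, ?_⟩
  intro x _ y _ a b ha hb hab
  rcases ha.lt_or_eq with ha' | ha'
  · rcases hb.lt_or_eq with hb' | hb'
    · have hpq : (a⁻¹).HolderConjugate (b⁻¹) := by
        rw [Real.holderConjugate_iff]
        refine ⟨?_, by rw [inv_inv, inv_inv]; exact hab⟩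
        rw [one_lt_inv₀ ha']
        linarith
      have hfa : ∀ N : ℕ, ((Real.exp (x * N) * c N) ^ a) ^ (a⁻¹) = Real.exp (x * N) * c N := by
        intro N
        rw [← Real.rpow_mul (hnn x N), mul_inv_cancel₀ ha'.ne', Real.rpow_one]
      have hgb : ∀ N : ℕ, ((Real.exp (y * N) * c N) ^ b) ^ (b⁻¹) = Real.exp (y * N) * c N := by
        intro N
        rw [← Real.rpow_mul (hnn y N), mul_inv_cancel₀ hb'.ne', Real.rpow_one]
      have h := Real.inner_le_Lp_mul_Lq_tsum_of_nonneg hpq
        (f := fun N : ℕ => (Real.exp (x * N) * c N) ^ a)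
        (g := fun N : ℕ => (Real.exp (y * N) * c N) ^ b)
        (fun N => Real.rpow_nonneg (hnn x N) a) (fun N => Real.rpow_nonneg (hnn y N) b)
        (by simp_rw [hfa]; exact hs x) (by simp_rw [hgb]; exact hs y)
      simp_rw [hfa, hgb] at h
      have hprod : ∀ N : ℕ, (Real.exp (x * N) * c N) ^ a * (Real.exp (y * N) * c N) ^ b =
          Real.exp ((a • x + b • y) * N) * c N := by
        intro N
        rw [Real.mul_rpow (Real.exp_pos _).le (hc N), Real.mul_rpow (Real.exp_pos _).le (hc N),
          ← Real.exp_mul, ← Real.exp_mul]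
        have h1 : c N ^ a * c N ^ b = c N := by
          rcases (hc N).lt_or_eq with h0 | h0
          · rw [← Real.rpow_add h0, hab, Real.rpow_one]
          · rw [← h0, Real.zero_rpow ha'.ne', zero_mul]
        calc Real.exp (x * N * a) * c N ^ a * (Real.exp (y * N * b) * c N ^ b)
            = (Real.exp (x * N * a) * Real.exp (y * N * b)) * (c N ^ a * c N ^ b) := by ring
          _ = Real.exp ((a • x + b • y) * N) * c N := by
            rw [h1, ← Real.exp_add]
            congr 2
            simp only [smul_eq_mul]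
            ring
      simp_rw [hprod] at h
      have hl := Real.log_le_log (hpos _) h
      rw [one_div, one_div, inv_inv, inv_inv,
        Real.log_mul (Real.rpow_pos_of_pos (hpos x) a).ne' (Real.rpow_pos_of_pos (hpos y) b).ne',
        Real.log_rpow (hpos x), Real.log_rpow (hpos y)] at hl
      simpa only [smul_eq_mul] using hl
    · subst hb'
      have ha1 : a = 1 := by linarith
      subst ha1
      simp
  · subst ha'
    have hb1 : b = 1 := by linarith
    subst hb1
    simp

theorem canonicalZ_nonneg (φ : ℝ → ℝ) (β L : ℝ) (N : ℕ) : 0 ≤ canonicalZ φ β L N := by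
  unfold canonicalZ
  exact mul_nonneg (by positivity) (integral_nonneg fun x => (Real.exp_pos _).le)

theorem canonicalZ_zero (φ : ℝ → ℝ) (β L : ℝ) : canonicalZ φ β L 0 = 1 := by
  have h : (volume : Measure (Fin 0 → E3)).real Set.univ = 1 := by
    rw [Measure.real, volume_pi, Measure.pi_empty_univ]
    rfl
  unfold canonicalZ energy
  simp [h]

/-- the pressure is a convex function of the chemical potential -/
theorem convex_P {a : ℕ → ℝ} (ha : Adm a) : ConvexOn ℝ Set.univ (fun s => P s a) := by
  have hlim : ∀ s : ℝ, Tendsto (fun L : ℝ => (L ^ 3)⁻¹ *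
      Real.log (∑' N : ℕ, Real.exp ((s - phi a 0 / 2) * N) * canonicalZ (phi a) 1 L N)) atTop
      (𝓝 (P s a)) := by
    intro s
    have h1 := (isPressure_phi ha (Real.exp (s - phi a 0 / 2)) (Real.exp_pos _)).2
    have h2 : Real.log (Real.exp (s - phi a 0 / 2)) + phi a 0 / 2 = s := by
      rw [Real.log_exp]; ring
    simp only [h2] at h1
    refine h1.congr fun L => ?_
    unfold grandZ
    congr 3
    funext N
    rw [Real.exp_mul, Real.rpow_natCast]
  refine ⟨convex_univ, ?_⟩
  intro x _ y _ t u ht hu htu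
  have hL := (hlim x).const_mul t
  have hR := (hlim y).const_mul u
  refine le_of_tendsto_of_tendsto (hlim (t • x + u • y)) (hL.add hR) ?_
  filter_upwards [eventually_gt_atTop (0 : ℝ)] with L hL0
  have hcv := logsum_convex (fun N => canonicalZ (phi a) 1 L N)
    (fun N => canonicalZ_nonneg _ _ _ _) (by rw [canonicalZ_zero]; exact one_pos)
    (fun s => by
      have h3 := (isPressure_phi ha (Real.exp s) (Real.exp_pos _)).1 L hL0
      refine h3.congr fun N => ?_
      rw [Real.exp_mul, Real.rpow_natCast])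
  have h4 := hcv.2 (Set.mem_univ (x - phi a 0 / 2)) (Set.mem_univ (y - phi a 0 / 2)) ht hu htu
  have h5 : t • (x - phi a 0 / 2) + u • (y - phi a 0 / 2) = (t • x + u • y) - phi a 0 / 2 := by
    simp only [smul_eq_mul]
    linear_combination (-(phi a 0 / 2)) * htu
  rw [h5] at h4
  simp only [smul_eq_mul] at h4 ⊢
  have h6 : 0 ≤ (L ^ 3)⁻¹ := by positivity
  have h7 := mul_le_mul_of_nonneg_left h4 h6
  refine h7.trans (le_of_eq ?_)
  ring

/-- one-sided derivatives of a convex function at a point of non-differentiability -/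
theorem jump_of_not_diff {F : ℝ → ℝ} (hF : ConvexOn ℝ Set.univ F) {ν : ℝ}
    (h : ¬ DifferentiableAt ℝ F ν) : ∃ l r : ℝ, l < r ∧ HasDerivWithinAt F l (Set.Iio ν) ν ∧
      HasDerivWithinAt F r (Set.Ioi ν) ν := by
  have hi : ν ∈ interior (Set.univ : Set ℝ) := by rw [interior_univ]; exact Set.mem_univ _
  have h1 := hF.hasDerivWithinAt_leftDeriv_of_mem_interior hi
  have h2 := hF.hasDerivWithinAt_rightDeriv_of_mem_interior hi
  refine ⟨_, _, lt_of_le_of_ne (hF.leftDeriv_le_rightDeriv_of_mem_interior hi) ?_, h1, h2⟩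
  intro heq
  apply h
  rw [heq] at h1
  have h3 := (hasDerivWithinAt_Iio_iff_Iic.1 h1).union (hasDerivWithinAt_Ioi_iff_Ici.1 h2)
  rw [Set.Iic_union_Ici, hasDerivWithinAt_univ] at h3
  exact h3.differentiableAt

/-! ### integrability of the potential -/

theorem volume_closedBall_E3 {r : ℝ} (hr : 0 ≤ r) :
    volume (Metric.closedBall (0 : E3) r) = ENNReal.ofReal (r ^ 3 * c3) := by
  rw [Measure.addHaar_closedBall _ _ hr, ENNReal.ofReal_mul (by positivity)]
  congr 1
  · congr 2
    simp
  · unfold c3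
    rw [ENNReal.ofReal_toReal]
    exact measure_ball_lt_top.ne

theorem integrable_prof {a : ℕ → ℝ} (ha : Adm a) : Integrable (fun x : E3 => prof a ‖x‖) := by
  have hm : Measurable (fun x : E3 => prof a ‖x‖) :=
    (prof_antitone ha).measurable.comp measurable_norm
  refine ⟨hm.aestronglyMeasurable, ?_⟩
  rw [hasFiniteIntegral_iff_ofReal (Eventually.of_forall fun x => prof_nonneg ha _)]
  have hc3 := c3_pos
  have hterm : ∀ (j : ℕ) (r : ℝ), 0 ≤ a j * (if r ≤ Rad j then (c3 * Rad j ^ 3)⁻¹ else 0) := by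
    intro j r
    refine mul_nonneg (ha.nonneg j) ?_
    have h2 := Rad_pos j
    split_ifs
    · positivity
    · exact le_rfl
  have h1 : ∀ x : E3, ENNReal.ofReal (prof a ‖x‖) =
      ∑' j, (Metric.closedBall (0 : E3) (Rad j)).indicator
        (fun _ => ENNReal.ofReal (a j * (c3 * Rad j ^ 3)⁻¹)) x := by
    intro x
    unfold prof
    rw [ENNReal.ofReal_tsum_of_nonneg (fun j => hterm j _) (prof_summable ha _)]
    congr 1
    funext j
    by_cases hx : ‖x‖ ≤ Rad j
    · rw [if_pos hx, Set.indicator_of_mem]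
      rw [mem_closedBall_zero_iff]
      exact hx
    · rw [if_neg hx, Set.indicator_of_notMem, mul_zero, ENNReal.ofReal_zero]
      rw [mem_closedBall_zero_iff]
      exact hx
  simp_rw [h1]
  rw [lintegral_tsum (fun j => (measurable_const.indicator
    Metric.isClosed_closedBall.measurableSet).aemeasurable)]
  have h2 : ∀ j, ∫⁻ x, (Metric.closedBall (0 : E3) (Rad j)).indicator
      (fun _ => ENNReal.ofReal (a j * (c3 * Rad j ^ 3)⁻¹)) x = ENNReal.ofReal (a j) := by
    intro j
    have hR := Rad_pos j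
    rw [lintegral_indicator Metric.isClosed_closedBall.measurableSet, lintegral_const,
      Measure.restrict_apply_univ, volume_closedBall_E3 (by linarith),
      ← ENNReal.ofReal_mul (mul_nonneg (ha.nonneg j) (by positivity))]
    congr 1
    have : Rad j ≠ 0 := by linarith
    field_simp
  simp_rw [h2]
  rw [← ENNReal.ofReal_tsum_of_nonneg ha.nonneg ha.summable]
  exact ENNReal.ofReal_lt_top

theorem integrable_phi {a : ℕ → ℝ} (ha : Adm a) : Integrable (fun x : E3 => phi a ‖x‖) := by
  unfold phi
  refine Integrable.sub ?_ (integrable_prof ha)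
  have h1 : (fun x : E3 => if ‖x‖ ≤ 1 / 2 then Hc else 0) =
      (Metric.closedBall (0 : E3) (1 / 2)).indicator (fun _ => Hc) := by
    funext x
    by_cases hx : ‖x‖ ≤ 1 / 2
    · rw [if_pos hx, Set.indicator_of_mem]
      rw [mem_closedBall_zero_iff]
      exact hx
    · rw [if_neg hx, Set.indicator_of_notMem]
      rw [mem_closedBall_zero_iff]
      exact hx
  rw [h1, integrable_indicator_iff Metric.isClosed_closedBall.measurableSet]
  exact integrableOn_const (by
    rw [volume_closedBall_E3 (by norm_num)]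
    exact ENNReal.ofReal_ne_top)

theorem bounded_phi {a : ℕ → ℝ} (ha : Adm a) : ∃ M : ℝ, ∀ r, |phi a r| ≤ M := by
  refine ⟨Hc + 100 * c3⁻¹, fun r => ?_⟩
  have h1 := prof_nonneg ha r
  have h2 := prof_le ha r
  have hH : (0:ℝ) < Hc := by unfold Hc; norm_num
  unfold phi
  rw [abs_le]
  split_ifs
  · constructor <;> linarith
  · constructor <;> linarith

/-! ### change of the temperature -/

theorem energy_div (φ : ℝ → ℝ) (β : ℝ) {N : ℕ} (x : Fin N → E3) :
    energy (fun r => φ r / β) x = energy φ x / β := by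
  unfold energy
  rw [Finset.sum_div]
  refine Finset.sum_congr rfl fun i _ => ?_
  rw [Finset.sum_div]
  refine Finset.sum_congr rfl fun j _ => ?_
  split_ifs
  · rfl
  · rw [zero_div]

theorem canonicalZ_div (φ : ℝ → ℝ) {β : ℝ} (hβ : 0 < β) (L : ℝ) (N : ℕ) :
    canonicalZ (fun r => φ r / β) β L N = canonicalZ φ 1 L N := by
  have h : (fun x : Fin N → E3 => Real.exp (-β * energy (fun r => φ r / β) x)) =
      fun x : Fin N → E3 => Real.exp (-1 * energy φ x) := by
    funext x
    rw [energy_div]
    congr 1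
    field_simp
  unfold canonicalZ
  rw [h]

theorem isPressure_div {φ : ℝ → ℝ} {Pi : ℝ → ℝ} (h : IsPressure φ 1 Pi) {β : ℝ} (hβ : 0 < β) :
    IsPressure (fun r => φ r / β) β Pi := by
  intro z hz
  refine ⟨fun L hL => ?_, ?_⟩
  · refine ((h z hz).1 L hL).congr fun N => ?_
    rw [canonicalZ_div φ hβ]
  · refine (h z hz).2.congr fun L => ?_
    unfold grandZ
    simp_rw [canonicalZ_div φ hβ]

theorem stable_div {φ : ℝ → ℝ} (h : Stable φ) {β : ℝ} (hβ : 0 < β) :
    Stable (fun r => φ r / β) := by
  obtain ⟨B, hB⟩ := h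
  refine ⟨B / β, fun N x hx => ?_⟩
  rw [energy_div, le_div_iff₀ hβ]
  have h1 := hB N x hx
  have h2 : -(B / β * (N : ℝ)) * β = -(B * (N : ℝ)) := by
    field_simp
  rw [h2]
  exact h1

theorem tempered_div {φ : ℝ → ℝ} (h : Tempered φ) {β : ℝ} (hβ : 0 < β) :
    Tempered (fun r => φ r / β) := by
  obtain ⟨C, hC, ε, hε, R, hR, h⟩ := h
  refine ⟨C / β, by positivity, ε, hε, R, hR, fun r hr => ?_⟩
  rw [div_mul_eq_mul_div, div_le_div_iff_of_pos_right hβ]
  exact h r hr

/-- the pressure as a function of the activity: one-sided derivatives -/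
theorem jump_activity {F : ℝ → ℝ} {c ν l r : ℝ} (hl : HasDerivWithinAt F l (Set.Iio ν) ν)
    (hr : HasDerivWithinAt F r (Set.Ioi ν) ν) :
    HasDerivWithinAt (fun z => F (Real.log z + c)) (l / Real.exp (ν - c))
      (Set.Iio (Real.exp (ν - c))) (Real.exp (ν - c)) ∧
    HasDerivWithinAt (fun z => F (Real.log z + c)) (r / Real.exp (ν - c))
      (Set.Ioi (Real.exp (ν - c))) (Real.exp (ν - c)) := by
  set z0 := Real.exp (ν - c) with hz0
  have hz : 0 < z0 := Real.exp_pos _
  have hlog : Real.log z0 + c = ν := by rw [hz0, Real.log_exp]; ring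
  have hd : HasDerivAt (fun z => Real.log z + c) (z0⁻¹) z0 :=
    (Real.hasDerivAt_log hz.ne').add_const c
  constructor
  · have h1 : HasDerivWithinAt (fun z => F (Real.log z + c)) (l * z0⁻¹) (Set.Ioo 0 z0) z0 := by
      refine HasDerivWithinAt.comp (h₂ := F) (h := fun z => Real.log z + c) z0
        (s' := Set.Iio ν) ?_ hd.hasDerivWithinAt ?_
      · rw [hlog]; exact hl
      · intro z hz1
        have := Real.log_lt_log hz1.1 hz1.2
        show Real.log z + c < ν
        linarith
    have h2 := h1.mono_of_mem_nhdsWithin (Ioo_mem_nhdsLT hz)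
    rw [div_eq_mul_inv]
    exact h2
  · have h1 : HasDerivWithinAt (fun z => F (Real.log z + c)) (r * z0⁻¹) (Set.Ioi z0) z0 := by
      refine HasDerivWithinAt.comp (h₂ := F) (h := fun z => Real.log z + c) z0
        (s' := Set.Ioi ν) ?_ hd.hasDerivWithinAt ?_
      · rw [hlog]; exact hr
      · intro z hz1
        have := Real.log_lt_log hz hz1
        show ν < Real.log z + c
        linarith
    rw [div_eq_mul_inv]
    exact h1

end Vale.Agent.P171
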