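import Vale.Agent.P171.Core

open MeasureTheory Filter Topology
open scoped ENNReal

namespace Vale.Agent.P171

theorem c3_pos : 0 < c3 := by
  unfold c3
  exact ENNReal.toReal_pos (Metric.measure_ball_pos volume _ one_pos).ne'
    measure_ball_lt_top.ne

theorem geom_volume_closedBall (x : E3) {r : ℝ} (hr : 0 ≤ r) :
    volume (Metric.closedBall x r) = ENNReal.ofReal (c3 * r ^ 3) := by
  rw [Measure.addHaar_closedBall _ _ hr]
  have h : volume (Metric.ball (0 : E3) 1) = ENNReal.ofReal c3 := by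
    unfold c3
    rw [ENNReal.ofReal_toReal measure_ball_lt_top.ne]
  rw [h, ← ENNReal.ofReal_mul (by positivity)]
  congr 1
  simp [mul_comm]

theorem geom_volume_cell (l u : ℝ) (hl : 0 < l) (c : Fin 3 → ℤ) :
    volume {y : E3 | cell l u y = c} = ENNReal.ofReal (l ^ 3) := by
  have h1 : {y : E3 | cell l u y = c} =
      (@WithLp.ofLp 2 (Fin 3 → ℝ)) ⁻¹'
        (Set.pi Set.univ fun i => Set.Ico ((c i : ℝ) * l + u) ((c i : ℝ) * l + u + l)) := by
    ext y
    simp only [Set.mem_ofPred_eq, Set.mem_preimage, Set.mem_pi, Set.mem_univ, forall_true_left,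
      Set.mem_Ico, cell, funext_iff, Int.floor_eq_iff]
    refine forall_congr' fun i => ?_
    rw [le_div_iff₀ hl, div_lt_iff₀ hl]
    constructor
    · rintro ⟨h, h'⟩; constructor <;> nlinarith
    · rintro ⟨h, h'⟩; constructor <;> nlinarith
  rw [h1, (PiLp.volume_preserving_ofLp (Fin 3)).measure_preimage
    (MeasurableSet.univ_pi fun i => measurableSet_Ico).nullMeasurableSet, Real.volume_pi_Ico]
  simp only [add_sub_cancel_left, Finset.prod_const, Finset.card_univ, Fintype.card_fin]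
  rw [ENNReal.ofReal_pow hl.le]

theorem geom_measurableSet_cell (l u : ℝ) (c : Fin 3 → ℤ) :
    MeasurableSet {y : E3 | cell l u y = c} := by
  have : {y : E3 | cell l u y = c} = ⋂ i, {y : E3 | ⌊(y i - u) / l⌋ = c i} := by
    ext y; simp [cell, funext_iff]
  rw [this]
  refine MeasurableSet.iInter fun i => ?_
  have hm : Measurable fun y : E3 => ⌊(y i - u) / l⌋ := by
    apply Int.measurable_floor.comp
    fun_prop
  exact hm (measurableSet_singleton (c i))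

/-- counting cubes contained in a ball -/
theorem geom_card_cells_le (l u : ℝ) (hl : 0 < l) (p : E3) (ρ : ℝ) (hρ : 0 ≤ ρ)
    (S : Finset (Fin 3 → ℤ))
    (hS : ∀ c ∈ S, {y : E3 | cell l u y = c} ⊆ Metric.closedBall p ρ) :
    (S.card : ℝ) ≤ c3 * ρ ^ 3 / l ^ 3 := by
  have h1 : volume (⋃ c ∈ S, {y : E3 | cell l u y = c}) = ∑ c ∈ S, ENNReal.ofReal (l ^ 3) := by
    rw [measure_biUnion_finset]
    · exact Finset.sum_congr rfl fun c _ => geom_volume_cell l u hl c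
    · intro c _ c' _ hcc'
      rw [Function.onFun, Set.disjoint_left]
      intro y hy hy'
      exact hcc' (by rw [← hy, ← hy'])
    · intro c _; exact geom_measurableSet_cell l u c
  have h2 : volume (⋃ c ∈ S, {y : E3 | cell l u y = c}) ≤ volume (Metric.closedBall p ρ) :=
    measure_mono (Set.iUnion₂_subset hS)
  rw [h1, geom_volume_closedBall p hρ, Finset.sum_const, nsmul_eq_mul,
    ← ENNReal.ofReal_natCast, ← ENNReal.ofReal_mul (by positivity)] at h2
  have h3 := (ENNReal.ofReal_le_ofReal_iff (by have := c3_pos; positivity)).1 h2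
  rw [le_div_iff₀ (by positivity)]
  exact h3

theorem geom_coord_le_dist (x y : E3) (i : Fin 3) : |x i - y i| ≤ dist x y := by
  rw [EuclideanSpace.dist_eq]
  apply Real.abs_le_sqrt
  rw [← sq_abs, ← Real.dist_eq]
  exact Finset.single_le_sum (f := fun i => dist (x i) (y i) ^ 2) (fun j _ => sq_nonneg _)
    (Finset.mem_univ i)

theorem geom_dist_le (x y : E3) (M : ℝ) (hM : 0 ≤ M) (h : ∀ i, |x i - y i| ≤ M) :
    dist x y ≤ (7 / 4) * M := by
  rw [EuclideanSpace.dist_eq]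
  apply Real.sqrt_le_iff.2
  refine ⟨by positivity, ?_⟩
  have : ∑ i : Fin 3, dist (x i) (y i) ^ 2 ≤ ∑ _i : Fin 3, M ^ 2 := by
    refine Finset.sum_le_sum fun i _ => ?_
    rw [Real.dist_eq]
    exact pow_le_pow_left₀ (abs_nonneg _) (h i) 2
  refine this.trans ?_
  simp only [Finset.sum_const, Finset.card_univ, Fintype.card_fin, nsmul_eq_mul]
  push_cast
  nlinarith [sq_nonneg M]

theorem geom_cell_coord (l u : ℝ) (hl : 0 < l) (x y : E3) (h : cell l u x = cell l u y)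
    (i : Fin 3) : |x i - y i| ≤ l := by
  have hi : ⌊(x i - u) / l⌋ = ⌊(y i - u) / l⌋ := congrFun h i
  have h1 := Int.floor_le ((x i - u) / l)
  have h2 := Int.lt_floor_add_one ((x i - u) / l)
  have h3 := Int.floor_le ((y i - u) / l)
  have h4 := Int.lt_floor_add_one ((y i - u) / l)
  rw [hi] at h1 h2
  have h5 : |(x i - u) / l - (y i - u) / l| ≤ 1 := by
    rw [abs_le]; constructor <;> linarith
  have h6 : (x i - u) / l - (y i - u) / l = (x i - y i) / l := by ring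
  rw [h6, abs_div, abs_of_pos hl, div_le_one hl] at h5
  exact h5

theorem geom_cell_dist (l u : ℝ) (hl : 0 < l) (x y : E3) (h : cell l u x = cell l u y) :
    dist x y ≤ (7 / 4) * l :=
  geom_dist_le x y l hl.le fun i => geom_cell_coord l u hl x y h i

theorem dist_of_cell_small (x y : E3) (h : cell (1/4) 0 x = cell (1/4) 0 y) :
    dist x y ≤ 1/2 := by
  have := geom_cell_dist (1/4) 0 (by norm_num) x y h
  linarith

theorem cell_small_big (l u : ℕ) (hl : 0 < l) (x y : E3)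
    (h : cell (1/4) 0 x = cell (1/4) 0 y) : cell (l:ℝ) (u:ℝ) x = cell (l:ℝ) (u:ℝ) y := by
  funext i
  have hi : ⌊(x i - 0) / (1/4)⌋ = ⌊(y i - 0) / (1/4)⌋ := congrFun h i
  have hl' : (0:ℝ) < l := by exact_mod_cast hl
  have key : ∀ z : ℝ, ∀ m : ℤ, m ≤ ⌊(z - u) / l⌋ ↔ 4 * (m * l + u) ≤ ⌊(z - 0) / (1/4)⌋ := by
    intro z m
    rw [Int.le_floor, Int.le_floor, le_div_iff₀ hl']
    push_cast
    constructor
    · intro h; linarith
    · intro h; linarith
  refine eq_of_forall_le_iff fun m => ?_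
  show m ≤ ⌊(x i - u) / l⌋ ↔ m ≤ ⌊(y i - u) / l⌋
  rw [key, key, hi]

/-- `∑_{u < l} (m - u) / l = m + const`. -/
theorem geom_sum_div (l : ℕ) (hl : 0 < l) (m : ℤ) :
    ∑ u ∈ Finset.range l, (m + 1 - u) / (l : ℤ) = ∑ u ∈ Finset.range l, (m - u) / (l : ℤ) + 1 := by
  obtain ⟨k, rfl⟩ : ∃ k, l = k + 1 := ⟨l - 1, by omega⟩
  rw [Finset.sum_range_succ', Finset.sum_range_succ]
  have h1 : ∀ u ∈ Finset.range k, (m + 1 - ((u + 1 : ℕ) : ℤ)) / ((k + 1 : ℕ) : ℤ) =
      (m - u) / ((k + 1 : ℕ) : ℤ) := by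
    intro u _; congr 1; push_cast; ring
  rw [Finset.sum_congr rfl h1]
  have h2 : (m + 1 - ((0 : ℕ) : ℤ)) / ((k + 1 : ℕ) : ℤ) = (m - k) / ((k + 1 : ℕ) : ℤ) + 1 := by
    have : m + 1 - ((0 : ℕ) : ℤ) = (m - k) + 1 * ((k + 1 : ℕ) : ℤ) := by push_cast; ring
    rw [this, Int.add_mul_ediv_right _ _ (by positivity)]
  rw [h2]; ring

theorem geom_sum_div' (l : ℕ) (hl : 0 < l) (m : ℤ) (d : ℕ) :
    ∑ u ∈ Finset.range l, (m + d - u) / (l : ℤ) =
      ∑ u ∈ Finset.range l, (m - u) / (l : ℤ) + d := by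
  induction d with
  | zero => simp
  | succ d ih =>
    have := geom_sum_div l hl (m + d)
    push_cast
    rw [← add_assoc, this, ih]; ring

theorem geom_shift_one (l : ℕ) (hl : 0 < l) (a b : ℝ) (hab : a ≤ b) :
    ∑ u ∈ Finset.range l, (if ⌊(a - u) / l⌋ ≠ ⌊(b - u) / l⌋ then (1:ℝ) else 0) ≤ (b - a) + 1 := by
  have hl' : (0:ℝ) < l := by exact_mod_cast hl
  have h1 : ∀ u ∈ Finset.range l, (if ⌊(a - u) / l⌋ ≠ ⌊(b - u) / l⌋ then (1:ℝ) else 0) ≤
      (((⌊b⌋ - u) / (l:ℤ) - (⌊a⌋ - u) / (l:ℤ) : ℤ) : ℝ) := by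
    intro u _
    have ha : ⌊(a - u) / l⌋ = (⌊a⌋ - u) / (l:ℤ) := by
      rw [Int.floor_div_natCast]; congr 1
      rw [Int.floor_sub_natCast]
    have hb : ⌊(b - u) / l⌋ = (⌊b⌋ - u) / (l:ℤ) := by
      rw [Int.floor_div_natCast]; congr 1
      rw [Int.floor_sub_natCast]
    have hle : ⌊(a - u) / l⌋ ≤ ⌊(b - u) / l⌋ := by
      apply Int.floor_mono
      exact div_le_div_of_nonneg_right (by linarith) hl'.le
    rw [← ha, ← hb]
    split_ifs with hne
    · have : ⌊(a - u) / l⌋ + 1 ≤ ⌊(b - u) / l⌋ := by omega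
      have h' : (1:ℤ) ≤ ⌊(b - u) / l⌋ - ⌊(a - u) / l⌋ := by omega
      exact_mod_cast h'
    · have h' : (0:ℤ) ≤ ⌊(b - u) / l⌋ - ⌊(a - u) / l⌋ := by omega
      exact_mod_cast h'
  refine (Finset.sum_le_sum h1).trans ?_
  rw [← Int.cast_sum, Finset.sum_sub_distrib]
  have hfl : ⌊a⌋ ≤ ⌊b⌋ := Int.floor_mono hab
  obtain ⟨d, hd⟩ : ∃ d : ℕ, ⌊b⌋ = ⌊a⌋ + d := ⟨(⌊b⌋ - ⌊a⌋).toNat, by omega⟩
  rw [hd, geom_sum_div' l hl]
  have h2 := Int.floor_le b
  have h3 := Int.lt_floor_add_one a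
  rw [hd] at h2
  push_cast at h2 ⊢
  linarith

theorem geom_shift_coord (l : ℕ) (hl : 0 < l) (a b : ℝ) :
    ∑ u ∈ Finset.range l, (if ⌊(a - u) / l⌋ ≠ ⌊(b - u) / l⌋ then (1:ℝ) else 0) ≤ |a - b| + 1 := by
  rcases le_total a b with hab | hab
  · rw [abs_sub_comm, abs_of_nonneg (by linarith)]
    exact geom_shift_one l hl a b hab
  · rw [abs_of_nonneg (by linarith)]
    have := geom_shift_one l hl b a hab
    refine le_trans (le_of_eq ?_) this
    refine Finset.sum_congr rfl fun u _ => ?_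
    simp only [ne_comm]

theorem shift_count (l : ℕ) (hl : 0 < l) (x y : E3) :
    ∑ u ∈ Finset.range l, (if cell (l:ℝ) (u:ℝ) x ≠ cell (l:ℝ) (u:ℝ) y then (1:ℝ) else 0) ≤
      3 * (dist x y + 1) := by
  have h1 : ∀ u ∈ Finset.range l,
      (if cell (l:ℝ) (u:ℝ) x ≠ cell (l:ℝ) (u:ℝ) y then (1:ℝ) else 0) ≤
      ∑ i : Fin 3, (if ⌊(x i - u) / l⌋ ≠ ⌊(y i - u) / l⌋ then (1:ℝ) else 0) := by
    intro u _
    split_ifs with h
    · obtain ⟨i, hi⟩ := Function.ne_iff.1 h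
      have hi' : ⌊(x i - u) / l⌋ ≠ ⌊(y i - u) / l⌋ := hi
      calc (1:ℝ) = (if ⌊(x i - u) / l⌋ ≠ ⌊(y i - u) / l⌋ then (1:ℝ) else 0) := by rw [if_pos hi']
        _ ≤ _ := Finset.single_le_sum
          (f := fun i : Fin 3 => (if ⌊(x i - u) / l⌋ ≠ ⌊(y i - u) / l⌋ then (1:ℝ) else 0))
          (fun j _ => by positivity) (Finset.mem_univ i)
    · positivity
  refine (Finset.sum_le_sum h1).trans ?_
  rw [Finset.sum_comm]
  have h2 : ∀ i ∈ (Finset.univ : Finset (Fin 3)),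
      ∑ u ∈ Finset.range l, (if ⌊(x i - u) / l⌋ ≠ ⌊(y i - u) / l⌋ then (1:ℝ) else 0) ≤
        dist x y + 1 := by
    intro i _
    refine (geom_shift_coord l hl (x i) (y i)).trans ?_
    linarith [geom_coord_le_dist x y i]
  refine (Finset.sum_le_sum h2).trans ?_
  simp only [Finset.sum_const, Finset.card_univ, Fintype.card_fin, nsmul_eq_mul]
  push_cast
  linarith

open Classical in
/-- abstract version of the kernel bound -/
theorem geom_kernel_abstract {ι κ : Type*} [Fintype ι] [DecidableEq κ] (c : ι → κ)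
    (N : κ → κ → Prop) (hsymm : ∀ a b, N a b → N b a) (K : ℝ)
    (hK : ∀ a : κ, ∀ S : Finset κ, (∀ b ∈ S, N a b) → (S.card : ℝ) ≤ K) :
    ∑ i : ι, ∑ j : ι, (if N (c i) (c j) then (1:ℝ) else 0) ≤
      K * ∑ i : ι, ∑ j : ι, (if c i = c j then (1:ℝ) else 0) := by
  set S : Finset κ := Finset.univ.image c with hS
  set n : κ → ℝ := fun a => ((Finset.univ.filter fun i => c i = a).card : ℝ) with hn
  have hn0 : ∀ a, 0 ≤ n a := fun a => Nat.cast_nonneg _
  have hsum : ∀ f : κ → ℝ, ∑ i : ι, f (c i) = ∑ a ∈ S, n a * f a := by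
    intro f
    rw [Finset.sum_comp f c]
    refine Finset.sum_congr rfl fun a _ => ?_
    rw [nsmul_eq_mul]
  have h1 : ∑ i : ι, ∑ j : ι, (if N (c i) (c j) then (1:ℝ) else 0) =
      ∑ a ∈ S, ∑ b ∈ S, n a * n b * (if N a b then (1:ℝ) else 0) := by
    rw [hsum (fun a => ∑ j : ι, (if N a (c j) then (1:ℝ) else 0))]
    refine Finset.sum_congr rfl fun a _ => ?_
    rw [hsum (fun b => (if N a b then (1:ℝ) else 0)), Finset.mul_sum]
    exact Finset.sum_congr rfl fun b _ => by ring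
  have h2 : ∑ i : ι, ∑ j : ι, (if c i = c j then (1:ℝ) else 0) = ∑ a ∈ S, n a ^ 2 := by
    rw [hsum (fun a => ∑ j : ι, (if a = c j then (1:ℝ) else 0))]
    refine Finset.sum_congr rfl fun a ha => ?_
    rw [hsum (fun b => (if a = b then (1:ℝ) else 0))]
    simp [ha]; ring
  rw [h1, h2]
  have h3 : ∀ a ∈ S, ∀ b ∈ S, n a * n b * (if N a b then (1:ℝ) else 0) ≤
      (n a ^ 2 / 2) * (if N a b then (1:ℝ) else 0) +
        (n b ^ 2 / 2) * (if N b a then (1:ℝ) else 0) := by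
    intro a _ b _
    by_cases hN : N a b
    · rw [if_pos hN, if_pos (hsymm a b hN)]
      nlinarith [sq_nonneg (n a - n b)]
    · rw [if_neg hN, if_neg (fun h => hN (hsymm b a h))]; simp
  have h4 : ∀ a ∈ S, ∑ b ∈ S, (n a ^ 2 / 2) * (if N a b then (1:ℝ) else 0) ≤
      (n a ^ 2 / 2) * K := by
    intro a _
    rw [← Finset.mul_sum]
    refine mul_le_mul_of_nonneg_left ?_ (by positivity)
    rw [← Finset.sum_filter, Finset.sum_const, nsmul_eq_mul, mul_one]
    exact hK a _ (fun b hb => (Finset.mem_filter.1 hb).2)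
  calc ∑ a ∈ S, ∑ b ∈ S, n a * n b * (if N a b then (1:ℝ) else 0)
      ≤ ∑ a ∈ S, ∑ b ∈ S, ((n a ^ 2 / 2) * (if N a b then (1:ℝ) else 0) +
        (n b ^ 2 / 2) * (if N b a then (1:ℝ) else 0)) :=
        Finset.sum_le_sum fun a ha => Finset.sum_le_sum fun b hb => h3 a ha b hb
    _ = ∑ a ∈ S, ∑ b ∈ S, (n a ^ 2 / 2) * (if N a b then (1:ℝ) else 0) +
        ∑ a ∈ S, ∑ b ∈ S, (n b ^ 2 / 2) * (if N b a then (1:ℝ) else 0) := by
        rw [← Finset.sum_add_distrib]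
        exact Finset.sum_congr rfl fun a _ => Finset.sum_add_distrib
    _ = ∑ a ∈ S, ∑ b ∈ S, (n a ^ 2 / 2) * (if N a b then (1:ℝ) else 0) +
        ∑ b ∈ S, ∑ a ∈ S, (n b ^ 2 / 2) * (if N b a then (1:ℝ) else 0) := by
        congr 1; exact Finset.sum_comm
    _ ≤ ∑ a ∈ S, (n a ^ 2 / 2) * K + ∑ a ∈ S, (n a ^ 2 / 2) * K :=
        add_le_add (Finset.sum_le_sum h4) (Finset.sum_le_sum h4)
    _ = K * ∑ a ∈ S, n a ^ 2 := by
        rw [← Finset.sum_add_distrib, Finset.mul_sum]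
        exact Finset.sum_congr rfl fun a _ => by ring

theorem cell_kernel_bound {ι : Type*} [Fintype ι] (x : ι → E3) (l u R : ℝ) (hl : 0 < l)
    (hR : 0 ≤ R) :
    ∑ i, ∑ j, (if dist (x i) (x j) ≤ R then (1:ℝ) else 0) ≤
      (c3 * (R + 4 * l) ^ 3 / l ^ 3) *
        ∑ i, ∑ j, (if cell l u (x i) = cell l u (x j) then (1:ℝ) else 0) := by
  set N : (Fin 3 → ℤ) → (Fin 3 → ℤ) → Prop := fun a b =>
    ∃ p q : E3, cell l u p = a ∧ cell l u q = b ∧ dist p q ≤ R with hN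
  have hsymm : ∀ a b, N a b → N b a := by
    rintro a b ⟨p, q, hp, hq, hpq⟩
    exact ⟨q, p, hq, hp, by rwa [dist_comm]⟩
  have hK : ∀ a : Fin 3 → ℤ, ∀ S : Finset (Fin 3 → ℤ), (∀ b ∈ S, N a b) →
      (S.card : ℝ) ≤ c3 * (R + 4 * l) ^ 3 / l ^ 3 := by
    intro a S hS
    rcases S.eq_empty_or_nonempty with rfl | ⟨b0, hb0⟩
    · simp only [Finset.card_empty, Nat.cast_zero]
      have := c3_pos; positivity
    obtain ⟨p0, q0, hp0, -, -⟩ := hS b0 hb0
    refine geom_card_cells_le l u hl p0 (R + 4 * l) (by positivity) S ?_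
    intro b hb y hy
    obtain ⟨p, q, hp, hq, hpq⟩ := hS b hb
    rw [Metric.mem_closedBall]
    have h1 : dist p0 p ≤ (7 / 4) * l := geom_cell_dist l u hl p0 p (by rw [hp0, hp])
    have hy' : cell l u y = b := hy
    have h2 : dist y q ≤ (7 / 4) * l := geom_cell_dist l u hl y q (by rw [hy', hq])
    calc dist y p0 ≤ dist y q + dist q p + dist p p0 := dist_triangle4 _ _ _ _
      _ ≤ (7 / 4) * l + R + (7 / 4) * l := by
        rw [dist_comm q p, dist_comm p p0]; linarith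
      _ ≤ R + 4 * l := by linarith
  refine le_trans ?_ (geom_kernel_abstract (fun i => cell l u (x i)) N hsymm _ hK)
  refine Finset.sum_le_sum fun i _ => Finset.sum_le_sum fun j _ => ?_
  by_cases h : dist (x i) (x j) ≤ R
  · have h' : N (cell l u (x i)) (cell l u (x j)) := ⟨x i, x j, rfl, rfl, h⟩
    rw [if_pos h, if_pos h']
  · rw [if_neg h]; positivity

/-- the lattice point as a point of `E3` -/
theorem geom_lattice_inner (n : ℕ) (R : ℝ) (hR : 3 ≤ R) (k : Fin 3 → Fin n)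
    (hk : ∀ i, R - 1 ≤ ((k i : ℕ) : ℝ) ∧ ((k i : ℕ) : ℝ) ≤ n - R) :
    c3 * (R - 3) ^ 3 ≤ ∑ k' : Fin 3 → Fin n,
      (if dist (WithLp.toLp 2 (fun i => ((k i : ℕ) : ℝ)) : E3)
        (WithLp.toLp 2 (fun i => ((k' i : ℕ) : ℝ)) : E3) ≤ R - 1 then (1:ℝ) else 0) := by
  set p : E3 := WithLp.toLp 2 (fun i => ((k i : ℕ) : ℝ)) with hp
  rw [← Finset.sum_filter, Finset.sum_const, nsmul_eq_mul, mul_one]
  set T : Finset (Fin 3 → Fin n) := Finset.univ.filter fun k' =>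
    dist p (WithLp.toLp 2 (fun i => ((k' i : ℕ) : ℝ)) : E3) ≤ R - 1 with hT
  have hcov : Metric.closedBall p (R - 3) ⊆
      ⋃ k' ∈ T, {y : E3 | cell 1 0 y = fun i => ((k' i : ℕ) : ℤ)} := by
    intro y hy
    rw [Metric.mem_closedBall] at hy
    set z : E3 := WithLp.toLp 2 (fun i => ((⌊y i⌋ : ℤ) : ℝ)) with hz
    have hyz : dist y z ≤ (7 / 4) * 1 := by
      refine geom_dist_le y z 1 zero_le_one fun i => ?_
      have h1 := Int.floor_le (y i)
      have h2 := Int.lt_floor_add_one (y i)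
      have h3 : z i = ((⌊y i⌋ : ℤ) : ℝ) := rfl
      rw [h3, abs_le]; constructor <;> linarith
    have hpz : dist p z ≤ R - 1 := by
      calc dist p z ≤ dist p y + dist y z := dist_triangle _ _ _
        _ ≤ (R - 3) + (7 / 4) * 1 := by rw [dist_comm p y]; linarith
        _ ≤ R - 1 := by linarith
    have hcoord : ∀ i, (0:ℤ) ≤ ⌊y i⌋ ∧ ⌊y i⌋ < n := by
      intro i
      have h1 := geom_coord_le_dist p z i
      have h2 : p i = ((k i : ℕ) : ℝ) := rfl
      have h3 : z i = ((⌊y i⌋ : ℤ) : ℝ) := rfl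
      rw [h2, h3] at h1
      have h4 := abs_le.1 (h1.trans hpz)
      have h5 := hk i
      constructor
      · have : (0:ℝ) ≤ ((⌊y i⌋ : ℤ) : ℝ) := by linarith [h4.1, h4.2]
        exact_mod_cast this
      · have : ((⌊y i⌋ : ℤ) : ℝ) < n := by linarith [h4.1, h4.2]
        exact_mod_cast this
    set k' : Fin 3 → Fin n := fun i => ⟨(⌊y i⌋).toNat, by have := hcoord i; omega⟩ with hk'
    have hk'i : ∀ i, (((k' i : ℕ)) : ℤ) = ⌊y i⌋ := by
      intro i
      show (((⌊y i⌋).toNat : ℕ) : ℤ) = ⌊y i⌋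
      exact Int.toNat_of_nonneg (hcoord i).1
    have hk'z : (WithLp.toLp 2 (fun i => ((k' i : ℕ) : ℝ)) : E3) = z := by
      rw [hz]; congr 1; funext i
      have := hk'i i
      exact_mod_cast this
    simp only [Set.mem_iUnion]
    refine ⟨k', ?_, ?_⟩
    · rw [hT, Finset.mem_filter]
      refine ⟨Finset.mem_univ _, ?_⟩
      rw [hk'z]; exact hpz
    · show cell 1 0 y = fun i => ((k' i : ℕ) : ℤ)
      funext i
      rw [hk'i i]
      simp [cell]
  have h1 : volume (Metric.closedBall p (R - 3)) ≤ ENNReal.ofReal (T.card : ℝ) := by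
    refine (measure_mono hcov).trans ((measure_biUnion_finset_le _ _).trans ?_)
    have : ∀ k' ∈ T, volume {y : E3 | cell 1 0 y = fun i => ((k' i : ℕ) : ℤ)} = 1 := by
      intro k' _
      rw [geom_volume_cell 1 0 one_pos]; simp
    rw [Finset.sum_congr rfl this]
    simp
  rw [geom_volume_closedBall p (by linarith)] at h1
  exact (ENNReal.ofReal_le_ofReal_iff (Nat.cast_nonneg _)).1 h1

theorem geom_count_fin (n : ℕ) (R : ℝ) (hR : 3 ≤ R) (hn : 2 * R ≤ n) :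
    (n:ℝ) - 2 * R ≤ ((Finset.univ.filter fun j : Fin n =>
      R - 1 ≤ ((j : ℕ) : ℝ) ∧ ((j : ℕ) : ℝ) ≤ n - R).card : ℝ) := by
  set J := Finset.univ.filter fun j : Fin n =>
      R - 1 ≤ ((j : ℕ) : ℝ) ∧ ((j : ℕ) : ℝ) ≤ n - R with hJ
  set a := ⌈R - 1⌉₊ with ha
  set b := ⌊(n:ℝ) - R⌋₊ with hb
  have hsub : Finset.Icc a b ⊆ J.map Fin.valEmbedding := by
    intro m hm
    rw [Finset.mem_Icc] at hm
    have h1 : R - 1 ≤ (m:ℝ) := (Nat.le_ceil _).trans (by exact_mod_cast hm.1)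
    have h2 : (m:ℝ) ≤ n - R :=
      le_trans (by exact_mod_cast hm.2) (Nat.floor_le (by linarith))
    have h3 : m < n := by
      have : (m:ℝ) < n := by linarith
      exact_mod_cast this
    rw [Finset.mem_map]
    refine ⟨⟨m, h3⟩, ?_, rfl⟩
    rw [hJ, Finset.mem_filter]
    exact ⟨Finset.mem_univ _, h1, h2⟩
  have hcard := Finset.card_le_card hsub
  rw [Finset.card_map, Nat.card_Icc] at hcard
  have h1 : (a:ℝ) < R - 1 + 1 := Nat.ceil_lt_add_one (by linarith)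
  have h2 : (n:ℝ) - R < b + 1 := Nat.lt_floor_add_one _
  have h3 : (b:ℝ) + 1 - a ≤ (J.card : ℝ) := by
    have : b + 1 ≤ J.card + a := by omega
    have : (b:ℝ) + 1 ≤ J.card + a := by exact_mod_cast this
    linarith
  linarith

theorem lattice_pairs (n : ℕ) (R : ℝ) (hR : 3 ≤ R) (hn : 2 * R ≤ n) :
    c3 * (R - 3) ^ 3 * ((n:ℝ) - 2 * R) ^ 3 ≤
      ∑ k : Fin 3 → Fin n, ∑ k' : Fin 3 → Fin n,
        (if dist (WithLp.toLp 2 (fun i => ((k i : ℕ) : ℝ)) : E3)
          (WithLp.toLp 2 (fun i => ((k' i : ℕ) : ℝ)) : E3) ≤ R - 1 then (1:ℝ) else 0) := by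
  set J := Finset.univ.filter fun j : Fin n =>
      R - 1 ≤ ((j : ℕ) : ℝ) ∧ ((j : ℕ) : ℝ) ≤ n - R with hJ
  set I : Finset (Fin 3 → Fin n) := Fintype.piFinset fun _ => J with hI
  have hIcard : ((n:ℝ) - 2 * R) ^ 3 ≤ (I.card : ℝ) := by
    rw [hI, Fintype.card_piFinset]
    simp only [Finset.prod_const, Finset.card_univ, Fintype.card_fin]
    push_cast
    exact pow_le_pow_left₀ (by linarith) (geom_count_fin n R hR hn) 3
  have hc : 0 ≤ c3 * (R - 3) ^ 3 := by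
    have := c3_pos
    have h3 : 0 ≤ R - 3 := by linarith
    positivity
  calc c3 * (R - 3) ^ 3 * ((n:ℝ) - 2 * R) ^ 3 ≤ c3 * (R - 3) ^ 3 * (I.card : ℝ) :=
        mul_le_mul_of_nonneg_left hIcard hc
    _ = ∑ _k ∈ I, c3 * (R - 3) ^ 3 := by rw [Finset.sum_const, nsmul_eq_mul]; ring
    _ ≤ ∑ k ∈ I, ∑ k' : Fin 3 → Fin n,
        (if dist (WithLp.toLp 2 (fun i => ((k i : ℕ) : ℝ)) : E3)
          (WithLp.toLp 2 (fun i => ((k' i : ℕ) : ℝ)) : E3) ≤ R - 1 then (1:ℝ) else 0) := by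
        refine Finset.sum_le_sum fun k hk => geom_lattice_inner n R hR k fun i => ?_
        rw [hI, Fintype.mem_piFinset] at hk
        exact (Finset.mem_filter.1 (hk i)).2
    _ ≤ _ := by
        refine Finset.sum_le_sum_of_subset_of_nonneg (Finset.subset_univ _) fun k _ _ => ?_
        positivity

end Vale.Agent.P171
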