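import Vale.Agent.P171.Prod
import Vale.Agent.P171.Geom

open MeasureTheory Filter Topology
open scoped ENNReal

namespace Vale.Agent.P171

section basic

variable {ι : Type*} [Fintype ι]

theorem card_conf (x : ι → E3) : Multiset.card (conf x) = Fintype.card ι := by
  simp [conf]

theorem conf_map_sum (x : ι → E3) (f : E3 → ℝ) : ((conf x).map f).sum = ∑ i, f (x i) := by
  simp only [conf, Multiset.map_map]; rfl

theorem dbl_conf (k : E3 → E3 → ℝ) (x : ι → E3) :
    dbl k (conf x) = ∑ i, ∑ j, k (x i) (x j) := by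
  unfold dbl
  rw [conf_map_sum]
  exact Finset.sum_congr rfl fun i _ => conf_map_sum x _

open Classical in
theorem rst_conf_map_sum (A : Set E3) (x : ι → E3) (f : E3 → ℝ) :
    ((rst A (conf x)).map f).sum = ∑ i, if x i ∈ A then f (x i) else 0 := by
  have h : ∀ ω : Multiset E3, ((rst A ω).map f).sum =
      (ω.map (fun y => if y ∈ A then f y else 0)).sum := by
    intro ω
    induction ω using Multiset.induction_on with
    | empty => simp [rst]
    | cons a s ih =>
      unfold rst at ih ⊢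
      by_cases ha : a ∈ A
      · rw [Multiset.filter_cons_of_pos _ ha]
        simp only [Multiset.map_cons, Multiset.sum_cons, ha, if_true]
        rw [ih]
      · rw [Multiset.filter_cons_of_neg _ ha]
        simp only [Multiset.map_cons, Multiset.sum_cons, ha, if_false, zero_add]
        rw [ih]
  rw [h, conf_map_sum]

open Classical in
theorem dbl_rst_conf (k : E3 → E3 → ℝ) (A : Set E3) (x : ι → E3) :
    dbl k (rst A (conf x)) = ∑ i, ∑ j, if x i ∈ A ∧ x j ∈ A then k (x i) (x j) else 0 := by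
  unfold dbl
  rw [rst_conf_map_sum]
  refine Finset.sum_congr rfl fun i _ => ?_
  by_cases hi : x i ∈ A
  · rw [if_pos hi, rst_conf_map_sum]
    refine Finset.sum_congr rfl fun j _ => ?_
    simp [hi]
  · simp [hi]

open Classical in
theorem card_rst_conf (A : Set E3) (x : ι → E3) :
    (Multiset.card (rst A (conf x)) : ℝ) = ∑ i, if x i ∈ A then 1 else 0 := by
  rw [← rst_conf_map_sum A x (fun _ => 1)]
  simp

theorem W_conf (ν : ℝ) (k : E3 → E3 → ℝ) (x : ι → E3) :
    W ν k (conf x) = ENNReal.ofReal (Real.exp (ν * (Fintype.card ι : ℝ) +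
      (1 / 2) * ∑ i, ∑ j, k (x i) (x j))) := by
  unfold W
  rw [card_conf, dbl_conf]

theorem Meas_W (ν : ℝ) {k : E3 → E3 → ℝ} (hk : Measurable (fun p : E3 × E3 => k p.1 p.2)) :
    Meas (W ν k) := by
  intro N
  simp_rw [W_conf]
  refine ENNReal.measurable_ofReal.comp (Real.measurable_exp.comp ?_)
  refine Measurable.const_add ?_ _
  refine Measurable.const_mul ?_ _
  refine Finset.measurable_sum _ fun i _ => Finset.measurable_sum _ fun j _ => ?_
  have h2 : Measurable (fun x : Fin N → E3 => (x i, x j)) :=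
    (measurable_pi_apply i).prodMk (measurable_pi_apply j)
  exact hk.comp h2

open Classical in
/-- product of the weights over a family of cells containing all points -/
theorem prod_W_rst {C : Type*} (s : Finset C) (Λ : C → Set E3)
    (hd : ∀ c ∈ s, ∀ d ∈ s, c ≠ d → Disjoint (Λ c) (Λ d))
    (ν : ℝ) (k : E3 → E3 → ℝ) (x : ι → E3) (hx : ∀ i, x i ∈ ⋃ c ∈ s, Λ c) :
    ∏ c ∈ s, W ν k (rst (Λ c) (conf x)) = ENNReal.ofReal (Real.exp (ν * (Fintype.card ι : ℝ) +
      (1 / 2) * ∑ i, ∑ j, if ∃ c ∈ s, x i ∈ Λ c ∧ x j ∈ Λ c then k (x i) (x j) else 0)) := by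
  unfold W
  rw [← ENNReal.ofReal_prod_of_nonneg (fun _ _ => (Real.exp_pos _).le), ← Real.exp_sum]
  congr 2
  rw [Finset.sum_add_distrib, ← Finset.mul_sum, ← Finset.mul_sum]
  congr 2
  · simp_rw [card_rst_conf]
    rw [Finset.sum_comm]
    have : ∀ i, ∑ c ∈ s, (if x i ∈ Λ c then (1:ℝ) else 0) = 1 := by
      intro i
      obtain ⟨c, hc, hxc⟩ : ∃ c ∈ s, x i ∈ Λ c := by simpa using hx i
      rw [Finset.sum_eq_single c]
      · simp [hxc]
      · intro d hd' hdc
        rw [if_neg]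
        intro h
        exact Set.disjoint_left.1 (hd c hc d hd' (Ne.symm hdc)) hxc h
      · intro h; exact absurd hc h
    simp [this]
  · simp_rw [dbl_rst_conf]
    rw [Finset.sum_comm]
    refine Finset.sum_congr rfl fun i _ => ?_
    rw [Finset.sum_comm]
    refine Finset.sum_congr rfl fun j _ => ?_
    by_cases h : ∃ c ∈ s, x i ∈ Λ c ∧ x j ∈ Λ c
    · rw [if_pos h]
      obtain ⟨c, hc, h1, h2⟩ := h
      rw [Finset.sum_eq_single c]
      · simp [h1, h2]
      · intro d hd' hdc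
        rw [if_neg]
        intro h
        exact Set.disjoint_left.1 (hd c hc d hd' (Ne.symm hdc)) h1 h.1
      · intro h; exact absurd hc h
    · rw [if_neg h]
      refine Finset.sum_eq_zero fun c hc => ?_
      rw [if_neg]
      intro h'
      exact h ⟨c, hc, h'⟩

end basic

/-! ### the kernel `ker a` -/

theorem Rad_pos (j : ℕ) : 72 ≤ Rad j := by
  unfold Rad
  have : (0:ℝ) ≤ j := Nat.cast_nonneg j
  linarith

theorem vk_nonneg (j : ℕ) (x y : E3) : 0 ≤ vk j x y := by
  unfold vk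
  have h1 := c3_pos
  have h2 := Rad_pos j
  split_ifs
  · positivity
  · exact le_rfl

theorem vk_le (j : ℕ) (x y : E3) : vk j x y ≤ c3⁻¹ := by
  unfold vk
  have h1 := c3_pos
  have h2 := Rad_pos j
  split_ifs
  · rw [mul_inv]
    have h3 : (Rad j ^ 3)⁻¹ ≤ 1 := by
      apply inv_le_one_of_one_le₀
      have : (1:ℝ) ≤ Rad j := by linarith
      exact one_le_pow₀ this
    have h4 : 0 < c3⁻¹ := inv_pos.2 h1
    nlinarith
  · positivity

theorem vk_symm (j : ℕ) (x y : E3) : vk j x y = vk j y x := by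
  unfold vk; rw [dist_comm]

theorem summable_vk {a : ℕ → ℝ} (ha : Adm a) (x y : E3) : Summable fun j => a j * vk j x y := by
  refine Summable.of_nonneg_of_le (fun j => mul_nonneg (ha.nonneg j) (vk_nonneg j x y))
    (fun j => mul_le_mul_of_nonneg_left (vk_le j x y) (ha.nonneg j)) ?_
  exact ha.summable.mul_right _

theorem tsum_vk_nonneg {a : ℕ → ℝ} (ha : Adm a) (x y : E3) : 0 ≤ ∑' j, a j * vk j x y :=
  tsum_nonneg fun j => mul_nonneg (ha.nonneg j) (vk_nonneg j x y)

/-- radial profile of the attractive part -/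
noncomputable def prof (a : ℕ → ℝ) (r : ℝ) : ℝ :=
  ∑' j, a j * (if r ≤ Rad j then (c3 * Rad j ^ 3)⁻¹ else 0)

theorem prof_dist (a : ℕ → ℝ) (x y : E3) : prof a (dist x y) = ∑' j, a j * vk j x y := rfl

theorem prof_summable {a : ℕ → ℝ} (ha : Adm a) (r : ℝ) :
    Summable fun j => a j * (if r ≤ Rad j then (c3 * Rad j ^ 3)⁻¹ else 0) := by
  have h1 := c3_pos
  refine Summable.of_nonneg_of_le (fun j => mul_nonneg (ha.nonneg j) ?_)
    (fun j => mul_le_mul_of_nonneg_left (b := _) (c := c3⁻¹) ?_ (ha.nonneg j)) ?_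
  · have h2 := Rad_pos j
    split_ifs
    · positivity
    · exact le_rfl
  · have h2 := Rad_pos j
    split_ifs
    · rw [mul_inv]
      have h3 : (Rad j ^ 3)⁻¹ ≤ 1 := by
        apply inv_le_one_of_one_le₀
        have : (1:ℝ) ≤ Rad j := by linarith
        exact one_le_pow₀ this
      have h4 : 0 < c3⁻¹ := inv_pos.2 h1
      nlinarith
    · positivity
  · exact ha.summable.mul_right _

theorem prof_antitone {a : ℕ → ℝ} (ha : Adm a) : Antitone (prof a) := by
  intro r s hrs
  unfold prof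
  refine (prof_summable ha s).tsum_le_tsum (fun j => ?_) (prof_summable ha r)
  refine mul_le_mul_of_nonneg_left ?_ (ha.nonneg j)
  have h1 := c3_pos
  have h2 := Rad_pos j
  split_ifs with h3 h4 h5
  · exact le_rfl
  · exact absurd (le_trans hrs h3) h4
  · positivity
  · exact le_rfl

theorem measurable_ker {a : ℕ → ℝ} (ha : Adm a) :
    Measurable (fun p : E3 × E3 => ker a p.1 p.2) := by
  unfold ker
  have hd : Measurable (fun p : E3 × E3 => dist p.1 p.2) := measurable_dist
  refine Measurable.add ?_ ?_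
  · refine Measurable.neg ?_
    exact Measurable.ite (measurableSet_le hd measurable_const) measurable_const measurable_const
  · have : (fun p : E3 × E3 => ∑' j, a j * vk j p.1 p.2) =
        (prof a) ∘ (fun p : E3 × E3 => dist p.1 p.2) := by
      funext p; rfl
    rw [this]
    exact (prof_antitone ha).measurable.comp hd

section super

variable {ι : Type*} [Fintype ι]

/-- `∑ n_c²` over the small cells -/
noncomputable def Sq (x : ι → E3) : ℝ :=
  ∑ i, ∑ j, if cell (1/4) 0 (x i) = cell (1/4) 0 (x j) then (1:ℝ) else 0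

theorem Sq_nonneg (x : ι → E3) : 0 ≤ Sq x := by
  unfold Sq
  refine Finset.sum_nonneg fun i _ => Finset.sum_nonneg fun j _ => ?_
  split_ifs <;> norm_num

theorem sum_vk_le (j : ℕ) (x : ι → E3) : ∑ i, ∑ i', vk j (x i) (x i') ≤ 512 * Sq x := by
  have h1 := c3_pos
  have h2 := Rad_pos j
  have hb := cell_kernel_bound x (1/4) 0 (Rad j) (by norm_num) (by linarith)
  have h3 : ∑ i, ∑ i', vk j (x i) (x i') = (c3 * Rad j ^ 3)⁻¹ *
      ∑ i, ∑ i', (if dist (x i) (x i') ≤ Rad j then (1:ℝ) else 0) := by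
    rw [Finset.mul_sum]
    refine Finset.sum_congr rfl fun i _ => ?_
    rw [Finset.mul_sum]
    refine Finset.sum_congr rfl fun i' _ => ?_
    unfold vk
    split_ifs <;> simp
  rw [h3]
  have h4 : 0 < c3 * Rad j ^ 3 := by positivity
  have h5 : (c3 * Rad j ^ 3)⁻¹ * ((c3 * (Rad j + 4 * (1/4)) ^ 3 / (1/4) ^ 3)) ≤ 512 := by
    rw [inv_mul_le_iff₀ h4]
    have h6 : (Rad j + 4 * (1/4)) ≤ 2 * Rad j := by linarith
    have h7 : (Rad j + 4 * (1/4)) ^ 3 ≤ (2 * Rad j) ^ 3 := by
      apply pow_le_pow_left₀ (by linarith) h6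
    calc c3 * (Rad j + 4 * (1/4)) ^ 3 / (1/4) ^ 3 = 64 * (c3 * (Rad j + 4 * (1/4)) ^ 3) := by ring
      _ ≤ 64 * (c3 * (2 * Rad j) ^ 3) := by gcongr
      _ = c3 * Rad j ^ 3 * 512 := by ring
  calc (c3 * Rad j ^ 3)⁻¹ * ∑ i, ∑ i', (if dist (x i) (x i') ≤ Rad j then (1:ℝ) else 0)
      ≤ (c3 * Rad j ^ 3)⁻¹ * ((c3 * (Rad j + 4 * (1/4)) ^ 3 / (1/4) ^ 3) * Sq x) := by
        gcongr
        exact hb
    _ = ((c3 * Rad j ^ 3)⁻¹ * ((c3 * (Rad j + 4 * (1/4)) ^ 3 / (1/4) ^ 3))) * Sq x := by ring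
    _ ≤ 512 * Sq x := by
        gcongr
        exact Sq_nonneg x

theorem sum_tsum_vk {a : ℕ → ℝ} (ha : Adm a) (x : ι → E3) :
    ∑ i, ∑ i', ∑' j, a j * vk j (x i) (x i') = ∑' j, a j * ∑ i, ∑ i', vk j (x i) (x i') := by
  simp_rw [Finset.mul_sum]
  rw [Summable.tsum_finsetSum (fun i _ => summable_sum fun i' _ => summable_vk ha _ _)]
  refine Finset.sum_congr rfl fun i _ => ?_
  rw [Summable.tsum_finsetSum (fun i' _ => summable_vk ha _ _)]

theorem summable_sum_vk {a : ℕ → ℝ} (ha : Adm a) (x : ι → E3) :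
    Summable fun j => a j * ∑ i, ∑ i', vk j (x i) (x i') := by
  simp_rw [Finset.mul_sum]
  exact summable_sum fun i _ => summable_sum fun i' _ => summable_vk ha _ _

theorem sum_tsum_vk_le {a : ℕ → ℝ} (ha : Adm a) (x : ι → E3) :
    ∑ i, ∑ i', ∑' j, a j * vk j (x i) (x i') ≤ 512 * (∑' j, a j) * Sq x := by
  rw [sum_tsum_vk ha]
  calc ∑' j, a j * ∑ i, ∑ i', vk j (x i) (x i') ≤ ∑' j, a j * (512 * Sq x) := by
        refine (summable_sum_vk ha x).tsum_le_tsum (fun j => ?_) (ha.summable.mul_right _)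
        exact mul_le_mul_of_nonneg_left (sum_vk_le j x) (ha.nonneg j)
    _ = 512 * (∑' j, a j) * Sq x := by rw [tsum_mul_right]; ring

theorem Sq_le_core (x : ι → E3) :
    Hc * Sq x ≤ ∑ i, ∑ j, (if dist (x i) (x j) ≤ 1/2 then Hc else 0) := by
  unfold Sq
  rw [Finset.mul_sum]
  refine Finset.sum_le_sum fun i _ => ?_
  rw [Finset.mul_sum]
  refine Finset.sum_le_sum fun j _ => ?_
  have hH : (0:ℝ) < Hc := by unfold Hc; norm_num
  by_cases h : cell (1/4) 0 (x i) = cell (1/4) 0 (x j)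
  · rw [if_pos h, if_pos (dist_of_cell_small _ _ h)]; simp
  · rw [if_neg h]
    split_ifs
    · simp [hH.le]
    · simp

/-- superstability -/
theorem superstable {a : ℕ → ℝ} (ha : Adm a) (x : ι → E3) :
    (1/2) * ∑ i, ∑ j, ker a (x i) (x j) ≤ -2 * Sq x := by
  unfold ker
  simp_rw [Finset.sum_add_distrib, Finset.sum_neg_distrib]
  have h1 := Sq_le_core x
  have h2 := sum_tsum_vk_le ha x
  have h3 := Sq_nonneg x
  have h4 : 512 * (∑' j, a j) * Sq x ≤ 51200 * Sq x := by
    have := ha.le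
    nlinarith
  unfold Hc at h1 ⊢
  linarith

end super

end Vale.Agent.P171
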