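import Vale.Agent.P171.Avg

open MeasureTheory Filter Topology
open scoped ENNReal

namespace Vale.Agent.P171

/-! ### linearity of `Z` -/

theorem Z_finset_sum {κ : Type*} (s : Finset κ) {F : κ → Multiset E3 → ℝ≥0∞}
    (hF : ∀ c ∈ s, Meas (F c)) (Λ : Set E3) :
    Z (fun ω => ∑ c ∈ s, F c ω) Λ = ∑ c ∈ s, Z (F c) Λ := by
  unfold Z
  rw [← Summable.tsum_finsetSum (fun _ _ => ENNReal.summable)]
  refine tsum_congr fun N => ?_
  rw [← Finset.mul_sum]
  congr 1
  unfold In
  exact lintegral_finsetSum s fun c hc => hF c hc N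

theorem Z_const_mul (c : ℝ≥0∞) {F : Multiset E3 → ℝ≥0∞} (hF : Meas F) (Λ : Set E3) :
    Z (fun ω => c * F ω) Λ = c * Z F Λ := by
  unfold Z
  rw [← ENNReal.tsum_mul_left]
  refine tsum_congr fun N => ?_
  rw [mul_left_comm]
  congr 1
  unfold In
  exact lintegral_const_mul c (hF N)

theorem Z_tsum {F : ℕ → Multiset E3 → ℝ≥0∞} (hF : ∀ n, Meas (F n)) (Λ : Set E3) :
    Z (fun ω => ∑' n, F n ω) Λ = ∑' n, Z (F n) Λ := by
  unfold Z
  rw [ENNReal.tsum_comm]
  refine tsum_congr fun N => ?_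
  rw [ENNReal.tsum_mul_left]
  congr 1
  unfold In
  exact lintegral_tsum fun n => (hF n N).aemeasurable

theorem Z_add {F G : Multiset E3 → ℝ≥0∞} (hF : Meas F) (Λ : Set E3) :
    Z (fun ω => F ω + G ω) Λ = Z F Λ + Z G Λ := by
  unfold Z
  rw [← ENNReal.tsum_add]
  refine tsum_congr fun N => ?_
  rw [← mul_add]
  congr 1
  unfold In
  exact lintegral_add_left (hF N) _

theorem exp_avg_le (l : ℕ) (hl : 0 < l) (f : ℕ → ℝ) :
    Real.exp ((l:ℝ)⁻¹ * ∑ u ∈ Finset.range l, f u) ≤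
      (l:ℝ)⁻¹ * ∑ u ∈ Finset.range l, Real.exp (f u) := by
  have hl' : (l:ℝ) ≠ 0 := by exact_mod_cast hl.ne'
  have h := convexOn_exp.map_sum_le (t := Finset.range l) (w := fun _ => (l:ℝ)⁻¹) (p := f)
    (fun _ _ => by positivity) (by simp [hl']) (fun _ _ => Set.mem_univ _)
  simp only [smul_eq_mul, ← Finset.mul_sum] at h
  exact h

/-! ### measurability -/

theorem measurable_cell (l u : ℝ) : Measurable (cell l u) := by
  unfold cell
  refine measurable_pi_lambda _ fun i => ?_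
  refine Int.measurable_floor.comp ?_
  refine Measurable.div_const ?_ _
  refine Measurable.sub_const ?_ _
  exact (measurable_pi_apply i).comp measurable_ofLp3

theorem measurableSet_same (l u : ℝ) :
    MeasurableSet {p : E3 × E3 | cell l u p.1 = cell l u p.2} :=
  measurableSet_eq_fun ((measurable_cell l u).comp measurable_fst)
    ((measurable_cell l u).comp measurable_snd)

theorem measurable_sg : Measurable (fun p : E3 × E3 => sg p.1 p.2) := by
  unfold sg
  exact Measurable.ite (measurableSet_same _ _) measurable_const measurable_const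

theorem measurable_Kloc {a : ℕ → ℝ} (ha : Adm a) (δ c : ℝ) :
    Measurable (fun p : E3 × E3 => Kloc a δ c p.1 p.2) := by
  unfold Kloc
  exact ((measurable_ker ha).add (measurable_sg.const_mul _)).add_const _

theorem measurable_sameK {a : ℕ → ℝ} (ha : Adm a) (δ c l u : ℝ) :
    Measurable (fun p : E3 × E3 => (if cell l u p.1 = cell l u p.2 then
      Kloc a δ c p.1 p.2 else 0)) :=
  Measurable.ite (measurableSet_same _ _) (measurable_Kloc ha δ c) measurable_const

/-! ### translation invariance -/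

/-- integer vector -/
noncomputable def ivec (k : Fin 3 → ℤ) : E3 := WithLp.toLp 2 (fun i => ((k i : ℤ) : ℝ))

theorem cell_small_shift (k : Fin 3 → ℤ) (x : E3) :
    cell (1/4) 0 (x - ivec k) = fun i => cell (1/4) 0 x i - 4 * k i := by
  funext i
  unfold cell
  simp only [ivec, PiLp.sub_apply]
  have : (x i - (k i : ℝ) - 0) / (1/4) = (x i - 0) / (1/4) - ((4 * k i : ℤ) : ℝ) := by
    push_cast; ring
  rw [this, Int.floor_sub_intCast]

theorem sg_shift (k : Fin 3 → ℤ) (x y : E3) : sg (x - ivec k) (y - ivec k) = sg x y := by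
  unfold sg
  rw [cell_small_shift, cell_small_shift]
  have : ((fun i => cell (1/4) 0 x i - 4 * k i) = fun i => cell (1/4) 0 y i - 4 * k i) ↔
      cell (1/4) 0 x = cell (1/4) 0 y := by
    rw [funext_iff, funext_iff]
    exact forall_congr' fun i => by omega
  simp only [this]

theorem Kloc_shift (a : ℕ → ℝ) (δ c : ℝ) (k : Fin 3 → ℤ) (x y : E3) :
    Kloc a δ c (x - ivec k) (y - ivec k) = Kloc a δ c x y := by
  unfold Kloc
  rw [ker_shift, sg_shift]

theorem cube_shift (l u : ℕ) (hl : 0 < l) (c : Fin 3 → ℤ) :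
    cube (l:ℝ) (u:ℝ) c = shift (ivec fun i => u + l * c i) (cube (l:ℝ) 0 0) := by
  have hl' : (l:ℝ) ≠ 0 := by exact_mod_cast hl.ne'
  ext x
  simp only [cube, shift, Set.mem_ofPred_eq, Set.mem_preimage]
  rw [funext_iff, funext_iff]
  refine forall_congr' fun i => ?_
  unfold cell
  simp only [ivec, PiLp.sub_apply, Pi.zero_apply]
  have : (x i - (((u:ℤ) + (l:ℤ) * c i : ℤ) : ℝ) - 0) / (l:ℝ) = (x i - u) / l - ((c i : ℤ) : ℝ) := by
    push_cast
    field_simp
    ring
  rw [this, Int.floor_sub_intCast]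
  constructor <;> intro h <;> omega

theorem Z_Kloc_cube (ν : ℝ) (a : ℕ → ℝ) (δ c : ℝ) (l u : ℕ) (hl : 0 < l) (k : Fin 3 → ℤ) :
    Z (W ν (Kloc a δ c)) (cube (l:ℝ) (u:ℝ) k) = Z (W ν (Kloc a δ c)) (cube (l:ℝ) 0 0) := by
  rw [cube_shift l u hl]
  refine Z_shift _ _ fun N x => ?_
  rw [W_conf, W_conf]
  simp only [Kloc_shift]

/-! ### decoupling -/

theorem Xi_pert_le (ν : ℝ) {a : ℕ → ℝ} (ha : Adm a) (l : ℕ) (hl : 0 < l) (j₀ : ℕ) {t t' : ℝ}
    (ht : 0 ≤ t) (htt : t * (Rad j₀ + 4 * l) ^ 3 ≤ t' * Rad j₀ ^ 3) {L : ℝ} (hL : 0 ≤ L)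
    {B : ℝ} (hB : 0 ≤ B)
    (hZ : Z (W ν (Kloc a (del a l) (t' / l ^ 3))) (cube (l:ℝ) 0 0) ≤
      ENNReal.ofReal (Real.exp B)) :
    Xi ν (fun i => a i + if i = j₀ then t else 0) L ≤
      ENNReal.ofReal (Real.exp ((L / l + 2) ^ 3 * B)) := by
  classical
  have hl' : (0:ℝ) < l := by exact_mod_cast hl
  set K := Kloc a (del a l) (t' / l ^ 3) with hK
  set Ku : ℕ → E3 → E3 → ℝ := fun u p q =>
    if cell (l:ℝ) (u:ℝ) p = cell (l:ℝ) (u:ℝ) q then K p q else 0 with hKu
  have hKum : ∀ u, Meas (W ν (Ku u)) := fun u => Meas_W ν (measurable_sameK ha _ _ _ _)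
  -- pointwise bound
  have h1 : Xi ν (fun i => a i + if i = j₀ then t else 0) L ≤
      Z (fun ω => ∑ u ∈ Finset.range l, ENNReal.ofReal ((l:ℝ)⁻¹) * W ν (Ku u) ω) (box L) := by
    unfold Xi
    refine Z_mono (Set.Subset.refl _) (measurableSet_box L) fun N x _ => ?_
    simp only [W_conf, Fintype.card_fin]
    have h2 := exponent_le ha l hl j₀ ht htt x
    have h3 : ν * N + (1/2) * ∑ i, ∑ j, ker (fun i => a i + if i = j₀ then t else 0) (x i) (x j) ≤
        (l:ℝ)⁻¹ * ∑ u ∈ Finset.range l, (ν * N + (1/2) * ∑ i, ∑ j, Ku u (x i) (x j)) := by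
      rw [Finset.sum_add_distrib, Finset.sum_const, Finset.card_range, nsmul_eq_mul, mul_add,
        ← mul_assoc, inv_mul_cancel₀ hl'.ne', one_mul, ← Finset.mul_sum]
      simp only [hKu]
      linarith
    calc ENNReal.ofReal (Real.exp (ν * N + (1/2) * ∑ i, ∑ j,
            ker (fun i => a i + if i = j₀ then t else 0) (x i) (x j)))
        ≤ ENNReal.ofReal ((l:ℝ)⁻¹ * ∑ u ∈ Finset.range l,
            Real.exp (ν * N + (1/2) * ∑ i, ∑ j, Ku u (x i) (x j))) :=
          ENNReal.ofReal_le_ofReal ((Real.exp_le_exp.2 h3).trans (exp_avg_le l hl _))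
      _ = _ := by
          rw [Finset.mul_sum, ENNReal.ofReal_sum_of_nonneg
            (fun u _ => mul_nonneg (by positivity) (Real.exp_pos _).le)]
          refine Finset.sum_congr rfl fun u _ => ?_
          rw [ENNReal.ofReal_mul (by positivity)]
  refine h1.trans ?_
  rw [Z_finset_sum _ (fun u _ => fun N => (hKum u N).const_mul _)]
  simp_rw [Z_const_mul _ (hKum _)]
  -- bound for each shift
  have h2 : ∀ u ∈ Finset.range l, Z (W ν (Ku u)) (box L) ≤
      ENNReal.ofReal (Real.exp ((L / l + 2) ^ 3 * B)) := by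
    intro u _
    have hsub := box_subset hl' (u:ℝ) L
    calc Z (W ν (Ku u)) (box L)
        ≤ Z (fun ω => ∏ c ∈ idx l u L, W ν K (rst (cube l u c) ω))
          (⋃ c ∈ idx l u L, cube l u c) := by
          refine Z_mono hsub (measurableSet_box L) fun N x hx => ?_
          rw [prod_W_rst _ (cube (l:ℝ) (u:ℝ)) (fun c _ d _ h => cube_disjoint h) ν K x
            (fun i => hsub (hx i)), W_conf]
          apply ENNReal.ofReal_le_ofReal
          apply Real.exp_le_exp.2
          apply le_of_eq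
          congr 2
          refine Finset.sum_congr rfl fun i _ => Finset.sum_congr rfl fun j _ => ?_
          simp only [hKu]
          obtain ⟨c, hc, hxc⟩ : ∃ c ∈ idx l u L, x i ∈ cube l u c := by simpa using hsub (hx i)
          by_cases h : cell (l:ℝ) (u:ℝ) (x i) = cell (l:ℝ) (u:ℝ) (x j)
          · rw [if_pos h, if_pos ⟨c, hc, hxc, h.symm.trans hxc⟩]
          · rw [if_neg h, if_neg]
            rintro ⟨d, hd, h1, h2⟩
            exact h (h1.trans h2.symm)
      _ = ∏ c ∈ idx l u L, Z (W ν K) (cube l u c) :=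
          Z_prod _ _ (fun c _ => measurableSet_cube hl' _ _) (fun c _ d _ h => cube_disjoint h)
            (fun _ => W ν K) (fun _ _ => Meas_W ν (measurable_Kloc ha _ _))
      _ ≤ ∏ c ∈ idx l u L, ENNReal.ofReal (Real.exp B) := by
          refine Finset.prod_le_prod' fun c _ => ?_
          rw [hK, Z_Kloc_cube ν a _ _ l u hl c]
          exact hZ
      _ = ENNReal.ofReal (Real.exp ((idx l u L).card * B)) := by
          rw [Finset.prod_const, ← ENNReal.ofReal_pow (Real.exp_pos _).le, ← Real.exp_nat_mul]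
      _ ≤ _ := by
          apply ENNReal.ofReal_le_ofReal
          apply Real.exp_le_exp.2
          have := card_idx_le hl' (u:ℝ) hL
          gcongr
  calc ∑ u ∈ Finset.range l, ENNReal.ofReal ((l:ℝ)⁻¹) * Z (W ν (Ku u)) (box L)
      ≤ ∑ u ∈ Finset.range l, ENNReal.ofReal ((l:ℝ)⁻¹) *
        ENNReal.ofReal (Real.exp ((L / l + 2) ^ 3 * B)) := by
        refine Finset.sum_le_sum fun u hu => ?_
        gcongr
        exact h2 u hu
    _ = _ := by
        rw [Finset.sum_const, Finset.card_range, nsmul_eq_mul, ← mul_assoc,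
          ENNReal.ofReal_inv_of_pos hl', ENNReal.ofReal_natCast,
          ENNReal.mul_inv_cancel (by exact_mod_cast hl.ne') (ENNReal.natCast_ne_top l), one_mul]

theorem P_pert_le (ν : ℝ) {a : ℕ → ℝ} (ha : Adm a) (l : ℕ) (hl : 0 < l) (j₀ : ℕ) {t t' : ℝ}
    (ht : 0 ≤ t) (htt : t * (Rad j₀ + 4 * l) ^ 3 ≤ t' * Rad j₀ ^ 3)
    (hb : Adm (fun i => a i + if i = j₀ then t else 0))
    {B : ℝ} (hB : 0 ≤ B)
    (hZ : Z (W ν (Kloc a (del a l) (t' / l ^ 3))) (cube (l:ℝ) 0 0) ≤
      ENNReal.ofReal (Real.exp B)) :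
    P ν (fun i => a i + if i = j₀ then t else 0) ≤ ((l:ℝ) ^ 3)⁻¹ * B := by
  have hl' : (0:ℝ) < l := by exact_mod_cast hl
  have h1 := tendsto_P ν hb
  have h2 : Tendsto (fun L : ℝ => (L ^ 3)⁻¹ * ((L / l + 2) ^ 3 * B)) atTop
      (𝓝 (((l:ℝ) ^ 3)⁻¹ * B)) := by
    have h3 : Tendsto (fun L : ℝ => ((l:ℝ)⁻¹ + 2 * L⁻¹) ^ 3 * B) atTop
        (𝓝 (((l:ℝ)⁻¹ + 2 * 0) ^ 3 * B)) :=
      ((tendsto_const_nhds.add (tendsto_inv_atTop_zero.const_mul 2)).pow 3).mul_const B
    rw [mul_zero, add_zero, inv_pow] at h3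
    refine h3.congr' ?_
    filter_upwards [eventually_gt_atTop 0] with L hL
    field_simp
  refine le_of_tendsto_of_tendsto h1 h2 ?_
  filter_upwards [eventually_gt_atTop 0] with L hL
  have h4 := log_XiR_le ν hb (Xi_pert_le ν ha l hl j₀ ht htt hL.le hB hZ)
  gcongr

end Vale.Agent.P171
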