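import Vale.Agent.P171.LP

open MeasureTheory Filter Topology
open scoped ENNReal

namespace Vale.Agent.P171

theorem dbl_Kloc {ι : Type*} [Fintype ι] (a : ℕ → ℝ) (δ c : ℝ) (x : ι → E3) :
    (1/2) * ∑ i, ∑ j, Kloc a δ c (x i) (x j) =
      (1/2) * ∑ i, ∑ j, ker a (x i) (x j) + δ * Sq x +
        (1/2) * ((Fintype.card ι : ℝ) * ((Fintype.card ι : ℝ) * c)) := by
  unfold Kloc
  simp only [Finset.sum_add_distrib, ← Finset.mul_sum, sum_sg, Finset.sum_const,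
    Finset.card_univ, nsmul_eq_mul]
  ring

theorem cube_subset_small (l : ℕ) (h0 : 0 < l) :
    cube (l:ℝ) 0 0 ⊆ ⋃ c ∈ (Fintype.piFinset fun _ : Fin 3 => Finset.Ico (0:ℤ) (4 * l)),
      cube (1/4) 0 c := by
  intro x hx
  simp only [Set.mem_iUnion, Fintype.mem_piFinset, Finset.mem_Ico]
  refine ⟨cell (1/4) 0 x, fun i => ?_, rfl⟩
  have hi : ⌊(x i - 0) / (l:ℝ)⌋ = 0 := congrFun hx i
  have hl : (0:ℝ) < l := by exact_mod_cast h0
  rw [Int.floor_eq_zero_iff, Set.mem_Ico, le_div_iff₀ hl, div_lt_one hl] at hi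
  unfold cell
  constructor
  · apply Int.floor_nonneg.2
    have := hi.1
    rw [zero_mul] at this
    positivity
  · apply Int.floor_lt.2
    push_cast
    rw [div_lt_iff₀ (by norm_num)]
    linarith [hi.2]

theorem Z_Kloc_zero_le (ν : ℝ) {a : ℕ → ℝ} (ha : Adm a) (l : ℕ) (hl : 0 < l) {δ : ℝ}
    (hδ0 : 0 ≤ δ) (hδ1 : δ ≤ 1) :
    Z (W ν (Kloc a δ 0)) (cube (l:ℝ) 0 0) ≤
      ENNReal.ofReal (2 * Real.exp (δ * ((1 + 16 * ν ^ 2) * l ^ 3) + (l + 1) ^ 3 * P ν a)) := by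
  have hl' : (0:ℝ) < l := by exact_mod_cast hl
  set K' : ℝ := (1 + 16 * ν ^ 2) * l ^ 3 with hK'
  have hm := measurableSet_cube hl' 0 0
  have h1 : Z (W ν (Kloc a δ 0)) (cube (l:ℝ) 0 0) ≤
      Z (fun ω => ENNReal.ofReal (Real.exp (δ * K')) *
        (W ν (ker a) ω + ENNReal.ofReal (Real.exp (-K')) * W ν (Kloc a 1 0) ω))
        (cube (l:ℝ) 0 0) := by
    refine Z_mono (Set.Subset.refl _) hm fun N x _ => ?_
    simp only [W_conf, dbl_Kloc, Fintype.card_fin]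
    rw [← ENNReal.ofReal_mul (Real.exp_pos _).le,
      ← ENNReal.ofReal_add (Real.exp_pos _).le (mul_pos (Real.exp_pos _) (Real.exp_pos _)).le,
      ← ENNReal.ofReal_mul (Real.exp_pos _).le]
    apply ENNReal.ofReal_le_ofReal
    set E := ν * (N:ℝ) + (1/2) * ∑ i, ∑ j, ker a (x i) (x j) with hE
    have e1 : ν * (N:ℝ) + ((1/2) * ∑ i, ∑ j, ker a (x i) (x j) + δ * Sq x +
        (1/2) * ((N:ℝ) * ((N:ℝ) * 0))) = E + δ * Sq x := by rw [hE]; ring
    have e2 : ν * (N:ℝ) + ((1/2) * ∑ i, ∑ j, ker a (x i) (x j) + 1 * Sq x +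
        (1/2) * ((N:ℝ) * ((N:ℝ) * 0))) = E + Sq x := by rw [hE]; ring
    rw [e1, e2, mul_add, ← Real.exp_add, ← Real.exp_add, ← Real.exp_add]
    rcases le_total (Sq x) K' with h | h
    · have : Real.exp (E + δ * Sq x) ≤ Real.exp (δ * K' + E) := by
        apply Real.exp_le_exp.2
        nlinarith
      have h2 := Real.exp_pos (δ * K' + (-K' + (E + Sq x)))
      linarith
    · have : Real.exp (E + δ * Sq x) ≤ Real.exp (δ * K' + (-K' + (E + Sq x))) := by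
        apply Real.exp_le_exp.2
        nlinarith
      have h2 := Real.exp_pos (δ * K' + E)
      linarith
  refine h1.trans ?_
  have hM1 : Meas (W ν (ker a)) := Meas_W ν (measurable_ker ha)
  have hM2 : Meas (W ν (Kloc a 1 0)) := Meas_W ν (measurable_Kloc ha _ _)
  rw [Z_const_mul _ (fun N => (hM1 N).add ((hM2 N).const_mul _)), Z_add hM1, Z_const_mul _ hM2]
  have h2 : Z (W ν (ker a)) (cube (l:ℝ) 0 0) ≤ Xi ν a l := by
    unfold Xi
    refine Z_mono ?_ hm fun N x _ => le_rfl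
    intro x hx i
    have hi : ⌊(x i - 0) / (l:ℝ)⌋ = 0 := congrFun hx i
    rw [Int.floor_eq_zero_iff, Set.mem_Ico, le_div_iff₀ hl', div_lt_one hl'] at hi
    constructor
    · linarith [hi.1]
    · linarith [hi.2]
  have h3 : Z (W ν (Kloc a 1 0)) (cube (l:ℝ) 0 0) ≤ ENNReal.ofReal (Real.exp K') := by
    refine (Z_le_cells ν _ hm (cube_subset_small l hl) fun N x _ => ?_).trans ?_
    · rw [W_conf, dbl_Kloc, Fintype.card_fin]
      apply ENNReal.ofReal_le_ofReal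
      apply Real.exp_le_exp.2
      have := superstable ha x
      linarith
    · apply ENNReal.ofReal_le_ofReal
      apply Real.exp_le_exp.2
      rw [Fintype.card_piFinset]
      simp only [Int.card_Ico, Finset.prod_const, Finset.card_univ, Fintype.card_fin]
      have : (((4 * (l:ℤ) - 0).toNat : ℕ) : ℝ) = 4 * l := by
        have h5 : (4 * (l:ℤ) - 0).toNat = 4 * l := by omega
        rw [h5]; push_cast; ring
      push_cast
      rw [this, hK']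
      apply le_of_eq
      ring
  have h4 := Xi_le_P ν ha hl'.le
  calc ENNReal.ofReal (Real.exp (δ * K')) * (Z (W ν (ker a)) (cube (l:ℝ) 0 0) +
        ENNReal.ofReal (Real.exp (-K')) * Z (W ν (Kloc a 1 0)) (cube (l:ℝ) 0 0))
      ≤ ENNReal.ofReal (Real.exp (δ * K')) *
        (ENNReal.ofReal (Real.exp ((l + 1) ^ 3 * P ν a)) +
        ENNReal.ofReal (Real.exp (-K')) * ENNReal.ofReal (Real.exp K')) := by
        gcongr
        exact h2.trans h4
    _ ≤ ENNReal.ofReal (2 * Real.exp (δ * K' + (l + 1) ^ 3 * P ν a)) := by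
        rw [← ENNReal.ofReal_mul (Real.exp_pos _).le, ← Real.exp_add, neg_add_cancel,
          Real.exp_zero, ← ENNReal.ofReal_add (Real.exp_pos _).le zero_le_one,
          ← ENNReal.ofReal_mul (Real.exp_pos _).le]
        apply ENNReal.ofReal_le_ofReal
        rw [Real.exp_add]
        have h5 : 1 ≤ Real.exp ((l + 1) ^ 3 * P ν a) := by
          apply Real.one_le_exp
          have := P_nonneg ν ha
          positivity
        have h6 := Real.exp_pos (δ * K')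
        nlinarith

theorem tsum_gauss_le {α : ℝ} (hα : 0 < α) :
    ∑' k : ℕ, ENNReal.ofReal (Real.exp (-(α * k ^ 2))) ≤ ENNReal.ofReal ((1 + α) / α) := by
  have h1 : ∀ k : ℕ, ENNReal.ofReal (Real.exp (-(α * k ^ 2))) ≤
      ENNReal.ofReal (Real.exp (-α) ^ k) := by
    intro k
    apply ENNReal.ofReal_le_ofReal
    rw [← Real.exp_nat_mul]
    apply Real.exp_le_exp.2
    have h2 : (k:ℝ) ≤ (k:ℝ) ^ 2 := by
      rcases Nat.eq_zero_or_pos k with h | h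
      · subst h; simp
      · have : (1:ℝ) ≤ k := by exact_mod_cast h
        nlinarith
    nlinarith
  have hr1 : Real.exp (-α) < 1 := by
    rw [Real.exp_lt_one_iff]; linarith
  have hr0 : 0 ≤ Real.exp (-α) := (Real.exp_pos _).le
  calc ∑' k : ℕ, ENNReal.ofReal (Real.exp (-(α * k ^ 2)))
      ≤ ∑' k : ℕ, ENNReal.ofReal (Real.exp (-α) ^ k) := ENNReal.tsum_le_tsum h1
    _ = ENNReal.ofReal (∑' k : ℕ, Real.exp (-α) ^ k) := by
        rw [ENNReal.ofReal_tsum_of_nonneg (fun k => pow_nonneg hr0 k)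
          (summable_geometric_of_lt_one hr0 hr1)]
    _ ≤ _ := by
        apply ENNReal.ofReal_le_ofReal
        rw [tsum_geometric_of_lt_one hr0 hr1, inv_eq_one_div, div_le_div_iff₀ (by linarith) hα]
        have h3 : Real.exp (-α) * (1 + α) ≤ 1 := by
          have h4 : 1 + α ≤ Real.exp α := by
            have := Real.add_one_le_exp α
            linarith
          calc Real.exp (-α) * (1 + α) ≤ Real.exp (-α) * Real.exp α := by gcongr
            _ = 1 := by rw [← Real.exp_add]; simp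
        nlinarith

theorem Z_Kloc_le (ν : ℝ) {a : ℕ → ℝ} (ha : Adm a) (l : ℕ) (hl : 0 < l) {δ t' t1 τ ε : ℝ}
    (hδ0 : 0 ≤ δ) (hδ1 : δ ≤ 1) (ht' : 0 < t') (ht1 : t' < t1)
    (hyp : ∀ m, P (ν + m) a ≤ P ν a + τ + m ^ 2 / (2 * t1))
    (hd1 : 32 * (δ + 7 / l) ≤ (1 / (2 * t') - 1 / (2 * t1)) / 2)
    (hd2 : (δ + 7 / l) * (1 + 32 * ν ^ 2) ≤ ε / 2) :
    Z (W ν (Kloc a δ (t' / l ^ 3))) (cube (l:ℝ) 0 0) ≤
      ENNReal.ofReal (Real.exp ((l:ℝ) ^ 3 * (P ν a + τ + ε / 2) +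
        Real.log (2 + 4 * (l:ℝ) ^ 3 / ((1 / (2 * t') - 1 / (2 * t1)) * t' ^ 2)))) := by
  have hl' : (0:ℝ) < l := by exact_mod_cast hl
  have hl1 : (1:ℝ) ≤ l := by exact_mod_cast hl
  set θ : ℝ := 1 / (2 * t') - 1 / (2 * t1) with hθ
  have hθ0 : 0 < θ := by
    rw [hθ, sub_pos]
    apply one_div_lt_one_div_of_lt <;> linarith
  set mk : ℕ → ℝ := fun k => t' * k / l ^ 3 with hmk
  have h1 : Z (W ν (Kloc a δ (t' / l ^ 3))) (cube (l:ℝ) 0 0) ≤
      Z (fun ω => ∑' k : ℕ, ENNReal.ofReal (Real.exp (-(mk k ^ 2 * l ^ 3 / (2 * t')))) *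
        W (ν + mk k) (Kloc a δ 0) ω) (cube (l:ℝ) 0 0) := by
    refine Z_mono (Set.Subset.refl _) (measurableSet_cube hl' 0 0) fun N x _ => ?_
    refine le_trans ?_ (ENNReal.le_tsum N)
    rw [W_conf, W_conf, dbl_Kloc, dbl_Kloc, Fintype.card_fin, ← ENNReal.ofReal_mul
      (Real.exp_pos _).le, ← Real.exp_add]
    apply ENNReal.ofReal_le_ofReal
    apply Real.exp_le_exp.2
    apply le_of_eq
    simp only [hmk]
    field_simp
    ring
  refine h1.trans ?_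
  have hM : ∀ k, Meas (W (ν + mk k) (Kloc a δ 0)) := fun k =>
    Meas_W _ (measurable_Kloc ha _ _)
  rw [Z_tsum (fun k => fun N => (hM k N).const_mul _)]
  simp_rw [Z_const_mul _ (hM _)]
  set C : ℝ := P ν a + τ + ε / 2 with hC
  set α : ℝ := θ * t' ^ 2 / (2 * l ^ 3) with hα
  have hα0 : 0 < α := by positivity
  have h2 : ∀ k : ℕ, ENNReal.ofReal (Real.exp (-(mk k ^ 2 * l ^ 3 / (2 * t')))) *
      Z (W (ν + mk k) (Kloc a δ 0)) (cube (l:ℝ) 0 0) ≤
      ENNReal.ofReal (2 * Real.exp ((l:ℝ) ^ 3 * C)) *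
        ENNReal.ofReal (Real.exp (-(α * k ^ 2))) := by
    intro k
    refine (mul_le_mul_right (Z_Kloc_zero_le (ν + mk k) ha l hl hδ0 hδ1) _).trans ?_
    rw [← ENNReal.ofReal_mul (Real.exp_pos _).le, ← ENNReal.ofReal_mul (by positivity)]
    apply ENNReal.ofReal_le_ofReal
    rw [mul_left_comm, mul_assoc, ← Real.exp_add, ← Real.exp_add]
    have hq : α * (k:ℝ) ^ 2 = θ / 2 * (mk k ^ 2 * l ^ 3) := by
      simp only [hα, hmk]
      field_simp
    rw [hq]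
    set m := mk k
    have h3 := hyp m
    have h4 := P_le (ν + m) ha
    have h5 : (ν + m) ^ 2 ≤ 2 * ν ^ 2 + 2 * m ^ 2 := by nlinarith [sq_nonneg (ν - m)]
    have h6 : ((l:ℝ) + 1) ^ 3 ≤ (l:ℝ) ^ 3 + 7 * (l:ℝ) ^ 2 := by nlinarith
    have h7 : 0 ≤ P (ν + m) a := P_nonneg _ ha
    have hd0 : 0 ≤ δ + 7 / l := by positivity
    have h8 : ((l:ℝ) + 1) ^ 3 * P (ν + m) a ≤
        (l:ℝ) ^ 3 * (P ν a + τ + m ^ 2 / (2 * t1)) + 7 * (l:ℝ) ^ 2 * (1 + 16 * (ν + m) ^ 2) := by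
      calc ((l:ℝ) + 1) ^ 3 * P (ν + m) a ≤ ((l:ℝ) ^ 3 + 7 * (l:ℝ) ^ 2) * P (ν + m) a := by
            gcongr
        _ = (l:ℝ) ^ 3 * P (ν + m) a + 7 * (l:ℝ) ^ 2 * P (ν + m) a := by ring
        _ ≤ _ := by gcongr
    have h9 : δ * ((1 + 16 * (ν + m) ^ 2) * (l:ℝ) ^ 3) +
        7 * (l:ℝ) ^ 2 * (1 + 16 * (ν + m) ^ 2) =
        (l:ℝ) ^ 3 * ((δ + 7 / l) * (1 + 16 * (ν + m) ^ 2)) := by
      field_simp
    have h10 : (δ + 7 / l) * (1 + 16 * (ν + m) ^ 2) ≤ ε / 2 + θ / 2 * m ^ 2 := by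
      calc (δ + 7 / l) * (1 + 16 * (ν + m) ^ 2)
          ≤ (δ + 7 / l) * (1 + 16 * (2 * ν ^ 2 + 2 * m ^ 2)) := by gcongr
        _ = (δ + 7 / l) * (1 + 32 * ν ^ 2) + 32 * (δ + 7 / l) * m ^ 2 := by ring
        _ ≤ ε / 2 + θ / 2 * m ^ 2 := by gcongr
    have h11 : (l:ℝ) ^ 3 * ((δ + 7 / l) * (1 + 16 * (ν + m) ^ 2)) ≤
        (l:ℝ) ^ 3 * (ε / 2 + θ / 2 * m ^ 2) := by gcongr
    have h12 : -(m ^ 2 * (l:ℝ) ^ 3 / (2 * t')) + (l:ℝ) ^ 3 * (m ^ 2 / (2 * t1)) =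
        -(θ * (m ^ 2 * (l:ℝ) ^ 3)) := by
      rw [hθ]
      ring
    gcongr 2 * Real.exp ?_
    rw [hC]
    nlinarith [h8, h9, h11, h12]
  calc ∑' k : ℕ, ENNReal.ofReal (Real.exp (-(mk k ^ 2 * l ^ 3 / (2 * t')))) *
        Z (W (ν + mk k) (Kloc a δ 0)) (cube (l:ℝ) 0 0)
      ≤ ∑' k : ℕ, ENNReal.ofReal (2 * Real.exp ((l:ℝ) ^ 3 * C)) *
        ENNReal.ofReal (Real.exp (-(α * k ^ 2))) := ENNReal.tsum_le_tsum h2
    _ = ENNReal.ofReal (2 * Real.exp ((l:ℝ) ^ 3 * C)) *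
        ∑' k : ℕ, ENNReal.ofReal (Real.exp (-(α * k ^ 2))) := ENNReal.tsum_mul_left
    _ ≤ ENNReal.ofReal (2 * Real.exp ((l:ℝ) ^ 3 * C)) * ENNReal.ofReal ((1 + α) / α) := by
        gcongr
        exact tsum_gauss_le hα0
    _ = _ := by
        rw [← ENNReal.ofReal_mul (by positivity)]
        congr 1
        rw [Real.exp_add, Real.exp_log (by positivity)]
        simp only [hα]
        field_simp
        ring

theorem tendsto_log_cube (c : ℝ) (hc : 0 ≤ c) :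
    Tendsto (fun l : ℕ => ((l:ℝ) ^ 3)⁻¹ * Real.log (2 + c * (l:ℝ) ^ 3)) atTop (𝓝 0) := by
  have h1 : Tendsto (fun l : ℕ => ((l:ℝ) ^ 3)⁻¹ * (2 * ((2 + c) * (l:ℝ) ^ 3) ^ ((1:ℝ)/2))) atTop
      (𝓝 0) := by
    have h2 : Tendsto (fun l : ℕ => (2 * (2 + c) ^ ((1:ℝ)/2)) * ((l:ℝ) ^ (-(3:ℝ)/2))) atTop
        (𝓝 ((2 * (2 + c) ^ ((1:ℝ)/2)) * 0)) := by
      refine Tendsto.const_mul _ ?_
      have := (tendsto_rpow_neg_atTop (y := (3:ℝ)/2) (by norm_num)).comp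
        (tendsto_natCast_atTop_atTop (R := ℝ))
      refine this.congr fun l => ?_
      simp only [Function.comp_apply]
      congr 1
      ring
    rw [mul_zero] at h2
    refine h2.congr' ?_
    filter_upwards [eventually_gt_atTop 0] with l hl
    have hl' : (0:ℝ) < l := by exact_mod_cast hl
    rw [Real.mul_rpow (by positivity) (by positivity)]
    have e1 : ((l:ℝ) ^ 3) ^ ((1:ℝ)/2) = (l:ℝ) ^ ((3:ℝ)/2) := by
      rw [← Real.rpow_natCast, ← Real.rpow_mul hl'.le]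
      congr 1
      norm_num
    have e2 : ((l:ℝ) ^ 3)⁻¹ = (l:ℝ) ^ (-(3:ℝ)) := by
      rw [Real.rpow_neg hl'.le]
      congr 1
      exact_mod_cast (Real.rpow_natCast (l:ℝ) 3).symm
    rw [e1, e2]
    calc 2 * (2 + c) ^ ((1:ℝ)/2) * (l:ℝ) ^ (-(3:ℝ)/2)
        = 2 * (2 + c) ^ ((1:ℝ)/2) * ((l:ℝ) ^ (-(3:ℝ)) * (l:ℝ) ^ ((3:ℝ)/2)) := by
          rw [← Real.rpow_add hl']; norm_num
      _ = _ := by ring
  refine squeeze_zero' ?_ ?_ h1
  · filter_upwards with l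
    have : 0 ≤ Real.log (2 + c * (l:ℝ) ^ 3) := by
      apply Real.log_nonneg
      have : 0 ≤ c * (l:ℝ) ^ 3 := by positivity
      linarith
    positivity
  · filter_upwards [eventually_gt_atTop 0] with l hl
    have hl1 : (1:ℝ) ≤ l := by exact_mod_cast hl
    have h3 : (1:ℝ) ≤ (l:ℝ) ^ 3 := one_le_pow₀ hl1
    gcongr
    have h4 : 2 + c * (l:ℝ) ^ 3 ≤ (2 + c) * (l:ℝ) ^ 3 := by nlinarith
    have h5 : 0 < 2 + c * (l:ℝ) ^ 3 := by positivity
    refine (Real.log_le_log h5 h4).trans ?_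
    refine (Real.log_le_rpow_div (by positivity) (ε := 1/2) (by norm_num)).trans ?_
    apply le_of_eq
    ring

theorem adm_add {a : ℕ → ℝ} (ha : Adm a) {t : ℝ} (ht : 0 ≤ t) (hs : ∑' j, a j + t ≤ 100)
    (j : ℕ) : Adm (fun i => a i + if i = j then t else 0) := by
  refine ⟨fun i => ?_, ha.summable.add (hasSum_ite_eq j t).summable, ?_⟩
  · have := ha.nonneg i
    split_ifs <;> linarith
  · rw [ha.summable.tsum_add (hasSum_ite_eq j t).summable, tsum_ite_eq]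
    exact hs

/-- the Lebowitz-Penrose upper bound -/
theorem lp_upper (ν : ℝ) (a : ℕ → ℝ) (t t1 τ ε : ℝ) (ha : Adm a) (ht : 0 < t) (htt : t < t1)
    (hτ : 0 ≤ τ) (hsum : ∑' j, a j + t ≤ 100) (hε : 0 < ε)
    (hyp : ∀ m, P (ν + m) a ≤ P ν a + τ + m ^ 2 / (2 * t1)) :
    ∃ j : ℕ, P ν (fun i => a i + if i = j then t else 0) ≤ P ν a + τ + ε := by
  set t' : ℝ := (t + t1) / 2 with ht'
  have ht'1 : t < t' := by rw [ht']; linarith
  have ht'2 : t' < t1 := by rw [ht']; linarith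
  have ht'0 : 0 < t' := ht.trans ht'1
  set θ : ℝ := 1 / (2 * t') - 1 / (2 * t1) with hθ
  have hθ0 : 0 < θ := by
    rw [hθ, sub_pos]
    apply one_div_lt_one_div_of_lt <;> linarith
  -- choose l
  have hd : Tendsto (fun l : ℕ => del a l + 7 / (l:ℝ)) atTop (𝓝 0) := by
    have := (tendsto_del ha).add (tendsto_const_div_atTop_nhds_zero_nat (7:ℝ))
    rwa [add_zero] at this
  have hlog := tendsto_log_cube (4 / (θ * t' ^ 2)) (by positivity)
  have e1 : ∀ᶠ l : ℕ in atTop, del a l + 7 / (l:ℝ) < min 1 (min (θ / 64)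
      (ε / (2 * (1 + 32 * ν ^ 2)))) :=
    (tendsto_order.1 hd).2 _ (by positivity)
  have e2 : ∀ᶠ l : ℕ in atTop, ((l:ℝ) ^ 3)⁻¹ * Real.log (2 + 4 / (θ * t' ^ 2) * (l:ℝ) ^ 3) < ε / 2 :=
    (tendsto_order.1 hlog).2 _ (by positivity)
  obtain ⟨l, h1, h2, hl⟩ := (e1.and (e2.and (eventually_gt_atTop 0))).exists
  have hl' : (0:ℝ) < l := by exact_mod_cast hl
  have h7 : 0 < 7 / (l:ℝ) := by positivity
  have h1a := h1.trans_le (min_le_left _ _)
  have h1b := h1.trans_le ((min_le_right _ _).trans (min_le_left _ _))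
  have h1c := h1.trans_le ((min_le_right _ _).trans (min_le_right _ _))
  rw [lt_div_iff₀ (by positivity)] at h1c
  -- choose j
  have hj : Tendsto (fun j : ℕ => ((Rad j + 4 * l) / Rad j) ^ 3 * t) atTop (𝓝 (1 ^ 3 * t)) := by
    refine Tendsto.mul_const _ (Tendsto.pow ?_ 3)
    have h3 : Tendsto (fun j : ℕ => Rad j) atTop atTop := by
      unfold Rad
      exact tendsto_atTop_add_const_left _ _ tendsto_natCast_atTop_atTop
    have h4 : Tendsto (fun j : ℕ => 1 + 4 * l * (Rad j)⁻¹) atTop (𝓝 (1 + 4 * l * 0)) :=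
      tendsto_const_nhds.add ((tendsto_inv_atTop_zero.comp h3).const_mul _)
    rw [mul_zero, add_zero] at h4
    refine h4.congr fun j => ?_
    have := Rad_pos j
    have : Rad j ≠ 0 := by linarith
    field_simp
  rw [one_pow, one_mul] at hj
  obtain ⟨j, h3⟩ := ((tendsto_order.1 hj).2 t' ht'1).exists
  refine ⟨j, ?_⟩
  have hR := Rad_pos j
  have hR0 : 0 < Rad j ^ 3 := by positivity
  have htt' : t * (Rad j + 4 * l) ^ 3 ≤ t' * Rad j ^ 3 := by
    rw [div_pow, div_mul_eq_mul_div, div_lt_iff₀ hR0] at h3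
    linarith
  have hZ := Z_Kloc_le ν ha l hl (δ := del a l) (t' := t') (t1 := t1) (τ := τ) (ε := ε)
    (del_nonneg ha l) (by linarith) ht'0 ht'2 hyp (by linarith) (by linarith)
  have hB : 0 ≤ (l:ℝ) ^ 3 * (P ν a + τ + ε / 2) +
        Real.log (2 + 4 * (l:ℝ) ^ 3 / ((1 / (2 * t') - 1 / (2 * t1)) * t' ^ 2)) := by
    have h4 := P_nonneg ν ha
    have h5 : 0 ≤ Real.log (2 + 4 * (l:ℝ) ^ 3 / ((1 / (2 * t') - 1 / (2 * t1)) * t' ^ 2)) := by
      apply Real.log_nonneg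
      have : 0 ≤ 4 * (l:ℝ) ^ 3 / ((1 / (2 * t') - 1 / (2 * t1)) * t' ^ 2) := by positivity
      linarith
    positivity
  have h6 := P_pert_le ν ha l hl j ht.le htt' (adm_add ha ht.le hsum j) hB hZ
  refine h6.trans ?_
  have h8 : (2 + 4 * (l:ℝ) ^ 3 / ((1 / (2 * t') - 1 / (2 * t1)) * t' ^ 2)) =
      2 + 4 / (θ * t' ^ 2) * (l:ℝ) ^ 3 := by
    rw [hθ]; ring
  rw [h8, mul_add, ← mul_assoc, inv_mul_cancel₀ (by positivity), one_mul]
  linarith

end Vale.Agent.P171
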