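import Vale.Agent.P171.Cells

open MeasureTheory Filter Topology
open scoped ENNReal

namespace Vale.Agent.P171

theorem W_zero (ν : ℝ) (k : E3 → E3 → ℝ) : W ν k 0 = 1 := by
  simp [W, dbl]

theorem one_le_Xi (ν : ℝ) (a : ℕ → ℝ) (L : ℝ) : 1 ≤ Xi ν a L :=
  Z_zero_le (by rw [W_zero])

theorem W_ker_le {ν : ℝ} {a : ℕ → ℝ} (ha : Adm a) {N : ℕ} (x : Fin N → E3) :
    W ν (ker a) (conf x) ≤ ENNReal.ofReal (Real.exp (ν * N - Sq x)) := by
  rw [W_conf]
  apply ENNReal.ofReal_le_ofReal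
  apply Real.exp_le_exp.2
  have h1 := superstable ha x
  have h2 := Sq_nonneg x
  rw [Fintype.card_fin]
  linarith

theorem Xi_le (ν : ℝ) {a : ℕ → ℝ} (ha : Adm a) {L : ℝ} (hL : 0 ≤ L) :
    Xi ν a L ≤ ENNReal.ofReal (Real.exp ((1 + 16 * ν ^ 2) * (L + 1) ^ 3)) := by
  unfold Xi
  refine (Z_le_cells ν (idx (1/4) 0 L) (measurableSet_box L)
    (box_subset (by norm_num) 0 L) (fun N x _ => W_ker_le ha x)).trans ?_
  apply ENNReal.ofReal_le_ofReal
  apply Real.exp_le_exp.2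
  have h1 := card_idx_small hL
  calc (ν ^ 2 / 4 + 1 / 64) * ((idx (1/4) 0 L).card : ℝ)
      ≤ (ν ^ 2 / 4 + 1 / 64) * (64 * (L + 1) ^ 3) := by gcongr
    _ = (1 + 16 * ν ^ 2) * (L + 1) ^ 3 := by ring

theorem Xi_neg (ν : ℝ) (a : ℕ → ℝ) {L : ℝ} (hL : L < 0) : Xi ν a L = 1 := by
  refine le_antisymm ?_ (one_le_Xi ν a L)
  have hb : box L = ∅ := by
    ext x
    simp only [box, Set.mem_ofPred_eq, Set.mem_empty_iff_false, iff_false, not_forall]
    refine ⟨0, fun h => ?_⟩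
    linarith [h.1, h.2]
  unfold Xi
  rw [hb, ← Z_empty]
  unfold Z
  refine ENNReal.tsum_le_tsum fun N => ?_
  gcongr
  unfold In
  cases N with
  | zero =>
    refine lintegral_mono fun x => ?_
    have : conf x = 0 := by simp [conf]
    rw [this, W_zero]
  | succ n =>
    have : (Set.univ.pi fun _ : Fin (n+1) => (∅ : Set E3)) = ∅ := by
      rw [Set.univ_pi_eq_empty_iff]
      exact ⟨0, rfl⟩
    rw [this]
    simp

theorem Xi_ne_top (ν : ℝ) {a : ℕ → ℝ} (ha : Adm a) (L : ℝ) : Xi ν a L ≠ ⊤ := by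
  rcases lt_or_ge L 0 with h | h
  · rw [Xi_neg ν a h]; simp
  · exact ne_top_of_le_ne_top ENNReal.ofReal_ne_top (Xi_le ν ha h)

theorem one_le_XiR (ν : ℝ) {a : ℕ → ℝ} (ha : Adm a) (L : ℝ) : 1 ≤ (Xi ν a L).toReal := by
  rw [← ENNReal.toReal_one]
  exact ENNReal.toReal_mono (Xi_ne_top ν ha L) (one_le_Xi ν a L)

theorem log_XiR_nonneg (ν : ℝ) {a : ℕ → ℝ} (ha : Adm a) (L : ℝ) :
    0 ≤ Real.log (Xi ν a L).toReal := Real.log_nonneg (one_le_XiR ν ha L)

theorem log_XiR_le (ν : ℝ) {a : ℕ → ℝ} (ha : Adm a) {L : ℝ} {c : ℝ}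
    (h : Xi ν a L ≤ ENNReal.ofReal (Real.exp c)) : Real.log (Xi ν a L).toReal ≤ c := by
  rw [Real.log_le_iff_le_exp (lt_of_lt_of_le one_pos (one_le_XiR ν ha L))]
  exact ENNReal.toReal_le_of_le_ofReal (Real.exp_pos _).le h

theorem term_le (ν : ℝ) {a : ℕ → ℝ} (ha : Adm a) (L : ℝ) :
    ((L + 1) ^ 3)⁻¹ * Real.log (Xi ν a L).toReal ≤ 1 + 16 * ν ^ 2 := by
  rcases lt_or_ge L 0 with h | h
  · rw [Xi_neg ν a h]
    simp
    positivity
  · have h1 := log_XiR_le ν ha (Xi_le ν ha h)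
    have h2 : 0 < (L + 1) ^ 3 := by positivity
    rw [inv_mul_le_iff₀ h2]
    linarith

theorem bddAbove_P (ν : ℝ) {a : ℕ → ℝ} (ha : Adm a) :
    BddAbove (Set.range fun L : ℝ => ((L + 1) ^ 3)⁻¹ * Real.log (Xi ν a L).toReal) :=
  ⟨1 + 16 * ν ^ 2, by rintro _ ⟨L, rfl⟩; exact term_le ν ha L⟩

theorem P_le (ν : ℝ) {a : ℕ → ℝ} (ha : Adm a) : P ν a ≤ 1 + 16 * ν ^ 2 :=
  ciSup_le fun L => term_le ν ha L

theorem le_P (ν : ℝ) {a : ℕ → ℝ} (ha : Adm a) (L : ℝ) :
    ((L + 1) ^ 3)⁻¹ * Real.log (Xi ν a L).toReal ≤ P ν a :=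
  le_ciSup (bddAbove_P ν ha) L

theorem P_nonneg (ν : ℝ) {a : ℕ → ℝ} (ha : Adm a) : 0 ≤ P ν a := by
  refine le_trans ?_ (le_P ν ha (-1))
  simp

theorem Xi_mono {ν ν' : ℝ} (h : ν ≤ ν') (a : ℕ → ℝ) (L : ℝ) : Xi ν a L ≤ Xi ν' a L := by
  unfold Xi
  refine Z_mono (Set.Subset.refl _) (measurableSet_box L) fun N x _ => ?_
  rw [W_conf, W_conf]
  apply ENNReal.ofReal_le_ofReal
  apply Real.exp_le_exp.2
  gcongr

theorem P_mono {ν ν' : ℝ} {a : ℕ → ℝ} (ha : Adm a) (h : ν ≤ ν') : P ν a ≤ P ν' a := by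
  refine ciSup_le fun L => ?_
  rcases lt_or_ge L 0 with hL | hL
  · rw [Xi_neg ν a hL]
    simp
    exact P_nonneg ν' ha
  · refine le_trans ?_ (le_P ν' ha L)
    have h2 : 0 < (L + 1) ^ 3 := by positivity
    have h3 : Real.log (Xi ν a L).toReal ≤ Real.log (Xi ν' a L).toReal :=
      Real.log_le_log (lt_of_lt_of_le one_pos (one_le_XiR ν ha L))
        (ENNReal.toReal_mono (Xi_ne_top ν' ha L) (Xi_mono h a L))
    gcongr

theorem Xi_le_P (ν : ℝ) {a : ℕ → ℝ} (ha : Adm a) {L : ℝ} (hL : 0 ≤ L) :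
    Xi ν a L ≤ ENNReal.ofReal (Real.exp ((L + 1) ^ 3 * P ν a)) := by
  have h1 := le_P ν ha L
  have h2 : 0 < (L + 1) ^ 3 := by positivity
  rw [inv_mul_le_iff₀ h2, Real.log_le_iff_le_exp (lt_of_lt_of_le one_pos (one_le_XiR ν ha L))] at h1
  rw [← ENNReal.ofReal_toReal (Xi_ne_top ν ha L)]
  exact ENNReal.ofReal_le_ofReal h1

theorem ker_nonneg_of_far {a : ℕ → ℝ} (ha : Adm a) {x y : E3} (h : 1/2 < dist x y) :
    0 ≤ ker a x y := by
  unfold ker
  rw [if_neg (not_le.2 h)]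
  have := tsum_vk_nonneg ha x y
  linarith

theorem ker_shift (a : ℕ → ℝ) (v x y : E3) : ker a (x - v) (y - v) = ker a x y := by
  unfold ker vk
  simp only [dist_sub_right]

theorem Xi_shift (ν : ℝ) (a : ℕ → ℝ) (v : E3) (L : ℝ) :
    Z (W ν (ker a)) (shift v (box L)) = Xi ν a L := by
  unfold Xi
  refine Z_shift v (box L) fun N x => ?_
  rw [W_conf, W_conf]
  simp only [ker_shift]

theorem measurableSet_shift {Λ : Set E3} (h : MeasurableSet Λ) (v : E3) :
    MeasurableSet (shift v Λ) := by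
  unfold shift
  exact (measurable_sub_const v) h

theorem abs_coord_le_dist (x y : E3) (r : Fin 3) : |x r - y r| ≤ dist x y := by
  rw [dist_eq_norm]
  exact PiLp.norm_apply_le (x - y) r

/-- position of the spaced box with index `k` -/
noncomputable def vpos (l : ℝ) {m : ℕ} (k : Fin 3 → Fin m) : E3 :=
  WithLp.toLp 2 (fun i => (l + 1) * ((k i : ℕ) : ℝ))

theorem spaced_far {l : ℝ} (hl : 0 ≤ l) {m : ℕ} {k k' : Fin 3 → Fin m} (h : k ≠ k') {x y : E3}
    (hx : x ∈ shift (vpos l k) (box l)) (hy : y ∈ shift (vpos l k') (box l)) :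
    1 ≤ dist x y := by
  obtain ⟨r, hr⟩ : ∃ r, k r ≠ k' r := by
    by_contra hc
    push Not at hc
    exact h (funext hc)
  refine le_trans ?_ (abs_coord_le_dist x y r)
  have h1 := hx r
  have h2 := hy r
  simp only [vpos, PiLp.sub_apply] at h1 h2
  have h3 : ((k r : ℕ) : ℤ) ≠ ((k' r : ℕ) : ℤ) := by
    intro hc
    apply hr
    exact Fin.ext (by exact_mod_cast hc)
  rcases lt_or_gt_of_ne h3 with h4 | h4
  · have h5 : ((k r : ℕ) : ℝ) + 1 ≤ ((k' r : ℕ) : ℝ) := by exact_mod_cast h4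
    have h6 : (l + 1) * (((k r : ℕ) : ℝ) + 1) ≤ (l + 1) * ((k' r : ℕ) : ℝ) := by
      gcongr
    rw [abs_sub_comm, le_abs]
    left
    linarith [h1.1, h1.2, h2.1, h2.2]
  · have h5 : ((k' r : ℕ) : ℝ) + 1 ≤ ((k r : ℕ) : ℝ) := by exact_mod_cast h4
    have h6 : (l + 1) * (((k' r : ℕ) : ℝ) + 1) ≤ (l + 1) * ((k r : ℕ) : ℝ) := by
      gcongr
    rw [le_abs]
    left
    linarith [h1.1, h1.2, h2.1, h2.2]

theorem Xi_superadd (ν : ℝ) {a : ℕ → ℝ} (ha : Adm a) {l L : ℝ} (hl : 0 ≤ l) (m : ℕ)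
    (hm : m * (l + 1) ≤ L) : Xi ν a l ^ (m ^ 3) ≤ Xi ν a L := by
  classical
  have hdisj : ∀ c ∈ (Finset.univ : Finset (Fin 3 → Fin m)), ∀ d ∈ (Finset.univ : Finset (Fin 3 → Fin m)),
      c ≠ d → Disjoint (shift (vpos l c) (box l)) (shift (vpos l d) (box l)) := by
    intro c _ d _ hcd
    rw [Set.disjoint_left]
    intro x hx hy
    have := spaced_far hl hcd hx hy
    rw [dist_self] at this
    linarith
  have hmeas : ∀ c ∈ (Finset.univ : Finset (Fin 3 → Fin m)),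
      MeasurableSet (shift (vpos l c) (box l)) :=
    fun c _ => measurableSet_shift (measurableSet_box l) _
  have h1 := Z_prod (Finset.univ : Finset (Fin 3 → Fin m)) (fun c => shift (vpos l c) (box l))
    hmeas hdisj (fun _ => W ν (ker a)) (fun _ _ => Meas_W ν (measurable_ker ha))
  simp only [Xi_shift] at h1
  rw [Finset.prod_const, Finset.card_univ, Fintype.card_fun, Fintype.card_fin,
    Fintype.card_fin] at h1
  rw [← h1]
  unfold Xi
  refine Z_mono ?_ (Finset.measurableSet_biUnion _ hmeas) fun N x hx => ?_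
  · intro y hy
    simp only [Set.mem_iUnion] at hy
    obtain ⟨c, -, hc⟩ := hy
    intro r
    have h2 := hc r
    simp only [vpos, PiLp.sub_apply] at h2
    have h3 : ((c r : ℕ) : ℝ) + 1 ≤ (m : ℝ) := by exact_mod_cast (c r).2
    have h4 : (0:ℝ) ≤ ((c r : ℕ) : ℝ) := Nat.cast_nonneg _
    constructor
    · have : 0 ≤ (l + 1) * ((c r : ℕ) : ℝ) := by positivity
      linarith [h2.1]
    · have : (l + 1) * (((c r : ℕ) : ℝ) + 1) ≤ (l + 1) * m := by gcongr
      nlinarith [h2.2]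
  · rw [prod_W_rst _ _ hdisj ν _ x hx, W_conf]
    apply ENNReal.ofReal_le_ofReal
    apply Real.exp_le_exp.2
    gcongr with i _ j _
    split_ifs with h
    · exact le_rfl
    · apply ker_nonneg_of_far ha
      obtain ⟨c, -, hc⟩ : ∃ c ∈ (Finset.univ : Finset (Fin 3 → Fin m)),
        x i ∈ shift (vpos l c) (box l) := by simpa using hx i
      obtain ⟨d, -, hd⟩ : ∃ c ∈ (Finset.univ : Finset (Fin 3 → Fin m)),
        x j ∈ shift (vpos l c) (box l) := by simpa using hx j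
      have hcd : c ≠ d := by
        rintro rfl
        exact h ⟨c, Finset.mem_univ _, hc, hd⟩
      have := spaced_far hl hcd hc hd
      linarith

theorem log_superadd (ν : ℝ) {a : ℕ → ℝ} (ha : Adm a) {l L : ℝ} (hl : 0 ≤ l) (m : ℕ)
    (hm : m * (l + 1) ≤ L) :
    (m : ℝ) ^ 3 * Real.log (Xi ν a l).toReal ≤ Real.log (Xi ν a L).toReal := by
  have h1 := Xi_superadd ν ha hl m hm
  have h2 : (Xi ν a l).toReal ^ (m ^ 3) ≤ (Xi ν a L).toReal := by
    rw [← ENNReal.toReal_pow]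
    exact ENNReal.toReal_mono (Xi_ne_top ν ha L) h1
  have h3 : 0 < (Xi ν a l).toReal := lt_of_lt_of_le one_pos (one_le_XiR ν ha l)
  have h4 := Real.log_le_log (pow_pos h3 _) h2
  rw [Real.log_pow] at h4
  exact_mod_cast h4

theorem tendsto_floor_div {l : ℝ} (hl : 0 ≤ l) :
    Tendsto (fun L : ℝ => ((⌊L / (l + 1)⌋₊ : ℕ) : ℝ) / L) atTop (𝓝 (l + 1)⁻¹) := by
  have h1 : Tendsto (fun L : ℝ => L / (l + 1)) atTop atTop :=
    tendsto_id.atTop_div_const (by linarith)
  have h2 := (tendsto_nat_floor_div_atTop (R := ℝ)).comp h1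
  have h3 : Tendsto (fun L : ℝ => ((⌊L / (l + 1)⌋₊ : ℕ) : ℝ) / (L / (l + 1)) * (l + 1)⁻¹)
      atTop (𝓝 (1 * (l + 1)⁻¹)) := h2.mul_const _
  rw [one_mul] at h3
  refine h3.congr' ?_
  filter_upwards [eventually_gt_atTop 0] with L hL
  have : (l + 1) ≠ 0 := by positivity
  field_simp

theorem tendsto_P (ν : ℝ) {a : ℕ → ℝ} (ha : Adm a) :
    Tendsto (fun L : ℝ => (L ^ 3)⁻¹ * Real.log (Xi ν a L).toReal) atTop (𝓝 (P ν a)) := by
  rw [tendsto_order]
  constructor
  · intro c hc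
    obtain ⟨l, hl⟩ := exists_lt_of_lt_ciSup hc
    rcases lt_or_ge l 0 with hl0 | hl0
    · rw [Xi_neg ν a hl0] at hl
      simp at hl
      filter_upwards [eventually_gt_atTop 0] with L hL
      refine lt_of_lt_of_le hl ?_
      have := log_XiR_nonneg ν ha L
      positivity
    · have h1 := ((tendsto_floor_div hl0).pow 3).mul_const (Real.log (Xi ν a l).toReal)
      rw [inv_pow] at h1
      have h2 := (tendsto_order.1 h1).1 c hl
      filter_upwards [h2, eventually_gt_atTop 0] with L h3 hL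
      refine lt_of_lt_of_le h3 ?_
      have h4 : ((⌊L / (l + 1)⌋₊ : ℕ) : ℝ) * (l + 1) ≤ L := by
        have : ((⌊L / (l + 1)⌋₊ : ℕ) : ℝ) ≤ L / (l + 1) := Nat.floor_le (by positivity)
        rwa [le_div_iff₀ (by positivity)] at this
      have h5 := log_superadd ν ha hl0 _ h4
      rw [div_pow, div_mul_eq_mul_div, div_eq_inv_mul]
      gcongr
  · intro c hc
    have h1 : Tendsto (fun L : ℝ => ((L + 1) / L) ^ 3 * P ν a) atTop (𝓝 (1 ^ 3 * P ν a)) := by
      refine Tendsto.mul_const _ (Tendsto.pow ?_ 3)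
      have : Tendsto (fun L : ℝ => 1 + L⁻¹) atTop (𝓝 (1 + 0)) :=
        tendsto_const_nhds.add tendsto_inv_atTop_zero
      rw [add_zero] at this
      refine this.congr' ?_
      filter_upwards [eventually_gt_atTop 0] with L hL
      field_simp
    rw [one_pow, one_mul] at h1
    have h2 := (tendsto_order.1 h1).2 c hc
    filter_upwards [h2, eventually_gt_atTop 0] with L h3 hL
    refine lt_of_le_of_lt ?_ h3
    have h4 := log_XiR_le ν ha (Xi_le_P ν ha hL.le)
    rw [div_pow, div_mul_eq_mul_div, div_eq_inv_mul]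
    gcongr

/-! ### lower semicontinuity -/

theorem ker_sub_le {a b : ℕ → ℝ} (ha : Adm a) (hb : Adm b) (x y : E3) :
    ker b x y ≤ ker a x y + c3⁻¹ * ∑' j, |a j - b j| := by
  have hs : Summable fun j => |a j - b j| := (ha.summable.sub hb.summable).abs
  unfold ker
  have h1 : ∑' j, b j * vk j x y ≤ ∑' j, (a j * vk j x y + |a j - b j| * c3⁻¹) := by
    refine (summable_vk hb x y).tsum_le_tsum (fun j => ?_)
      ((summable_vk ha x y).add (hs.mul_right _))
    have h2 : (b j - a j) * vk j x y ≤ |a j - b j| * c3⁻¹ := by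
      rw [abs_sub_comm]
      calc (b j - a j) * vk j x y ≤ |b j - a j| * vk j x y :=
            mul_le_mul_of_nonneg_right (le_abs_self _) (vk_nonneg _ _ _)
        _ ≤ |b j - a j| * c3⁻¹ := mul_le_mul_of_nonneg_left (vk_le _ _ _) (abs_nonneg _)
    linarith
  rw [((summable_vk ha x y)).tsum_add (hs.mul_right _), tsum_mul_right] at h1
  linarith

theorem In_compare {ν ν' : ℝ} {a b : ℕ → ℝ} (ha : Adm a) (hb : Adm b) (Λ : Set E3)
    (hΛ : MeasurableSet Λ) (N : ℕ) :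
    In (W ν' (ker b)) Λ (Fin N) ≤ ENNReal.ofReal (Real.exp (|ν' - ν| * N +
      (1/2) * (N * (N * (c3⁻¹ * ∑' j, |a j - b j|))))) * In (W ν (ker a)) Λ (Fin N) := by
  unfold In
  rw [← lintegral_const_mul' _ _ ENNReal.ofReal_ne_top]
  refine setLIntegral_mono' (MeasurableSet.univ_pi fun _ => hΛ) fun x _ => ?_
  rw [W_conf, W_conf, ← ENNReal.ofReal_mul (Real.exp_pos _).le, ← Real.exp_add]
  apply ENNReal.ofReal_le_ofReal
  apply Real.exp_le_exp.2
  rw [Fintype.card_fin]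
  have h1 : ∑ i, ∑ j, ker b (x i) (x j) ≤
      ∑ i, ∑ j, (ker a (x i) (x j) + c3⁻¹ * ∑' j, |a j - b j|) :=
    Finset.sum_le_sum fun i _ => Finset.sum_le_sum fun j _ => ker_sub_le ha hb _ _
  simp only [Finset.sum_add_distrib, Finset.sum_const, Finset.card_univ, Fintype.card_fin,
    nsmul_eq_mul] at h1
  have h2 : (ν' - ν) * N ≤ |ν' - ν| * N :=
    mul_le_mul_of_nonneg_right (le_abs_self _) (Nat.cast_nonneg N)
  linarith

theorem P_lsc (ν : ℕ → ℝ) (a : ℕ → ℕ → ℝ) (ν0 : ℝ) (a0 : ℕ → ℝ) (c : ℝ)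
    (ha : ∀ n, Adm (a n)) (ha0 : Adm a0) (hν : Tendsto ν atTop (𝓝 ν0))
    (hat : Tendsto (fun n => ∑' j, |a n j - a0 j|) atTop (𝓝 0))
    (hc : ∀ n, P (ν n) (a n) ≤ c) : P ν0 a0 ≤ c := by
  have hc0 : 0 ≤ c := (P_nonneg (ν 0) (ha 0)).trans (hc 0)
  refine ciSup_le fun L => ?_
  rcases lt_or_ge L 0 with hL | hL
  · rw [Xi_neg ν0 a0 hL]
    simpa using hc0
  have h2 : 0 < (L + 1) ^ 3 := by positivity
  rw [inv_mul_le_iff₀ h2]
  apply log_XiR_le ν0 ha0
  -- bound partial sums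
  unfold Xi Z
  rw [ENNReal.tsum_eq_iSup_nat]
  refine iSup_le fun M => ?_
  set θ : ℕ → ℝ := fun n => |ν0 - ν n| * M +
      (1/2) * (M * (M * (c3⁻¹ * ∑' j, |a n j - a0 j|))) with hθ
  have hθ0 : Tendsto θ atTop (𝓝 0) := by
    have h3 : Tendsto (fun n => |ν0 - ν n|) atTop (𝓝 |ν0 - ν0|) :=
      (tendsto_const_nhds.sub hν).abs
    have h4 : Tendsto θ atTop (𝓝 (|ν0 - ν0| * M + (1/2) * (M * (M * (c3⁻¹ * 0))))) :=
      (h3.mul_const _).add ((((hat.const_mul _).const_mul _).const_mul _).const_mul _)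
    simpa using h4
  have key : ∀ n, ∑ N ∈ Finset.range M, ((N.factorial : ℕ) : ℝ≥0∞)⁻¹ *
      In (W ν0 (ker a0)) (box L) (Fin N) ≤
      ENNReal.ofReal (Real.exp (θ n + (L + 1) ^ 3 * c)) := by
    intro n
    have hδ : 0 ≤ ∑' j, |a n j - a0 j| := tsum_nonneg fun j => abs_nonneg _
    have hc3 : 0 < c3⁻¹ := inv_pos.2 c3_pos
    calc ∑ N ∈ Finset.range M, ((N.factorial : ℕ) : ℝ≥0∞)⁻¹ *
          In (W ν0 (ker a0)) (box L) (Fin N)
        ≤ ∑ N ∈ Finset.range M, ENNReal.ofReal (Real.exp (θ n)) *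
          (((N.factorial : ℕ) : ℝ≥0∞)⁻¹ * In (W (ν n) (ker (a n))) (box L) (Fin N)) := by
          refine Finset.sum_le_sum fun N hN => ?_
          have hNM : (N:ℝ) ≤ M := by exact_mod_cast (Finset.mem_range.1 hN).le
          rw [mul_left_comm]
          gcongr
          refine (In_compare (ν := ν n) (ν' := ν0) (ha n) ha0 (box L) (measurableSet_box L) N).trans ?_
          gcongr
          simp only [hθ]
          gcongr
      _ = ENNReal.ofReal (Real.exp (θ n)) * ∑ N ∈ Finset.range M,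
          (((N.factorial : ℕ) : ℝ≥0∞)⁻¹ * In (W (ν n) (ker (a n))) (box L) (Fin N)) := by
          rw [Finset.mul_sum]
      _ ≤ ENNReal.ofReal (Real.exp (θ n)) * Xi (ν n) (a n) L := by
          gcongr
          exact ENNReal.sum_le_tsum _
      _ ≤ ENNReal.ofReal (Real.exp (θ n)) * ENNReal.ofReal (Real.exp ((L + 1) ^ 3 * c)) := by
          gcongr
          refine (Xi_le_P (ν n) (ha n) hL).trans ?_
          apply ENNReal.ofReal_le_ofReal
          apply Real.exp_le_exp.2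
          have := hc n
          gcongr
      _ = _ := by rw [← ENNReal.ofReal_mul (Real.exp_pos _).le, ← Real.exp_add]
  have hlim : Tendsto (fun n => ENNReal.ofReal (Real.exp (θ n + (L + 1) ^ 3 * c))) atTop
      (𝓝 (ENNReal.ofReal (Real.exp (0 + (L + 1) ^ 3 * c)))) :=
    (ENNReal.continuous_ofReal.tendsto _).comp ((Real.continuous_exp.tendsto _).comp
      (hθ0.add_const _))
  rw [zero_add] at hlim
  exact ge_of_tendsto' hlim key

theorem adm_zero : Adm (0 : ℕ → ℝ) where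
  nonneg := fun _ => le_rfl
  summable := summable_zero
  le := by simp

theorem P_zero_le : P (Hc / 2) 0 ≤ 1 := by
  refine ciSup_le fun L => ?_
  rcases lt_or_ge L 0 with hL | hL
  · rw [Xi_neg _ _ hL]; simp
  have h2 : 0 < (L + 1) ^ 3 := by positivity
  rw [inv_mul_le_iff₀ h2]
  apply log_XiR_le _ adm_zero
  have hH : (0:ℝ) < Hc := by unfold Hc; norm_num
  have hvol : volume (box L) ≤ ENNReal.ofReal ((L + 1) ^ 3) := by
    refine (measure_mono (box_subset (l := L + 1) (by linarith) 0 L)).trans ?_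
    have hidx : idx (L + 1) 0 L = {fun _ => 0} := by
      unfold idx
      have e1 : ⌊(0 - (0:ℝ)) / (L + 1)⌋ = 0 := by simp
      have e2 : ⌊(L - (0:ℝ)) / (L + 1)⌋ = 0 := by
        rw [Int.floor_eq_zero_iff, Set.mem_Ico]
        constructor
        · apply div_nonneg <;> linarith
        · rw [div_lt_one (by linarith)]; linarith
      rw [e1, e2]
      ext k
      simp [funext_iff]
    rw [hidx]
    simp only [Finset.mem_singleton, Set.iUnion_iUnion_eq_left]
    rw [volume_cube (by linarith)]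
  unfold Xi Z
  calc ∑' N : ℕ, ((N.factorial : ℕ) : ℝ≥0∞)⁻¹ * In (W (Hc / 2) (ker 0)) (box L) (Fin N)
      ≤ ∑' N : ℕ, ((N.factorial : ℕ) : ℝ≥0∞)⁻¹ * ENNReal.ofReal ((L + 1) ^ 3) ^ N := by
        refine ENNReal.tsum_le_tsum fun N => ?_
        gcongr
        calc In (W (Hc / 2) (ker 0)) (box L) (Fin N) ≤ In (fun _ => 1) (box L) (Fin N) := by
              refine In_mono (Set.Subset.refl _) (measurableSet_box L) _ fun x _ => ?_
              rw [W_conf]
              refine (ENNReal.ofReal_le_ofReal (Real.exp_le_one_iff.2 ?_)).trans_eq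
                ENNReal.ofReal_one
              have h3 : ∀ i j, ker 0 (x i) (x j) = -(if dist (x i) (x j) ≤ 1/2 then Hc else 0) := by
                intro i j
                simp [ker]
              simp_rw [h3]
              have h4 : (N:ℝ) * Hc ≤ ∑ i, ∑ j, (if dist (x i) (x j) ≤ 1/2 then Hc else 0) := by
                calc (N:ℝ) * Hc = ∑ i : Fin N, Hc := by simp
                  _ ≤ _ := by
                    refine Finset.sum_le_sum fun i _ => ?_
                    calc Hc = (if dist (x i) (x i) ≤ 1/2 then Hc else 0) := by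
                          rw [dist_self]; norm_num
                      _ ≤ _ := Finset.single_le_sum
                          (f := fun j => if dist (x i) (x j) ≤ 1/2 then Hc else 0)
                          (fun j _ => by split_ifs <;> simp [hH.le]) (Finset.mem_univ i)
              rw [Fintype.card_fin]
              simp_rw [Finset.sum_neg_distrib]
              linarith
          _ = volume (box L) ^ N := by
              unfold In
              rw [setLIntegral_const, volume_pi, Measure.pi_pi]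
              simp
          _ ≤ _ := by gcongr
    _ = ENNReal.ofReal (Real.exp ((L + 1) ^ 3)) := tsum_exp_ennreal h2.le
    _ = _ := by rw [mul_one]

end Vale.Agent.P171
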