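import Vale.Agent.P171.Conf

open MeasureTheory Filter Topology
open scoped ENNReal

namespace Vale.Agent.P171

theorem Meas.rst {F : Multiset E3 → ℝ≥0∞} (hF : Meas F) {A : Set E3} (hA : MeasurableSet A) :
    Meas (fun ω => F (rst A ω)) := by
  classical
  intro N
  have h : (fun x : Fin N → E3 => F (Vale.Agent.P171.rst A (conf x))) = fun x =>
      ∑ S : Finset (Fin N), Set.indicator {x : Fin N → E3 | ∀ i, i ∈ S ↔ x i ∈ A}
        (fun x => F (@conf {i // i ∈ S} (Subtype.fintype fun i => i ∈ S) (fun i => x i))) x := by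
    funext x
    set S0 : Finset (Fin N) := Finset.univ.filter (fun i => x i ∈ A) with hS0
    rw [Finset.sum_eq_single S0]
    · rw [Set.indicator_of_mem]
      · congr 1
        rw [conf_split (fun i => i ∈ S0) x, rst_add]
        rw [@rst_conf_of_forall_mem _ (Subtype.fintype fun i => i ∈ S0) A
          (fun i : {i // i ∈ S0} => x i) (fun i => by
            have := i.2; simp only [hS0, Finset.mem_filter, Finset.mem_univ, true_and] at this
            exact this),
          @rst_conf_of_forall_not_mem _ (Subtype.fintype fun i => ¬ (i ∈ S0)) A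
          (fun i : {i // i ∉ S0} => x i) (fun i => by
            have := i.2; simp only [hS0, Finset.mem_filter, Finset.mem_univ, true_and] at this
            exact this), add_zero]
      · intro i
        simp [hS0]
    · intro S _ hS
      rw [Set.indicator_of_notMem]
      intro hx
      apply hS
      ext i
      simp only [hS0, Finset.mem_filter, Finset.mem_univ, true_and]
      exact hx i
    · intro h
      exact absurd (Finset.mem_univ _) h
  rw [h]
  refine Finset.measurable_sum _ fun S _ => ?_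
  refine Measurable.indicator ?_ ?_
  · refine (@Meas.gen F hF _ (Subtype.fintype fun i => i ∈ S)).comp ?_
    exact measurable_pi_lambda _ fun i => measurable_pi_apply _
  · have : {x : Fin N → E3 | ∀ i, i ∈ S ↔ x i ∈ A} = ⋂ i, {x : Fin N → E3 | i ∈ S ↔ x i ∈ A} := by
      ext x; simp
    rw [this]
    refine MeasurableSet.iInter fun i => ?_
    by_cases hi : i ∈ S
    · have h2 : {x : Fin N → E3 | i ∈ S ↔ x i ∈ A} = (fun x : Fin N → E3 => x i) ⁻¹' A := by
        ext x; simp [hi]
      rw [h2]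
      exact measurable_pi_apply i hA
    · have h2 : {x : Fin N → E3 | i ∈ S ↔ x i ∈ A} = (fun x : Fin N → E3 => x i) ⁻¹' Aᶜ := by
        ext x; simp [hi]
      rw [h2]
      exact measurable_pi_apply i hA.compl

theorem Meas.prod {C : Type*} (s : Finset C) {F : C → Multiset E3 → ℝ≥0∞}
    (hF : ∀ c ∈ s, Meas (F c)) : Meas (fun ω => ∏ c ∈ s, F c ω) := by
  intro N
  exact Finset.measurable_prod _ fun c hc => hF c hc N

theorem rst_rst {A B : Set E3} (h : A ⊆ B) (ω : Multiset E3) : rst A (rst B ω) = rst A ω := by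
  classical
  unfold rst
  rw [Multiset.filter_filter]
  congr 1
  funext x
  simp only [eq_iff_iff, and_iff_left_iff_imp]
  exact fun hx => h hx

theorem vol_fin0 : (volume : Measure (Fin 0 → E3)) Set.univ = 1 := by
  rw [volume_pi, Measure.pi_univ]; simp

theorem Z_empty : Z (fun _ => 1) ∅ = 1 := by
  unfold Z
  rw [tsum_eq_single 0]
  · unfold In
    have : (Set.univ.pi fun _ : Fin 0 => (∅ : Set E3)) = Set.univ := by
      ext x; simp
    rw [this]
    simp [vol_fin0]
  · intro N hN
    unfold In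
    obtain ⟨n, rfl⟩ := Nat.exists_eq_succ_of_ne_zero hN
    have : (Set.univ.pi fun _ : Fin (n+1) => (∅ : Set E3)) = ∅ := by
      rw [Set.univ_pi_eq_empty_iff]
      exact ⟨0, rfl⟩
    rw [this]
    simp

theorem Z_prod {C : Type*} (s : Finset C) (Λ : C → Set E3)
    (hΛ : ∀ c ∈ s, MeasurableSet (Λ c))
    (hd : ∀ c ∈ s, ∀ d ∈ s, c ≠ d → Disjoint (Λ c) (Λ d))
    (F : C → Multiset E3 → ℝ≥0∞) (hF : ∀ c ∈ s, Meas (F c)) :
    Z (fun ω => ∏ c ∈ s, F c (rst (Λ c) ω)) (⋃ c ∈ s, Λ c) = ∏ c ∈ s, Z (F c) (Λ c) := by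
  classical
  induction s using Finset.induction_on with
  | empty => simpa using Z_empty
  | insert a s ha ih =>
    have hF' : ∀ c ∈ s, Meas (F c) := fun c hc => hF c (Finset.mem_insert_of_mem hc)
    have hΛ' : ∀ c ∈ s, MeasurableSet (Λ c) := fun c hc => hΛ c (Finset.mem_insert_of_mem hc)
    have ih' := ih hΛ' (fun c hc d hd' => hd c (Finset.mem_insert_of_mem hc) d
      (Finset.mem_insert_of_mem hd')) hF'
    rw [Finset.prod_insert ha, ← ih', Finset.set_biUnion_insert]
    have hG : Meas (fun ω => ∏ c ∈ s, F c (rst (Λ c) ω)) :=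
      Meas.prod s fun c hc => (hF' c hc).rst (hΛ' c hc)
    rw [← Z_union (hΛ a (Finset.mem_insert_self _ _))
      (Finset.measurableSet_biUnion s fun c hc => hΛ' c hc) ?_
      (hF a (Finset.mem_insert_self _ _)) hG]
    · congr 1
      funext ω
      rw [Finset.prod_insert ha]
      congr 1
      refine Finset.prod_congr rfl fun c hc => ?_
      rw [rst_rst]
      exact Set.subset_biUnion_of_mem (u := Λ) hc
    · rw [Set.disjoint_iUnion₂_right]
      intro c hc
      exact hd a (Finset.mem_insert_self _ _) c (Finset.mem_insert_of_mem hc)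
        (fun h => ha (h ▸ hc))

theorem In_mono {F G : Multiset E3 → ℝ≥0∞} {Λ Λ' : Set E3} (hΛ : Λ ⊆ Λ')
    (hm : MeasurableSet Λ) (ι : Type) [Fintype ι]
    (h : ∀ x : ι → E3, (∀ i, x i ∈ Λ) → F (conf x) ≤ G (conf x)) :
    In F Λ ι ≤ In G Λ' ι := by
  unfold In
  refine le_trans ?_ (lintegral_mono_set (Set.pi_mono fun _ _ => hΛ))
  refine setLIntegral_mono' (MeasurableSet.univ_pi fun _ => hm) ?_
  intro x hx
  exact h x fun i => hx i (Set.mem_univ i)

theorem Z_mono {F G : Multiset E3 → ℝ≥0∞} {Λ Λ' : Set E3} (hΛ : Λ ⊆ Λ')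
    (hm : MeasurableSet Λ)
    (h : ∀ N, ∀ x : Fin N → E3, (∀ i, x i ∈ Λ) → F (conf x) ≤ G (conf x)) :
    Z F Λ ≤ Z G Λ' := by
  unfold Z
  refine ENNReal.tsum_le_tsum fun N => ?_
  gcongr
  exact In_mono hΛ hm _ (h N)

/-- translation of a set -/
def shift (v : E3) (Λ : Set E3) : Set E3 := (fun x => x - v) ⁻¹' Λ

theorem In_shift {F : Multiset E3 → ℝ≥0∞} (v : E3) (Λ : Set E3)
    (hF : ∀ N, ∀ x : Fin N → E3, F (conf fun i => x i - v) = F (conf x)) (N : ℕ) :
    In F (shift v Λ) (Fin N) = In F Λ (Fin N) := by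
  unfold In
  have hmp : MeasurePreserving (fun x : Fin N → E3 => x - fun _ => v) volume volume :=
    measurePreserving_sub_right volume _
  have hemb : MeasurableEmbedding (fun x : Fin N → E3 => x - fun _ => v) :=
    (MeasurableEquiv.subRight (fun _ : Fin N => v)).measurableEmbedding
  have h := hmp.setLIntegral_comp_preimage_emb hemb (fun x => F (conf x))
    (Set.univ.pi fun _ => Λ)
  rw [← h]
  have hs : (fun x : Fin N → E3 => x - fun _ => v) ⁻¹' (Set.univ.pi fun _ => Λ) =
      Set.univ.pi fun _ => shift v Λ := by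
    ext x
    simp [shift]
  rw [hs]
  refine lintegral_congr fun x => ?_
  exact (hF N x).symm

theorem Z_shift {F : Multiset E3 → ℝ≥0∞} (v : E3) (Λ : Set E3)
    (hF : ∀ N, ∀ x : Fin N → E3, F (conf fun i => x i - v) = F (conf x)) :
    Z F (shift v Λ) = Z F Λ := by
  unfold Z
  exact tsum_congr fun N => by rw [In_shift v Λ hF N]

theorem Z_zero_le {F : Multiset E3 → ℝ≥0∞} {Λ : Set E3} (h : 1 ≤ F 0) : 1 ≤ Z F Λ := by
  unfold Z
  refine le_trans ?_ (ENNReal.le_tsum 0)
  unfold In
  have h1 : (Set.univ.pi fun _ : Fin 0 => Λ) = Set.univ := by ext x; simp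
  have h2 : ∀ x : Fin 0 → E3, conf x = 0 := fun x => by simp [conf]
  rw [h1]
  simp [h2, vol_fin0, h]

end Vale.Agent.P171
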