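import Vale.Agent.P171.LP2

open MeasureTheory Filter Topology
open scoped ENNReal

namespace Vale.Agent.P171

/-- integer index of a box label -/
def zi {n : ℕ} (k : Fin 3 → Fin n) : Fin 3 → ℤ := fun i => ((k i : ℕ) : ℤ)

theorem zi_injective {n : ℕ} : Function.Injective (zi (n := n)) := by
  intro k k' h
  funext i
  have := congrFun h i
  simp only [zi] at this
  exact Fin.ext (by exact_mod_cast this)

open Classical in
/-- exactly one particle, in the small cell at the corner -/
noncomputable def Gone {n : ℕ} (k : Fin 3 → Fin n) (ω : Multiset E3) : ℝ≥0∞ :=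
  if Multiset.card ω = 1 ∧ ∀ x ∈ ω, x ∈ cube (1/4) 0 (fun i => 4 * zi k i) then 1 else 0

theorem mem_conf {ι : Type*} [Fintype ι] (x : ι → E3) (y : E3) :
    y ∈ conf x ↔ ∃ i, x i = y := by
  simp [conf]

theorem Meas_Gone {n : ℕ} (k : Fin 3 → Fin n) : Meas (Gone k) := by
  classical
  intro N
  have : (fun x : Fin N → E3 => Gone k (conf x)) = fun x =>
      if (N = 1 ∧ x ∈ ⋂ i : Fin N, (fun x : Fin N → E3 => x i) ⁻¹'
        cube (1/4) 0 (fun i => 4 * zi k i)) then 1 else 0 := by
    funext x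
    unfold Gone
    simp only [card_conf, Fintype.card_fin, mem_conf, Set.mem_iInter, Set.mem_preimage]
    congr 1
    simp
  rw [this]
  by_cases hN : N = 1
  · simp only [hN, true_and]
    refine Measurable.ite ?_ measurable_const measurable_const
    exact MeasurableSet.iInter fun i => measurable_pi_apply i (measurableSet_cube (by norm_num) _ _)
  · simp only [hN, false_and, if_false]
    exact measurable_const

theorem small_subset_unit {n : ℕ} (k : Fin 3 → Fin n) :
    cube (1/4) 0 (fun i => 4 * zi k i) ⊆ cube 1 0 (zi k) := by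
  intro x hx
  have h := congrFun hx
  rw [mem_cube]
  funext i
  have hi := h i
  unfold cell at hi ⊢
  rw [Int.floor_eq_iff] at hi ⊢
  push_cast at hi
  constructor
  · have := hi.1
    rw [le_div_iff₀ (by norm_num)] at this ⊢
    linarith
  · have := hi.2
    rw [div_lt_iff₀ (by norm_num)] at this ⊢
    linarith

theorem Z_Gone_ge {n : ℕ} (k : Fin 3 → Fin n) :
    ENNReal.ofReal (1/64) ≤ Z (Gone k) (cube 1 0 (zi k)) := by
  classical
  unfold Z
  refine le_trans ?_ (ENNReal.le_tsum 1)
  have h1 : ENNReal.ofReal (1/64) =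
      In (fun _ => 1) (cube (1/4) 0 (fun i => 4 * zi k i)) (Fin 1) := by
    unfold In
    rw [setLIntegral_const, volume_pi, Measure.pi_pi]
    simp only [Finset.univ_unique, Finset.prod_const, Finset.card_singleton, pow_one, one_mul]
    rw [volume_cube (by norm_num)]
    norm_num
  rw [h1]
  simp only [Nat.factorial_one, Nat.cast_one, inv_one, one_mul]
  refine In_mono (small_subset_unit k) (measurableSet_cube (by norm_num) _ _) _ fun x hx => ?_
  unfold Gone
  rw [if_pos]
  refine ⟨by simp [card_conf], fun y hy => ?_⟩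
  rw [mem_conf] at hy
  obtain ⟨i, rfl⟩ := hy
  exact hx i

/-- the corner of the box with label `k` -/
noncomputable def pos {n : ℕ} (k : Fin 3 → Fin n) : E3 :=
  WithLp.toLp 2 (fun i => ((k i : ℕ) : ℝ))

theorem cell_pos {n : ℕ} (k : Fin 3 → Fin n) : cell (1/4) 0 (pos k) = fun i => 4 * zi k i := by
  funext i
  unfold cell pos zi
  simp only
  have : ((((k i : ℕ) : ℝ)) - 0) / (1/4) = ((4 * ((k i : ℕ) : ℤ) : ℤ) : ℝ) := by
    push_cast; ring
  rw [this, Int.floor_intCast]

theorem dist_pos_le {n : ℕ} {k : Fin 3 → Fin n} {x : E3}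
    (hx : x ∈ cube (1/4) 0 (fun i => 4 * zi k i)) : dist x (pos k) ≤ 1/2 := by
  apply dist_of_cell_small
  rw [cell_pos]
  exact hx

theorem far_of_ne {n : ℕ} {k k' : Fin 3 → Fin n} (h : k ≠ k') {x y : E3}
    (hx : x ∈ cube (1/4) 0 (fun i => 4 * zi k i)) (hy : y ∈ cube (1/4) 0 (fun i => 4 * zi k' i)) :
    1/2 < dist x y := by
  obtain ⟨r, hr⟩ : ∃ r, k r ≠ k' r := by
    by_contra hc
    push Not at hc
    exact h (funext hc)
  refine lt_of_lt_of_le ?_ (abs_coord_le_dist x y r)
  have h1 := congrFun hx r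
  have h2 := congrFun hy r
  unfold cell at h1 h2
  rw [Int.floor_eq_iff, le_div_iff₀ (by norm_num), div_lt_iff₀ (by norm_num)] at h1 h2
  unfold zi at h1 h2
  push_cast at h1 h2
  have h3 : ((k r : ℕ) : ℤ) ≠ ((k' r : ℕ) : ℤ) := by
    intro hc
    apply hr
    exact Fin.ext (by exact_mod_cast hc)
  rcases lt_or_gt_of_ne h3 with h4 | h4
  · have h5 : ((k r : ℕ) : ℝ) + 1 ≤ ((k' r : ℕ) : ℝ) := by exact_mod_cast h4
    rw [abs_sub_comm, lt_abs]
    left
    linarith [h1.1, h1.2, h2.1, h2.2]
  · have h5 : ((k' r : ℕ) : ℝ) + 1 ≤ ((k r : ℕ) : ℝ) := by exact_mod_cast h4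
    rw [lt_abs]
    left
    linarith [h1.1, h1.2, h2.1, h2.2]

/-- lower bound of the exponent of a one-particle-per-box configuration -/
theorem trial_exponent {a : ℕ → ℝ} (ha : Adm a) {n : ℕ} (J : ℕ)
    (hJ : ∀ m < J, 2 * Rad m ≤ n) {N : ℕ} (x : Fin N → E3) (e : Fin N ≃ (Fin 3 → Fin n))
    (hx : ∀ i, x i ∈ cube (1/4) 0 (fun r => 4 * zi (e i) r)) :
    -((n:ℝ) ^ 3 * Hc) + ∑ m ∈ Finset.range J, a m * (((Rad m - 3) / Rad m) ^ 3 *
      ((n:ℝ) - 2 * Rad m) ^ 3) ≤ ∑ i, ∑ j, ker a (x i) (x j) := by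
  classical
  have hH : (0:ℝ) < Hc := by unfold Hc; norm_num
  have hc := c3_pos
  unfold ker
  simp_rw [Finset.sum_add_distrib]
  have hcore : ∑ i, ∑ j, -(if dist (x i) (x j) ≤ 1/2 then Hc else 0) = -((n:ℝ) ^ 3 * Hc) := by
    have h1 : ∀ i j, -(if dist (x i) (x j) ≤ 1/2 then Hc else 0) = if j = i then -Hc else 0 := by
      intro i j
      by_cases h : j = i
      · subst h; simp
      · have hne : e i ≠ e j := fun h' => h (e.injective h').symm
        have := far_of_ne hne (hx i) (hx j)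
        rw [if_neg (not_le.2 this), if_neg h]; simp
    simp_rw [h1]
    simp only [Finset.sum_ite_eq', Finset.mem_univ, if_true, Finset.sum_const, Finset.card_univ,
      nsmul_eq_mul]
    have h2 : Fintype.card (Fin N) = n ^ 3 := by
      rw [Fintype.card_congr e, Fintype.card_fun, Fintype.card_fin, Fintype.card_fin]
    rw [h2]
    push_cast
    ring
  rw [hcore]
  gcongr
  rw [sum_tsum_vk ha]
  refine le_trans ?_ ((summable_sum_vk ha x).sum_le_tsum (Finset.range J)
    (fun m _ => mul_nonneg (ha.nonneg m) (Finset.sum_nonneg fun i _ =>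
      Finset.sum_nonneg fun j _ => vk_nonneg m _ _)))
  refine Finset.sum_le_sum fun m hm => ?_
  refine mul_le_mul_of_nonneg_left ?_ (ha.nonneg m)
  have hR := Rad_pos m
  have hl := lattice_pairs n (Rad m) (by linarith) (hJ m (Finset.mem_range.1 hm))
  have h3 : (0:ℝ) < c3 * Rad m ^ 3 := by positivity
  have h4 : ∑ k : Fin 3 → Fin n, ∑ k' : Fin 3 → Fin n,
        (if dist (pos k) (pos k') ≤ Rad m - 1 then (1:ℝ) else 0) ≤
        ∑ i, ∑ j, (c3 * Rad m ^ 3) * vk m (x i) (x j) := by
    rw [← e.sum_comp (fun k => ∑ k' : Fin 3 → Fin n,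
        (if dist (pos k) (pos k') ≤ Rad m - 1 then (1:ℝ) else 0))]
    refine Finset.sum_le_sum fun i _ => ?_
    rw [← e.sum_comp (fun k' =>
        (if dist (pos (e i)) (pos k') ≤ Rad m - 1 then (1:ℝ) else 0))]
    refine Finset.sum_le_sum fun j _ => ?_
    split_ifs with h
    · have h5 : dist (x i) (x j) ≤ Rad m := by
        have h6 := dist_pos_le (hx i)
        have h7 := dist_pos_le (hx j)
        have h8 := dist_triangle4 (x i) (pos (e i)) (pos (e j)) (x j)
        rw [dist_comm (pos (e j)) (x j)] at h8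
        linarith
      unfold vk
      rw [if_pos h5, mul_inv_cancel₀ h3.ne']
    · exact mul_nonneg h3.le (vk_nonneg _ _ _)
  have h5 : c3 * (Rad m - 3) ^ 3 * ((n:ℝ) - 2 * Rad m) ^ 3 ≤
      (c3 * Rad m ^ 3) * ∑ i, ∑ j, vk m (x i) (x j) := by
    refine hl.trans (h4.trans (le_of_eq ?_))
    simp only [Finset.mul_sum]
  have h6 : ((Rad m - 3) / Rad m) ^ 3 * ((n:ℝ) - 2 * Rad m) ^ 3 =
      (c3 * (Rad m - 3) ^ 3 * ((n:ℝ) - 2 * Rad m) ^ 3) / (c3 * Rad m ^ 3) := by
    field_simp
  rw [h6, div_le_iff₀ h3]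
  linarith

theorem Xi_trial_ge (ν : ℝ) {a : ℕ → ℝ} (ha : Adm a) (n : ℕ) (J : ℕ)
    (hJ : ∀ m < J, 2 * Rad m ≤ n) :
    ENNReal.ofReal (Real.exp ((n:ℝ) ^ 3 * (ν - Hc / 2 - Real.log 64) +
      (1/2) * ∑ m ∈ Finset.range J, a m * (((Rad m - 3) / Rad m) ^ 3 *
      ((n:ℝ) - 2 * Rad m) ^ 3))) ≤ Xi ν a n := by
  classical
  set S : ℝ := ∑ m ∈ Finset.range J, a m * (((Rad m - 3) / Rad m) ^ 3 *
      ((n:ℝ) - 2 * Rad m) ^ 3) with hS
  set C : ℝ := (n:ℝ) ^ 3 * (ν - Hc / 2) + (1/2) * S with hC
  have hdisj : ∀ c ∈ (Finset.univ : Finset (Fin 3 → Fin n)), ∀ d ∈ (Finset.univ : Finset (Fin 3 → Fin n)),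
      c ≠ d → Disjoint (cube 1 0 (zi c)) (cube 1 0 (zi d)) := by
    intro c _ d _ hcd
    exact cube_disjoint (fun h => hcd (zi_injective h))
  have hmeas : ∀ c ∈ (Finset.univ : Finset (Fin 3 → Fin n)), MeasurableSet (cube 1 0 (zi c)) :=
    fun c _ => measurableSet_cube one_pos _ _
  have h1 := Z_prod (Finset.univ : Finset (Fin 3 → Fin n)) (fun c => cube 1 0 (zi c)) hmeas hdisj
    (fun c => Gone c) (fun c _ => Meas_Gone c)
  have h2 : ENNReal.ofReal (1/64) ^ (n ^ 3) ≤
      ∏ c : Fin 3 → Fin n, Z (Gone c) (cube 1 0 (zi c)) := by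
    have : ENNReal.ofReal (1/64) ^ (n ^ 3) = ∏ c : Fin 3 → Fin n, ENNReal.ofReal (1/64) := by
      rw [Finset.prod_const, Finset.card_univ, Fintype.card_fun, Fintype.card_fin, Fintype.card_fin]
    rw [this]
    exact Finset.prod_le_prod' fun c _ => Z_Gone_ge c
  have hM : Meas (fun ω => ∏ c : Fin 3 → Fin n, Gone c (rst (cube 1 0 (zi c)) ω)) :=
    Meas.prod _ fun c hc => (Meas_Gone c).rst (hmeas c hc)
  have h3 : ENNReal.ofReal (Real.exp C) *
      Z (fun ω => ∏ c : Fin 3 → Fin n, Gone c (rst (cube 1 0 (zi c)) ω))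
        (⋃ c ∈ (Finset.univ : Finset (Fin 3 → Fin n)), cube 1 0 (zi c)) ≤ Xi ν a n := by
    rw [← Z_const_mul _ hM]
    unfold Xi
    refine Z_mono ?_ (Finset.measurableSet_biUnion _ hmeas) fun N x hx => ?_
    · intro y hy
      simp only [Set.mem_iUnion] at hy
      obtain ⟨c, -, hc⟩ := hy
      intro r
      have h4 := congrFun hc r
      unfold cell zi at h4
      rw [Int.floor_eq_iff] at h4
      push_cast at h4
      have h5 : ((c r : ℕ) : ℝ) + 1 ≤ (n : ℝ) := by exact_mod_cast (c r).2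
      have h6 : (0:ℝ) ≤ ((c r : ℕ) : ℝ) := Nat.cast_nonneg _
      constructor
      · linarith [h4.1]
      · linarith [h4.2]
    · by_cases hprod : ∀ c : Fin 3 → Fin n, Gone c (rst (cube 1 0 (zi c)) (conf x)) ≠ 0
      · -- all boxes have exactly one particle
        have hG : ∀ c : Fin 3 → Fin n, Multiset.card (rst (cube 1 0 (zi c)) (conf x)) = 1 ∧
            ∀ y ∈ rst (cube 1 0 (zi c)) (conf x), y ∈ cube (1/4) 0 (fun i => 4 * zi c i) := by
          intro c
          have := hprod c
          unfold Gone at this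
          by_contra hcon
          exact this (if_neg hcon)
        have hle1 : ∏ c : Fin 3 → Fin n, Gone c (rst (cube 1 0 (zi c)) (conf x)) = 1 := by
          refine Finset.prod_eq_one fun c _ => ?_
          unfold Gone
          rw [if_pos (hG c)]
        rw [hle1, mul_one, W_conf]
        apply ENNReal.ofReal_le_ofReal
        apply Real.exp_le_exp.2
        -- the bijection
        have hex : ∀ i, ∃ c : Fin 3 → Fin n, x i ∈ cube 1 0 (zi c) := by
          intro i
          simpa using hx i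
        choose e0 he0 using hex
        have hcount : ∀ c : Fin 3 → Fin n, (Finset.univ.filter fun i => x i ∈ cube 1 0 (zi c)).card
            = 1 := by
          intro c
          have h4 := (hG c).1
          have h5 : (Multiset.card (rst (cube 1 0 (zi c)) (conf x)) : ℝ) = 1 := by
            exact_mod_cast h4
          rw [card_rst_conf] at h5
          rw [Finset.card_filter]
          exact_mod_cast h5
        have hbij : Function.Bijective e0 := by
          constructor
          · intro i j hij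
            have h4 := hcount (e0 i)
            rw [Finset.card_eq_one] at h4
            obtain ⟨b, hb⟩ := h4
            have hi : i ∈ (Finset.univ.filter fun i' => x i' ∈ cube 1 0 (zi (e0 i))) := by
              simp [he0 i]
            have hj : j ∈ (Finset.univ.filter fun i' => x i' ∈ cube 1 0 (zi (e0 i))) := by
              have := he0 j
              rw [← hij] at this
              simp [this]
            rw [hb, Finset.mem_singleton] at hi hj
            rw [hi, hj]
          · intro c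
            have h4 := hcount c
            rw [Finset.card_eq_one] at h4
            obtain ⟨b, hb⟩ := h4
            refine ⟨b, ?_⟩
            have hb' : b ∈ (Finset.univ.filter fun i' => x i' ∈ cube 1 0 (zi c)) := by
              rw [hb]; simp
            have h5 : x b ∈ cube 1 0 (zi c) := by simpa using hb'
            exact zi_injective ((he0 b).symm.trans h5)
        set e : Fin N ≃ (Fin 3 → Fin n) := Equiv.ofBijective e0 hbij with he
        have hxs : ∀ i, x i ∈ cube (1/4) 0 (fun r => 4 * zi (e i) r) := by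
          intro i
          refine (hG (e0 i)).2 (x i) ?_
          unfold rst
          rw [Multiset.mem_filter]
          exact ⟨(mem_conf x _).2 ⟨i, rfl⟩, he0 i⟩
        have h6 := trial_exponent ha J hJ x e hxs
        have h7 : (Fintype.card (Fin N) : ℝ) = (n:ℝ) ^ 3 := by
          rw [Fintype.card_congr e, Fintype.card_fun, Fintype.card_fin, Fintype.card_fin]
          push_cast; ring
        rw [h7, hC, hS]
        linarith
      · push Not at hprod
        obtain ⟨c, hc⟩ := hprod
        rw [Finset.prod_eq_zero (Finset.mem_univ c) hc, mul_zero]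
        exact bot_le
  refine le_trans ?_ h3
  rw [h1]
  refine le_trans ?_ (mul_le_mul_right h2 _)
  rw [← ENNReal.ofReal_pow (by norm_num), ← ENNReal.ofReal_mul (Real.exp_pos _).le]
  apply ENNReal.ofReal_le_ofReal
  have h8 : ((1:ℝ)/64) ^ (n ^ 3) = Real.exp (-((n:ℝ) ^ 3 * Real.log 64)) := by
    rw [Real.exp_neg, mul_comm, Real.exp_mul, Real.exp_log (by norm_num)]
    rw [one_div, inv_pow]
    congr 1
    exact_mod_cast (Real.rpow_natCast (64:ℝ) (n ^ 3)).symm
  rw [h8, ← Real.exp_add]
  apply Real.exp_le_exp.2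
  rw [hC]
  linarith

theorem trial_lower (ν : ℝ) {a : ℕ → ℝ} (ha : Adm a) :
    ν - Hc / 2 - Real.log 64 + (7 / 16) * ∑' j, a j ≤ P ν a := by
  have key : ∀ J : ℕ, ν - Hc / 2 - Real.log 64 + (7 / 16) * ∑ m ∈ Finset.range J, a m ≤ P ν a := by
    intro J
    have h1 : Tendsto (fun n : ℕ => (((n:ℝ)) ^ 3)⁻¹ * Real.log (Xi ν a n).toReal) atTop
        (𝓝 (P ν a)) := (tendsto_P ν ha).comp tendsto_natCast_atTop_atTop
    have h2 : Tendsto (fun n : ℕ => (ν - Hc / 2 - Real.log 64) +
        (1/2) * ∑ m ∈ Finset.range J, a m * (((Rad m - 3) / Rad m) ^ 3 *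
          (1 - 2 * Rad m * ((n:ℝ))⁻¹) ^ 3)) atTop
        (𝓝 ((ν - Hc / 2 - Real.log 64) + (1/2) * ∑ m ∈ Finset.range J, a m *
          (((Rad m - 3) / Rad m) ^ 3 * (1 - 2 * Rad m * 0) ^ 3))) := by
      refine tendsto_const_nhds.add (Tendsto.const_mul _ (tendsto_finsetSum _ fun m _ => ?_))
      refine Tendsto.const_mul _ (Tendsto.const_mul _ (Tendsto.pow ?_ 3))
      exact tendsto_const_nhds.sub
        ((tendsto_inv_atTop_zero.comp tendsto_natCast_atTop_atTop).const_mul _)
    have h3 : (ν - Hc / 2 - Real.log 64) + (1/2) * ∑ m ∈ Finset.range J, a m *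
          (((Rad m - 3) / Rad m) ^ 3 * (1 - 2 * Rad m * 0) ^ 3) ≤ P ν a := by
      refine le_of_tendsto_of_tendsto h2 h1 ?_
      have h4 : ∀ᶠ n : ℕ in atTop, ∀ m < J, 2 * Rad m ≤ n := by
        have : ∀ᶠ n : ℕ in atTop, 2 * Rad J ≤ (n:ℝ) :=
          tendsto_natCast_atTop_atTop.eventually_ge_atTop _
        filter_upwards [this] with n hn m hm
        refine le_trans ?_ hn
        unfold Rad
        have : (m:ℝ) ≤ J := by exact_mod_cast hm.le
        linarith
      filter_upwards [h4, eventually_gt_atTop 0] with n hn hn0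
      have hn' : (0:ℝ) < n := by exact_mod_cast hn0
      have h5 := Xi_trial_ge ν ha n J hn
      have h6 : (n:ℝ) ^ 3 * (ν - Hc / 2 - Real.log 64) +
          (1/2) * ∑ m ∈ Finset.range J, a m * (((Rad m - 3) / Rad m) ^ 3 *
          ((n:ℝ) - 2 * Rad m) ^ 3) ≤ Real.log (Xi ν a n).toReal := by
        rw [Real.le_log_iff_exp_le (lt_of_lt_of_le one_pos (one_le_XiR ν ha n))]
        exact (ENNReal.ofReal_le_iff_le_toReal (Xi_ne_top ν ha n)).1 h5
      rw [← div_eq_inv_mul, le_div_iff₀ (by positivity)]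
      refine le_trans (le_of_eq ?_) h6
      rw [add_mul, mul_assoc, Finset.sum_mul]
      congr 1
      · ring
      · congr 1
        refine Finset.sum_congr rfl fun m _ => ?_
        field_simp
    refine le_trans ?_ h3
    refine add_le_add le_rfl ?_
    rw [Finset.mul_sum, Finset.mul_sum]
    refine Finset.sum_le_sum fun m _ => ?_
    have hR := Rad_pos m
    have h7 : (23:ℝ)/24 ≤ (Rad m - 3) / Rad m := by
      rw [div_le_div_iff₀ (by norm_num) (by linarith)]
      linarith
    have h8 : ((23:ℝ)/24) ^ 3 ≤ ((Rad m - 3) / Rad m) ^ 3 :=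
      pow_le_pow_left₀ (by norm_num) h7 3
    have h9 : (7:ℝ)/8 ≤ ((Rad m - 3) / Rad m) ^ 3 := le_trans (by norm_num) h8
    have h10 := ha.nonneg m
    have h11 : (1 - 2 * Rad m * 0) ^ 3 = (1:ℝ) := by simp
    rw [h11]
    nlinarith
  have hlim : Tendsto (fun J : ℕ => ν - Hc / 2 - Real.log 64 + (7 / 16) *
      ∑ m ∈ Finset.range J, a m) atTop
      (𝓝 (ν - Hc / 2 - Real.log 64 + (7 / 16) * ∑' j, a j)) :=
    tendsto_const_nhds.add ((ha.summable.hasSum.tendsto_sum_nat).const_mul _)
  exact le_of_tendsto' hlim key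

end Vale.Agent.P171
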